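import Vale.Agent.P097.H36.SecMom

set_option linter.all false

namespace Vale.Agent.P097.H36

open Complex Metric Set MeasureTheory intervalIntegral

/-- `h` holomorphic with positive real part on a box of size `R` over the height `d/2` -/
structure Box (h : ℂ → ℂ) (x d R : ℝ) : Prop where
  hd : 0 < d
  hR : 8 * d ≤ R
  diff : DifferentiableOn ℂ h {z | |z.re - x| ≤ R ∧ d / 2 ≤ z.im ∧ z.im ≤ R}
  pos : ∀ z : ℂ, |z.re - x| ≤ R → d / 2 ≤ z.im → z.im ≤ R → 0 < (h z).re

variable {h : ℂ → ℂ} {x d R : ℝ}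

theorem Box.ball (B : Box h x d R) {x' : ℝ} (hx : |x' - x| ≤ R / 4) {z : ℂ}
    (hz : z ∈ ball ((x' : ℂ) + (R / 2 : ℝ) * I) ((R - d) / 2)) :
    |z.re - x| ≤ R ∧ d / 2 ≤ z.im ∧ z.im ≤ R := by
  have hd := B.hd
  rw [mem_ball, dist_eq] at hz
  have h1 := (Complex.abs_re_le_norm (z - ((x' : ℂ) + (R / 2 : ℝ) * I))).trans hz.le
  have h2 := (Complex.abs_im_le_norm (z - ((x' : ℂ) + (R / 2 : ℝ) * I))).trans hz.le
  simp only [sub_re, add_re, ofReal_re, mul_re, ofReal_im, I_re, I_im, mul_zero, zero_mul,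
    sub_im, add_im, mul_im, mul_one, sub_zero, add_zero, zero_add] at h1 h2
  rw [abs_le] at h1 h2 hx ⊢
  refine ⟨⟨?_, ?_⟩, ?_, ?_⟩ <;> linarith [h1.1, h1.2, h2.1, h2.2, hx.1, hx.2]

theorem Box.top1 (B : Box h x d R) {x' : ℝ} (hx : |x' - x| ≤ R / 4) :
    ‖h ((x' : ℂ) + (R / 2 : ℝ) * I)‖ ≤ 4 * ‖h ((x : ℂ) + (R / 2 : ℝ) * I)‖ ∧
    ‖h ((x : ℂ) + (R / 2 : ℝ) * I)‖ ≤ 4 * ‖h ((x' : ℂ) + (R / 2 : ℝ) * I)‖ := by
  have hd := B.hd
  have hR := B.hR
  have h0 : |x - x| ≤ R / 4 := by simp; linarith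
  have := harnack (h := h) (z := (x : ℂ) + (R / 2 : ℝ) * I) (w := (x' : ℂ) + (R / 2 : ℝ) * I)
    (r := (R - d) / 2) (t := 4 / 7) (by linarith) (by norm_num) (by norm_num)
    (B.diff.mono fun z hz => B.ball h0 hz)
    (fun w hw => B.pos w (B.ball h0 hw).1 (B.ball h0 hw).2.1 (B.ball h0 hw).2.2)
    (by
      rw [dist_eq, add_sub_add_right_eq_sub, ← ofReal_sub, Complex.norm_real, Real.norm_eq_abs]
      linarith)
  constructor
  · linarith [this.1, norm_nonneg (h ((x : ℂ) + (R / 2 : ℝ) * I))]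
  · linarith [this.2, norm_nonneg (h ((x' : ℂ) + (R / 2 : ℝ) * I))]

theorem Box.vert (B : Box h x d R) {x' y : ℝ} (hx : |x' - x| ≤ R / 4) (hy1 : d ≤ y)
    (hy2 : y ≤ R / 2) :
    ‖h ((x' : ℂ) + y * I)‖ ≤ 8 * R / y * ‖h ((x : ℂ) + (R / 2 : ℝ) * I)‖ := by
  have hd := B.hd
  have hR := B.hR
  have hr : 0 < (R - d) / 2 := by linarith
  have hypos : 0 < y := by linarith
  have := harnack (h := h) (z := (x' : ℂ) + (R / 2 : ℝ) * I) (w := (x' : ℂ) + y * I)
    (r := (R - d) / 2) (t := (R / 2 - y) / ((R - d) / 2)) hr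
    (div_nonneg (by linarith) hr.le) (by rw [div_lt_one hr]; linarith)
    (B.diff.mono fun z hz => B.ball hx hz)
    (fun w hw => B.pos w (B.ball hx hw).1 (B.ball hx hw).2.1 (B.ball hx hw).2.2)
    (by
      rw [div_mul_cancel₀ _ hr.ne', dist_eq, add_sub_add_left_eq_sub, ← sub_mul, ← ofReal_sub,
        norm_mul, norm_I, mul_one, Complex.norm_real, Real.norm_eq_abs, abs_of_nonpos
        (by linarith)]
      linarith)
  have h1 := this.1
  have h2 := (B.top1 hx).1
  set a := ‖h ((x' : ℂ) + y * I)‖ with ha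
  set b := ‖h ((x' : ℂ) + (R / 2 : ℝ) * I)‖ with hb
  set c := ‖h ((x : ℂ) + (R / 2 : ℝ) * I)‖ with hc
  have hb0 : 0 ≤ b := norm_nonneg _
  have ha0 : 0 ≤ a := norm_nonneg _
  have e1 : (1 - (R / 2 - y) / ((R - d) / 2)) = (y - d / 2) / ((R - d) / 2) := by
    rw [eq_div_iff hr.ne', sub_mul, div_mul_cancel₀ _ hr.ne']
    ring
  have e2 : (1 + (R / 2 - y) / ((R - d) / 2)) ≤ 2 := by
    have : (R / 2 - y) / ((R - d) / 2) ≤ 1 := by rw [div_le_one hr]; linarith
    linarith
  rw [e1] at h1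
  have h3 : (y - d / 2) * a ≤ (R - d) * b := by
    have h4 : (y - d / 2) / ((R - d) / 2) * a ≤ 2 * b := by
      refine h1.trans ?_
      gcongr
    rw [div_mul_eq_mul_div, div_le_iff₀ hr] at h4
    linarith
  have h5 : y * a ≤ 8 * R * c := by
    have : y / 2 * a ≤ (y - d / 2) * a := by
      gcongr
      linarith
    have h6 : (R - d) * b ≤ R * (4 * c) := by
      have : (R - d) ≤ R := by linarith
      calc (R - d) * b ≤ R * b := by gcongr
        _ ≤ R * (4 * c) := by
          apply mul_le_mul_of_nonneg_left h2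
          linarith
    linarith
  rw [div_mul_eq_mul_div, le_div_iff₀ hypos]
  linarith

/-- Cauchy on a rectangle: base ≤ top + sides -/
theorem rect_le {g : ℂ → ℂ} {a b c e : ℝ} (hab : a ≤ b) (hce : c ≤ e)
    (hg : DifferentiableOn ℂ g (Set.uIcc a b ×ℂ Set.uIcc c e)) :
    ‖∫ x in a..b, g (x + c * I)‖ ≤ ‖∫ x in a..b, g (x + e * I)‖ +
      ‖∫ y in c..e, g (b + y * I)‖ + ‖∫ y in c..e, g (a + y * I)‖ := by
  have := Complex.integral_boundary_rect_eq_zero_of_differentiableOn g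
    (z := (a : ℂ) + c * I) (w := (b : ℂ) + e * I) (by simpa using hg)
  simp only [add_re, ofReal_re, mul_re, ofReal_im, I_re, I_im, mul_zero, zero_mul,
    add_im, mul_im, mul_one, sub_zero, add_zero, zero_add] at this
  have h2 : ∫ x in a..b, g (x + c * I) = (∫ x in a..b, g (x + e * I)) -
      I • (∫ y in c..e, g (b + y * I)) + I • (∫ y in c..e, g (a + y * I)) := by
    linear_combination this
  rw [h2]
  refine (norm_add_le _ _).trans ?_
  have h3 := norm_sub_le (∫ x in a..b, g (x + e * I)) (I • (∫ y in c..e, g (b + y * I)))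
  rw [norm_smul, norm_I, one_mul] at h3 ⊢
  linarith

theorem Box.main (B : Box h x d R) :
    ∫ x' in (x - R / 4)..(x + R / 4), ‖h ((x' : ℂ) + d * I)‖ ^ 2 ≤
      R ^ 2 / d * (161 + 256 * Real.log (R / d)) * ‖h ((x : ℂ) + (R / 2 : ℝ) * I)‖ ^ 2 := by
  have hd := B.hd
  have hR := B.hR
  set c := ‖h ((x : ℂ) + (R / 2 : ℝ) * I)‖ with hc
  have hc0 : 0 ≤ c := norm_nonneg _
  have hR0 : 0 < R := by linarith
  set a := x - R / 4 with ha
  set b := x + R / 4 with hb
  have hab : a ≤ b := by linarith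
  have hdR : d ≤ R / 2 := by linarith
  have hL : 0 ≤ Real.log (R / d) := Real.log_nonneg (by rw [le_div_iff₀ hd]; linarith)
  have habs : ∀ x' : ℝ, x' ∈ Set.Icc a b → |x' - x| ≤ R / 4 := by
    intro x' hx'
    rw [abs_le]
    constructor <;> linarith [hx'.1, hx'.2]
  have hrect : (Set.uIcc a b ×ℂ Set.uIcc d (R / 2)) ⊆
      {z : ℂ | |z.re - x| ≤ R ∧ d / 2 ≤ z.im ∧ z.im ≤ R} := by
    intro z hz
    rw [Complex.mem_reProdIm, Set.uIcc_of_le hab, Set.uIcc_of_le hdR] at hz
    have := habs _ hz.1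
    exact ⟨this.trans (by linarith), by linarith [hz.2.1], by linarith [hz.2.2]⟩
  have hdiff : DifferentiableOn ℂ h (Set.uIcc a b ×ℂ Set.uIcc d (R / 2)) := B.diff.mono hrect
  have hcont : ContinuousOn h (Set.uIcc a b ×ℂ Set.uIcc d (R / 2)) := hdiff.continuousOn
  have hch : ∀ y ∈ Set.Icc d (R / 2), ContinuousOn (fun x' : ℝ => h ((x' : ℂ) + y * I))
      (Set.uIcc a b) := by
    intro y hy
    refine hcont.comp (Continuous.continuousOn (by fun_prop)) ?_
    intro x' hx'
    rw [Complex.mem_reProdIm]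
    simp only [add_re, ofReal_re, mul_re, ofReal_im, I_re, I_im, mul_zero, zero_mul,
      add_im, mul_im, mul_one, sub_zero, add_zero, zero_add]
    exact ⟨hx', by rw [Set.uIcc_of_le hdR]; exact hy⟩
  have hcv : ∀ x' ∈ Set.Icc a b, ContinuousOn (fun y : ℝ => h ((x' : ℂ) + y * I))
      (Set.uIcc d (R / 2)) := by
    intro x' hx'
    refine hcont.comp (Continuous.continuousOn (by fun_prop)) ?_
    intro y hy
    rw [Complex.mem_reProdIm]
    simp only [add_re, ofReal_re, mul_re, ofReal_im, I_re, I_im, mul_zero, zero_mul,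
      add_im, mul_im, mul_one, sub_zero, add_zero, zero_add]
    exact ⟨by rw [Set.uIcc_of_le hab]; exact hx', hy⟩
  have hdI : d ∈ Set.Icc d (R / 2) := ⟨le_rfl, hdR⟩
  have hbI : b ∈ Set.Icc a b := ⟨hab, le_rfl⟩
  have haI : a ∈ Set.Icc a b := ⟨le_rfl, hab⟩
  -- vertical sides for h
  have hside : ∀ x' ∈ Set.Icc a b, ‖∫ y in d..(R / 2), h ((x' : ℂ) + y * I)‖ ≤
      8 * R * c * Real.log (R / d) := by
    intro x' hx'
    have h1 : ‖∫ y in d..(R / 2), h ((x' : ℂ) + y * I)‖ ≤
        ∫ y in d..(R / 2), 8 * R * c * y⁻¹ := by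
      apply intervalIntegral.norm_integral_le_of_norm_le hdR
      · refine Filter.Eventually.of_forall fun y hy => ?_
        have := B.vert (habs x' hx') hy.1.le hy.2
        calc ‖h ((x' : ℂ) + y * I)‖ ≤ 8 * R / y * c := this
          _ = 8 * R * c * y⁻¹ := by ring
      · apply ContinuousOn.intervalIntegrable
        apply ContinuousOn.mul continuousOn_const
        apply ContinuousOn.inv₀ continuousOn_id
        intro y hy
        rw [Set.uIcc_of_le hdR] at hy
        simp only [id]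
        linarith [hy.1]
    refine h1.trans ?_
    rw [intervalIntegral.integral_const_mul, integral_inv_of_pos hd (by linarith)]
    apply mul_le_mul_of_nonneg_left _ (by positivity)
    apply Real.log_le_log (by positivity)
    gcongr
    linarith
  have hside2 : ∀ x' ∈ Set.Icc a b, ‖∫ y in d..(R / 2), (h ((x' : ℂ) + y * I)) ^ 2‖ ≤
      64 * R ^ 2 * c ^ 2 / d := by
    intro x' hx'
    have h1 : ‖∫ y in d..(R / 2), (h ((x' : ℂ) + y * I)) ^ 2‖ ≤
        ∫ y in d..(R / 2), 64 * R ^ 2 * c ^ 2 * y ^ (-2 : ℤ) := by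
      apply intervalIntegral.norm_integral_le_of_norm_le hdR
      · refine Filter.Eventually.of_forall fun y hy => ?_
        have := B.vert (habs x' hx') hy.1.le hy.2
        have hy0 : 0 < y := by linarith [hy.1]
        rw [norm_pow]
        calc ‖h ((x' : ℂ) + y * I)‖ ^ 2 ≤ (8 * R / y * c) ^ 2 := by gcongr
          _ = 64 * R ^ 2 * c ^ 2 * y ^ (-2 : ℤ) := by
              rw [zpow_neg, show (2 : ℤ) = ((2 : ℕ) : ℤ) by norm_num, zpow_natCast]
              field_simp
              ring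
      · apply ContinuousOn.intervalIntegrable
        apply ContinuousOn.mul continuousOn_const
        apply ContinuousOn.zpow₀ continuousOn_id
        intro y hy
        rw [Set.uIcc_of_le hdR] at hy
        left
        simp only [id]
        linarith [hy.1]
    refine h1.trans ?_
    rw [intervalIntegral.integral_const_mul, integral_zpow (Or.inr ⟨by norm_num, by
      rw [Set.uIcc_of_le hdR]
      intro h0
      linarith [h0.1]⟩)]
    have h2 : ((R / 2) ^ ((-2 : ℤ) + 1) - d ^ ((-2 : ℤ) + 1)) / (((-2 : ℤ) : ℝ) + 1) =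
        1 / d - 2 / R := by
      norm_num
      ring
    rw [h2]
    calc 64 * R ^ 2 * c ^ 2 * (1 / d - 2 / R) ≤ 64 * R ^ 2 * c ^ 2 * (1 / d) := by
          apply mul_le_mul_of_nonneg_left _ (by positivity)
          have : 0 < 2 / R := by positivity
          linarith
      _ = 64 * R ^ 2 * c ^ 2 / d := by ring
  have htop : ‖∫ x' in a..b, h ((x' : ℂ) + (R / 2 : ℝ) * I)‖ ≤ 2 * R * c := by
    have := intervalIntegral.norm_integral_le_of_norm_le_const (a := a) (b := b) (C := 4 * c)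
      (f := fun x' : ℝ => h ((x' : ℂ) + (R / 2 : ℝ) * I)) (by
        intro x' hx'
        rw [Set.uIoc_of_le hab] at hx'
        exact (B.top1 (habs x' ⟨hx'.1.le, hx'.2⟩)).1)
    refine this.trans (le_of_eq ?_)
    rw [abs_of_nonneg (by linarith)]
    rw [ha, hb]; ring
  have htop2 : ‖∫ x' in a..b, (h ((x' : ℂ) + (R / 2 : ℝ) * I)) ^ 2‖ ≤ 8 * R * c ^ 2 := by
    have := intervalIntegral.norm_integral_le_of_norm_le_const (a := a) (b := b)
      (C := (4 * c) ^ 2)
      (f := fun x' : ℝ => (h ((x' : ℂ) + (R / 2 : ℝ) * I)) ^ 2) (by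
        intro x' hx'
        rw [Set.uIoc_of_le hab] at hx'
        rw [norm_pow]
        have := (B.top1 (habs x' ⟨hx'.1.le, hx'.2⟩)).1
        gcongr)
    refine this.trans (le_of_eq ?_)
    rw [abs_of_nonneg (by linarith)]
    rw [ha, hb]; ring
  have hB1 : ‖∫ x' in a..b, h ((x' : ℂ) + d * I)‖ ≤ R * c * (2 + 16 * Real.log (R / d)) := by
    have := rect_le hab hdR hdiff
    have h1 := hside b hbI
    have h2 := hside a haI
    linarith
  have hB2 : ‖∫ x' in a..b, (h ((x' : ℂ) + d * I)) ^ 2‖ ≤ 129 * R ^ 2 * c ^ 2 / d := by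
    have := rect_le (g := fun z => h z ^ 2) hab hdR (hdiff.pow 2)
    have h1 := hside2 b hbI
    have h2 := hside2 a haI
    have h3 : 8 * R * c ^ 2 ≤ R ^ 2 * c ^ 2 / d := by
      rw [le_div_iff₀ hd]
      have : 8 * R * d ≤ R ^ 2 := by nlinarith
      nlinarith [sq_nonneg c]
    have h4 : 129 * R ^ 2 * c ^ 2 / d = R ^ 2 * c ^ 2 / d + 64 * R ^ 2 * c ^ 2 / d +
        64 * R ^ 2 * c ^ 2 / d := by ring
    rw [h4]
    linarith
  -- pointwise identity
  have hI1 : IntervalIntegrable (fun x' : ℝ => h ((x' : ℂ) + d * I)) volume a b :=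
    (hch d hdI).intervalIntegrable
  have hI2 : IntervalIntegrable (fun x' : ℝ => (h ((x' : ℂ) + d * I)) ^ 2) volume a b :=
    ((hch d hdI).pow 2).intervalIntegrable
  have hIre : IntervalIntegrable (fun x' : ℝ => (h ((x' : ℂ) + d * I)).re) volume a b := by
    apply ContinuousOn.intervalIntegrable
    exact Complex.continuous_re.comp_continuousOn (hch d hdI)
  have hIre2 : IntervalIntegrable (fun x' : ℝ => ((h ((x' : ℂ) + d * I)) ^ 2).re) volume a b := by
    apply ContinuousOn.intervalIntegrable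
    exact Complex.continuous_re.comp_continuousOn ((hch d hdI).pow 2)
  have hIn : IntervalIntegrable (fun x' : ℝ => ‖h ((x' : ℂ) + d * I)‖ ^ 2) volume a b := by
    apply ContinuousOn.intervalIntegrable
    exact ((hch d hdI).norm).pow 2
  have hre1 : ∫ x' in a..b, (h ((x' : ℂ) + d * I)).re = (∫ x' in a..b, h ((x' : ℂ) + d * I)).re :=
    (Complex.reCLM.intervalIntegral_comp_comm hI1)
  have hre2 : ∫ x' in a..b, ((h ((x' : ℂ) + d * I)) ^ 2).re =
      (∫ x' in a..b, (h ((x' : ℂ) + d * I)) ^ 2).re :=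
    (Complex.reCLM.intervalIntegral_comp_comm hI2)
  have hmono : ∫ x' in a..b, ‖h ((x' : ℂ) + d * I)‖ ^ 2 ≤
      ∫ x' in a..b, (2 * (8 * R / d * c) * (h ((x' : ℂ) + d * I)).re -
        ((h ((x' : ℂ) + d * I)) ^ 2).re) := by
    apply intervalIntegral.integral_mono_on hab hIn
      ((hIre.const_mul _).sub hIre2)
    intro x' hx'
    have hv := B.vert (habs x' hx') le_rfl hdR
    have hp := B.pos ((x' : ℂ) + d * I) (by simpa using (habs x' hx').trans (by linarith))
      (by simp; linarith) (by simp; linarith)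
    set w := h ((x' : ℂ) + d * I) with hw
    have hre := Complex.re_le_norm w
    have h1 : ‖w‖ ^ 2 = w.re ^ 2 + w.im ^ 2 := by
      rw [← Complex.normSq_eq_norm_sq, Complex.normSq_apply]; ring
    have h2 : (w ^ 2).re = w.re ^ 2 - w.im ^ 2 := by
      rw [pow_two, Complex.mul_re]; ring
    rw [h1, h2]
    have h3 : w.re ^ 2 ≤ (8 * R / d * c) * w.re := by
      rw [pow_two]
      exact mul_le_mul_of_nonneg_right (hre.trans hv) hp.le
    linarith
  rw [intervalIntegral.integral_sub (hIre.const_mul _) hIre2,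
    intervalIntegral.integral_const_mul, hre1, hre2] at hmono
  refine hmono.trans ?_
  have h5 := (Complex.re_le_norm (∫ x' in a..b, h ((x' : ℂ) + d * I))).trans hB1
  have h6 := (Complex.abs_re_le_norm (∫ x' in a..b, (h ((x' : ℂ) + d * I)) ^ 2)).trans hB2
  have h7 := (abs_le.1 h6).1
  have h8 : 2 * (8 * R / d * c) * (∫ x' in a..b, h ((x' : ℂ) + d * I)).re ≤
      2 * (8 * R / d * c) * (R * c * (2 + 16 * Real.log (R / d))) := by
    apply mul_le_mul_of_nonneg_left h5 (by positivity)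
  calc _ ≤ 2 * (8 * R / d * c) * (R * c * (2 + 16 * Real.log (R / d))) +
        129 * R ^ 2 * c ^ 2 / d := by linarith
    _ = R ^ 2 / d * (161 + 256 * Real.log (R / d)) * c ^ 2 := by ring

end Vale.Agent.P097.H36
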