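import Mathlib

set_option linter.all false

/-!
# The quasi-limit of `γ = Y / g` at a boundary point: the gradient of the projection

`g'' = Q g`, `Y'' = Q Y + F`, `W = g Y' - g' Y`.  With `v = (g, δ g')`, `V = (Y, δ Y')`
(`δ = H - Im x` the depth) put `P = <V, v> / |v|^2`.  Along a straight line `x = x₀ + t e`
`|P'| ≤ |e| (|W| (2 + δ^2 |Q|) / |v|^2 + δ |F| / |v|)`; nothing happens at the zeros of `g`.
-/

namespace Vale.Agent.P097.H36.Bub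

open Complex Metric Set Filter Topology

/-- `|v|^2 = |g|^2 + δ^2 |g'|^2`. -/
noncomputable def den (H : ℝ) (g u : ℂ → ℂ) (x : ℂ) : ℝ :=
  ‖g x‖ ^ 2 + (H - x.im) ^ 2 * ‖u x‖ ^ 2

/-- `<V, v>`. -/
noncomputable def num (H : ℝ) (g u Y U : ℂ → ℂ) (x : ℂ) : ℂ :=
  Y x * (starRingEnd ℂ) (g x) + ((H - x.im : ℝ) : ℂ) ^ 2 * (U x * (starRingEnd ℂ) (u x))

/-- The projection `P = <V, v> / |v|^2`. -/
noncomputable def pr (H : ℝ) (g u Y U : ℂ → ℂ) (x : ℂ) : ℂ :=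
  num H g u Y U x / (den H g u x : ℂ)

theorem den_nonneg (H : ℝ) (g u : ℂ → ℂ) (x : ℂ) : 0 ≤ den H g u x := by
  unfold den; positivity

theorem den_cast (H : ℝ) (g u : ℂ → ℂ) (x : ℂ) :
    ((den H g u x : ℝ) : ℂ) = g x * (starRingEnd ℂ) (g x) +
      ((H - x.im : ℝ) : ℂ) ^ 2 * (u x * (starRingEnd ℂ) (u x)) := by
  unfold den
  rw [mul_conj, mul_conj, normSq_eq_norm_sq, normSq_eq_norm_sq]
  push_cast
  ring

/-- The algebraic identity behind the gradient bound. -/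
theorem alg (g u Y U Q F e eb m d gb ub Qb : ℂ) :
    (e * U * gb + Y * (eb * ub) - 2 * d * m * (U * ub) + d ^ 2 * (e * (Q * Y + F) * ub) +
        d ^ 2 * (U * (eb * Qb * gb))) * (g * gb + d ^ 2 * (u * ub)) -
      (Y * gb + d ^ 2 * (U * ub)) *
        (e * u * gb + g * (eb * ub) - 2 * d * m * (u * ub) + d ^ 2 * (e * (Q * g) * ub) +
        d ^ 2 * (u * (eb * Qb * gb))) =
      (g * U - u * Y) * ((e + d ^ 2 * (eb * Qb)) * gb ^ 2 - 2 * m * d * (gb * ub) -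
        d ^ 2 * (eb + e * Q * d ^ 2) * ub ^ 2) +
      e * d ^ 2 * F * ub * (g * gb + d ^ 2 * (u * ub)) := by
  ring

/-- Distance of `V` from the line of `v`: `Y - P g = - δ² conj(g') W / |v|²` and
`Y' - P g' = conj(g) W / |v|²`. -/
theorem perp {H : ℝ} {g u Y U : ℂ → ℂ} {x : ℂ} (hN : 0 < den H g u x) :
    Y x - pr H g u Y U x * g x =
        - (((H - x.im : ℝ) : ℂ) ^ 2 * (starRingEnd ℂ) (u x) * (g x * U x - u x * Y x)) /
          (den H g u x : ℂ) ∧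
      U x - pr H g u Y U x * u x =
        ((starRingEnd ℂ) (g x) * (g x * U x - u x * Y x)) / (den H g u x : ℂ) := by
  have hne : ((den H g u x : ℝ) : ℂ) ≠ 0 := by
    exact_mod_cast hN.ne'
  have hc := den_cast H g u x
  constructor
  · unfold pr num
    rw [div_mul_eq_mul_div, eq_div_iff hne, sub_mul, div_mul_cancel₀ _ hne, hc]
    ring
  · unfold pr num
    rw [div_mul_eq_mul_div, eq_div_iff hne, sub_mul, div_mul_cancel₀ _ hne, hc]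
    ring

theorem norm_le_sqrt_den_g (H : ℝ) (g u : ℂ → ℂ) (x : ℂ) : ‖g x‖ ≤ √(den H g u x) := by
  apply Real.le_sqrt_of_sq_le
  unfold den
  nlinarith [mul_nonneg (sq_nonneg (H - x.im)) (sq_nonneg ‖u x‖)]

theorem norm_le_sqrt_den_u {H : ℝ} (g u : ℂ → ℂ) {x : ℂ} (hx : 0 ≤ H - x.im) :
    (H - x.im) * ‖u x‖ ≤ √(den H g u x) := by
  apply Real.le_sqrt_of_sq_le
  unfold den
  nlinarith [sq_nonneg ‖g x‖]

/-- `|V - P v|` is exactly `δ |W| / |v|`; the two components. -/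
theorem perp_bound {H : ℝ} {g u Y U : ℂ → ℂ} {x : ℂ} (hN : 0 < den H g u x)
    (hx : 0 ≤ H - x.im) :
    ‖Y x - pr H g u Y U x * g x‖ ≤
        (H - x.im) * ‖g x * U x - u x * Y x‖ / √(den H g u x) ∧
      ‖U x - pr H g u Y U x * u x‖ ≤ ‖g x * U x - u x * Y x‖ / √(den H g u x) := by
  obtain ⟨h1, h2⟩ := perp (Y := Y) (U := U) hN
  have hs : 0 < √(den H g u x) := Real.sqrt_pos.2 hN
  have hss : √(den H g u x) * √(den H g u x) = den H g u x := Real.mul_self_sqrt hN.le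
  have hgb := norm_le_sqrt_den_g H g u x
  have hub := norm_le_sqrt_den_u g u hx
  set w := ‖g x * U x - u x * Y x‖ with hw
  have hw0 : 0 ≤ w := norm_nonneg _
  have hnd : ‖((den H g u x : ℝ) : ℂ)‖ = den H g u x := by
    rw [norm_real, Real.norm_of_nonneg hN.le]
  constructor
  · rw [h1, norm_div, norm_neg, norm_mul, norm_mul, norm_pow, RCLike.norm_conj, hnd, norm_real,
      Real.norm_of_nonneg hx, ← hw, div_le_div_iff₀ hN hs]
    calc (H - x.im) ^ 2 * ‖u x‖ * w * √(den H g u x)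
        = (H - x.im) * w * (((H - x.im) * ‖u x‖) * √(den H g u x)) := by ring
      _ ≤ (H - x.im) * w * (√(den H g u x) * √(den H g u x)) := by gcongr
      _ = (H - x.im) * w * den H g u x := by rw [hss]
  · rw [h2, norm_div, norm_mul, RCLike.norm_conj, hnd, ← hw, div_le_div_iff₀ hN hs]
    calc ‖g x‖ * w * √(den H g u x) = w * (‖g x‖ * √(den H g u x)) := by ring
      _ ≤ w * (√(den H g u x) * √(den H g u x)) := by gcongr
      _ = w * den H g u x := by rw [hss]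

/-- **The gradient bound.** -/
theorem hasDerivAt_pr {H : ℝ} {g u Y U Q F : ℂ → ℂ} {x₀ e : ℂ} {t : ℝ}
    (hg : HasDerivAt g (u (x₀ + t * e)) (x₀ + t * e))
    (hu : HasDerivAt u (Q (x₀ + t * e) * g (x₀ + t * e)) (x₀ + t * e))
    (hY : HasDerivAt Y (U (x₀ + t * e)) (x₀ + t * e))
    (hU : HasDerivAt U (Q (x₀ + t * e) * Y (x₀ + t * e) + F (x₀ + t * e)) (x₀ + t * e))
    (hx : 0 ≤ H - (x₀ + t * e).im)
    (hN : 0 < den H g u (x₀ + t * e)) :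
    ∃ p' : ℂ, HasDerivAt (fun s : ℝ => pr H g u Y U (x₀ + s * e)) p' t ∧
      ‖p'‖ ≤ ‖e‖ * (‖g (x₀ + t * e) * U (x₀ + t * e) - u (x₀ + t * e) * Y (x₀ + t * e)‖ *
        (2 + (H - (x₀ + t * e).im) ^ 2 * ‖Q (x₀ + t * e)‖) / den H g u (x₀ + t * e) +
        (H - (x₀ + t * e).im) * ‖F (x₀ + t * e)‖ / √(den H g u (x₀ + t * e))) := by
  have hp : HasDerivAt (fun s : ℝ => x₀ + (s : ℂ) * e) e t := by
    have := ((hasDerivAt_id t).ofReal_comp.mul_const e).const_add x₀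
    simpa using this
  have hg1 : HasDerivAt (fun s : ℝ => g (x₀ + s * e)) (u (x₀ + t * e) * e) t :=
    HasDerivAt.comp (h₂ := g) (h := fun s : ℝ => x₀ + (s : ℂ) * e) t hg hp
  have hu1 : HasDerivAt (fun s : ℝ => u (x₀ + s * e)) (Q (x₀ + t * e) * g (x₀ + t * e) * e) t :=
    HasDerivAt.comp (h₂ := u) (h := fun s : ℝ => x₀ + (s : ℂ) * e) t hu hp
  have hY1 : HasDerivAt (fun s : ℝ => Y (x₀ + s * e)) (U (x₀ + t * e) * e) t :=
    HasDerivAt.comp (h₂ := Y) (h := fun s : ℝ => x₀ + (s : ℂ) * e) t hY hp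
  have hU1 : HasDerivAt (fun s : ℝ => U (x₀ + s * e))
      ((Q (x₀ + t * e) * Y (x₀ + t * e) + F (x₀ + t * e)) * e) t :=
    HasDerivAt.comp (h₂ := U) (h := fun s : ℝ => x₀ + (s : ℂ) * e) t hU hp
  have hgs : HasDerivAt (fun s : ℝ => (starRingEnd ℂ) (g (x₀ + s * e)))
      ((starRingEnd ℂ) (u (x₀ + t * e) * e)) t := hg1.star
  have hus : HasDerivAt (fun s : ℝ => (starRingEnd ℂ) (u (x₀ + s * e)))
      ((starRingEnd ℂ) (Q (x₀ + t * e) * g (x₀ + t * e) * e)) t := hu1.star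
  have hd : HasDerivAt (fun s : ℝ => ((H - (x₀ + s * e).im : ℝ) : ℂ)) (-(e.im : ℂ)) t := by
    have h1 : HasDerivAt (fun s : ℝ => (H - (x₀ + s * e).im : ℝ)) (-e.im) t := by
      have h2 : (fun s : ℝ => (H - (x₀ + s * e).im : ℝ)) = fun s : ℝ => (H - x₀.im) - s * e.im := by
        funext s
        simp [Complex.add_im, Complex.mul_im]
        ring
      rw [h2]
      simpa using ((hasDerivAt_id t).mul_const e.im).const_sub (H - x₀.im)
    simpa using h1.ofReal_comp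
  set x := x₀ + (t : ℂ) * e with hxdef
  set δ : ℂ := ((H - x.im : ℝ) : ℂ) with hδ
  have hnum : HasDerivAt (fun s : ℝ => num H g u Y U (x₀ + s * e))
      (e * U x * (starRingEnd ℂ) (g x) + Y x * ((starRingEnd ℂ) e * (starRingEnd ℂ) (u x)) -
        2 * δ * (e.im : ℂ) * (U x * (starRingEnd ℂ) (u x)) +
        δ ^ 2 * (e * (Q x * Y x + F x) * (starRingEnd ℂ) (u x)) +
        δ ^ 2 * (U x * ((starRingEnd ℂ) e * (starRingEnd ℂ) (Q x) * (starRingEnd ℂ) (g x)))) t := by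
    have h := (hY1.mul hgs).add ((hd.pow 2).mul (hU1.mul hus))
    refine HasDerivAt.congr_deriv h ?_
    simp only [map_mul, Pi.mul_apply, Pi.pow_apply]
    rw [← hxdef, ← hδ]
    push_cast
    ring
  have hden : HasDerivAt (fun s : ℝ => ((den H g u (x₀ + s * e) : ℝ) : ℂ))
      (e * u x * (starRingEnd ℂ) (g x) + g x * ((starRingEnd ℂ) e * (starRingEnd ℂ) (u x)) -
        2 * δ * (e.im : ℂ) * (u x * (starRingEnd ℂ) (u x)) +
        δ ^ 2 * (e * (Q x * g x) * (starRingEnd ℂ) (u x)) +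
        δ ^ 2 * (u x * ((starRingEnd ℂ) e * (starRingEnd ℂ) (Q x) * (starRingEnd ℂ) (g x)))) t := by
    have h := (hg1.mul hgs).add ((hd.pow 2).mul (hu1.mul hus))
    have h2 : (fun s : ℝ => ((den H g u (x₀ + s * e) : ℝ) : ℂ)) =
        (fun s : ℝ => g (x₀ + s * e) * (starRingEnd ℂ) (g (x₀ + s * e)) +
          ((H - (x₀ + s * e).im : ℝ) : ℂ) ^ 2 *
            (u (x₀ + s * e) * (starRingEnd ℂ) (u (x₀ + s * e)))) := by
      funext s
      exact den_cast _ _ _ _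
    rw [h2]
    refine HasDerivAt.congr_deriv h ?_
    simp only [map_mul, Pi.mul_apply, Pi.pow_apply]
    rw [← hxdef, ← hδ]
    push_cast
    ring
  have hne : ((den H g u x : ℝ) : ℂ) ≠ 0 := by exact_mod_cast hN.ne'
  have hmain := hnum.div hden hne
  refine ⟨_, hmain, ?_⟩
  rw [← hxdef]
  have hA : num H g u Y U x = Y x * (starRingEnd ℂ) (g x) + δ ^ 2 * (U x * (starRingEnd ℂ) (u x)) :=
    rfl
  have hD := den_cast H g u x
  rw [← hδ] at hD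
  rw [hA]
  have hal := alg (g x) (u x) (Y x) (U x) (Q x) (F x) e ((starRingEnd ℂ) e) (e.im : ℂ) δ
    ((starRingEnd ℂ) (g x)) ((starRingEnd ℂ) (u x)) ((starRingEnd ℂ) (Q x))
  rw [← hD] at hal
  rw [hal]
  have hs : 0 < √(den H g u x) := Real.sqrt_pos.2 hN
  have hss : √(den H g u x) * √(den H g u x) = den H g u x := Real.mul_self_sqrt hN.le
  have hgb := norm_le_sqrt_den_g H g u x
  have hub := norm_le_sqrt_den_u g u hx
  set w := ‖g x * U x - u x * Y x‖ with hw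
  have hw0 : 0 ≤ w := norm_nonneg _
  set N := den H g u x with hNdef
  set d := H - x.im with hd'
  have hδn : ‖δ‖ = d := by rw [hδ, norm_real, Real.norm_of_nonneg hx]
  have hnd : ‖((N : ℝ) : ℂ)‖ = N := by
    rw [norm_real, Real.norm_of_nonneg hN.le]
  have hNe : N = ‖g x‖ ^ 2 + d ^ 2 * ‖u x‖ ^ 2 := rfl
  have him : ‖(e.im : ℂ)‖ ≤ ‖e‖ := by
    rw [norm_real]; exact Complex.abs_im_le_norm e
  have h1 : ‖(e + δ ^ 2 * ((starRingEnd ℂ) e * (starRingEnd ℂ) (Q x))) * (starRingEnd ℂ) (g x) ^ 2‖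
      ≤ ‖e‖ * (1 + d ^ 2 * ‖Q x‖) * ‖g x‖ ^ 2 := by
    rw [norm_mul, norm_pow, RCLike.norm_conj]
    have : ‖e + δ ^ 2 * ((starRingEnd ℂ) e * (starRingEnd ℂ) (Q x))‖ ≤
        ‖e‖ * (1 + d ^ 2 * ‖Q x‖) := by
      calc _ ≤ ‖e‖ + ‖δ ^ 2 * ((starRingEnd ℂ) e * (starRingEnd ℂ) (Q x))‖ := norm_add_le _ _
        _ = ‖e‖ * (1 + d ^ 2 * ‖Q x‖) := by
          rw [norm_mul, norm_mul, norm_pow, RCLike.norm_conj, RCLike.norm_conj, hδn]; ring
    gcongr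
  have h2 : ‖2 * (e.im : ℂ) * δ * ((starRingEnd ℂ) (g x) * (starRingEnd ℂ) (u x))‖
      ≤ ‖e‖ * (2 * (‖g x‖ * (d * ‖u x‖))) := by
    rw [norm_mul, norm_mul, norm_mul, norm_mul, RCLike.norm_conj, RCLike.norm_conj, hδn]
    have h3 : ‖(2 : ℂ)‖ = 2 := by norm_num
    rw [h3]
    calc 2 * ‖(e.im : ℂ)‖ * d * (‖g x‖ * ‖u x‖) ≤ 2 * ‖e‖ * d * (‖g x‖ * ‖u x‖) := by gcongr
      _ = _ := by ring
  have h3 : ‖δ ^ 2 * ((starRingEnd ℂ) e + e * Q x * δ ^ 2) * (starRingEnd ℂ) (u x) ^ 2‖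
      ≤ ‖e‖ * (1 + d ^ 2 * ‖Q x‖) * (d ^ 2 * ‖u x‖ ^ 2) := by
    rw [norm_mul, norm_mul, norm_pow, norm_pow, RCLike.norm_conj, hδn]
    have : ‖(starRingEnd ℂ) e + e * Q x * δ ^ 2‖ ≤ ‖e‖ * (1 + d ^ 2 * ‖Q x‖) := by
      calc _ ≤ ‖(starRingEnd ℂ) e‖ + ‖e * Q x * δ ^ 2‖ := norm_add_le _ _
        _ = ‖e‖ * (1 + d ^ 2 * ‖Q x‖) := by
          rw [norm_mul, norm_mul, norm_pow, RCLike.norm_conj, hδn]; ring
    calc d ^ 2 * ‖(starRingEnd ℂ) e + e * Q x * δ ^ 2‖ * ‖u x‖ ^ 2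
        ≤ d ^ 2 * (‖e‖ * (1 + d ^ 2 * ‖Q x‖)) * ‖u x‖ ^ 2 := by gcongr
      _ = _ := by ring
  have h4 : ‖(e + δ ^ 2 * ((starRingEnd ℂ) e * (starRingEnd ℂ) (Q x))) *
        (starRingEnd ℂ) (g x) ^ 2 - 2 * (e.im : ℂ) * δ *
        ((starRingEnd ℂ) (g x) * (starRingEnd ℂ) (u x)) -
        δ ^ 2 * ((starRingEnd ℂ) e + e * Q x * δ ^ 2) * (starRingEnd ℂ) (u x) ^ 2‖ ≤
      ‖e‖ * ((2 + d ^ 2 * ‖Q x‖) * N) := by
    have hAM : 2 * (‖g x‖ * (d * ‖u x‖)) ≤ N := by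
      rw [hNe]; nlinarith [sq_nonneg (‖g x‖ - d * ‖u x‖)]
    calc _ ≤ ‖e‖ * (1 + d ^ 2 * ‖Q x‖) * ‖g x‖ ^ 2 + ‖e‖ * (2 * (‖g x‖ * (d * ‖u x‖))) +
          ‖e‖ * (1 + d ^ 2 * ‖Q x‖) * (d ^ 2 * ‖u x‖ ^ 2) := by
          refine (norm_sub_le _ _).trans (add_le_add ((norm_sub_le _ _).trans (add_le_add h1 h2)) h3)
      _ = ‖e‖ * (2 * (‖g x‖ * (d * ‖u x‖)) + (1 + d ^ 2 * ‖Q x‖) * N) := by rw [hNe]; ring
      _ ≤ ‖e‖ * (N + (1 + d ^ 2 * ‖Q x‖) * N) := by gcongr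
      _ = _ := by ring
  have h5 : ‖e * δ ^ 2 * F x * (starRingEnd ℂ) (u x) * (N : ℂ)‖ ≤
      ‖e‖ * (d * ‖F x‖ * √N * N) := by
    rw [norm_mul, norm_mul, norm_mul, norm_mul, norm_pow, RCLike.norm_conj, hδn, hnd]
    calc ‖e‖ * d ^ 2 * ‖F x‖ * ‖u x‖ * N = ‖e‖ * (d * ‖F x‖ * (d * ‖u x‖) * N) := by ring
      _ ≤ ‖e‖ * (d * ‖F x‖ * √N * N) := by gcongr
  rw [norm_div, norm_pow, hnd]
  rw [div_le_iff₀ (by positivity)]
  calc _ ≤ w * (‖e‖ * ((2 + d ^ 2 * ‖Q x‖) * N)) + ‖e‖ * (d * ‖F x‖ * √N * N) := by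
        refine (norm_add_le _ _).trans (add_le_add ?_ h5)
        rw [norm_mul]
        exact mul_le_mul_of_nonneg_left h4 hw0
    _ = ‖e‖ * (w * (2 + d ^ 2 * ‖Q x‖) / N + d * ‖F x‖ / √N) * N ^ 2 := by
        have hNN : N ≠ 0 := hN.ne'
        have hsN : √N ≠ 0 := hs.ne'
        have e1 : w * (2 + d ^ 2 * ‖Q x‖) / N * N ^ 2 = w * (2 + d ^ 2 * ‖Q x‖) * N := by
          field_simp
        have e2 : d * ‖F x‖ / √N * N ^ 2 = d * ‖F x‖ * √N * N := by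
          rw [div_mul_eq_mul_div, div_eq_iff hsN]
          calc d * ‖F x‖ * N ^ 2 = d * ‖F x‖ * N * N := by ring
            _ = d * ‖F x‖ * N * (√N * √N) := by rw [hss]
            _ = _ := by ring
        calc w * (‖e‖ * ((2 + d ^ 2 * ‖Q x‖) * N)) + ‖e‖ * (d * ‖F x‖ * √N * N)
            = ‖e‖ * (w * (2 + d ^ 2 * ‖Q x‖) * N + d * ‖F x‖ * √N * N) := by ring
          _ = ‖e‖ * (w * (2 + d ^ 2 * ‖Q x‖) / N * N ^ 2 + d * ‖F x‖ / √N * N ^ 2) := by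
              rw [e1, e2]
          _ = _ := by ring

end Vale.Agent.P097.H36.Bub
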