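import Vale.Agent.P097.H36.BubA

set_option linter.all false

/-!
# The quasi-limit of `γ = Y / g` at a boundary point, with zeros of `g` of any density

On the truncated cone `|Re x - b| ≤ a δ`, `0 < δ ≤ d₀` (`δ = H - Im x`): `g'' = Q g`,
`Y'' = Q Y + F`, `W = g Y' - g' Y`, with `δ^2 |Q|, |W|, |F| ≤ C δ^(-ε)` and
`|g|^2 + δ^2 |g'|^2 ≥ δ^ε / C`.  Then there is a finite `P` with
`|Y / g - P| ≤ C' δ^(1 - 3 ε) (1 + 1 / |g|)` in the whole cone.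
-/

namespace Vale.Agent.P097.H36.Bub

open Complex Metric Set Filter Topology

/-- The truncated cone with vertex `b + i H`. -/
def Cone (H b a d₀ : ℝ) : Set ℂ :=
  {x | |x.re - b| ≤ a * (H - x.im) ∧ 0 < H - x.im ∧ H - x.im ≤ d₀}

/-- The data on the cone. -/
structure Data (H b a d₀ ε C : ℝ) (g u Y U Q F : ℂ → ℂ) : Prop where
  a0 : 0 ≤ a
  d0 : 0 < d₀
  d1 : d₀ ≤ 1
  e0 : 0 ≤ ε
  e1 : 3 * ε < 1
  C1 : 1 ≤ C
  hg : ∀ x ∈ Cone H b a d₀, HasDerivAt g (u x) x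
  hu : ∀ x ∈ Cone H b a d₀, HasDerivAt u (Q x * g x) x
  hY : ∀ x ∈ Cone H b a d₀, HasDerivAt Y (U x) x
  hU : ∀ x ∈ Cone H b a d₀, HasDerivAt U (Q x * Y x + F x) x
  hQ : ∀ x ∈ Cone H b a d₀, (H - x.im) ^ 2 * ‖Q x‖ ≤ C * (H - x.im) ^ (-ε)
  hW : ∀ x ∈ Cone H b a d₀, ‖g x * U x - u x * Y x‖ ≤ C * (H - x.im) ^ (-ε)
  hF : ∀ x ∈ Cone H b a d₀, ‖F x‖ ≤ C * (H - x.im) ^ (-ε)
  hN : ∀ x ∈ Cone H b a d₀, (H - x.im) ^ ε ≤ C * den H g u x

variable {H b a d₀ ε C : ℝ} {g u Y U Q F : ℂ → ℂ}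

theorem one_le_rpow_neg {d ε : ℝ} (hd : 0 < d) (hd1 : d ≤ 1) (he : 0 ≤ ε) : 1 ≤ d ^ (-ε) :=
  Real.one_le_rpow_of_pos_of_le_one_of_nonpos hd hd1 (by linarith)

namespace Data

variable (D : Data H b a d₀ ε C g u Y U Q F)
include D

theorem den_pos {x : ℂ} (hx : x ∈ Cone H b a d₀) : 0 < den H g u x := by
  have h1 := D.hN x hx
  have h2 : 0 < (H - x.im) ^ ε := Real.rpow_pos_of_pos hx.2.1 _
  have h3 : 0 < C * den H g u x := lt_of_lt_of_le h2 h1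
  have := D.C1
  exact (mul_pos_iff_of_pos_left (by linarith)).1 h3

theorem inv_den {x : ℂ} (hx : x ∈ Cone H b a d₀) :
    1 / den H g u x ≤ C * (H - x.im) ^ (-ε) := by
  have h1 := D.hN x hx
  have hp := D.den_pos hx
  have h2 : 0 < (H - x.im) ^ ε := Real.rpow_pos_of_pos hx.2.1 _
  rw [Real.rpow_neg hx.2.1.le, div_le_iff₀ hp]
  have h3 : (H - x.im) ^ ε * ((H - x.im) ^ ε)⁻¹ = 1 := mul_inv_cancel₀ h2.ne'
  have h4 : 0 ≤ ((H - x.im) ^ ε)⁻¹ := by positivity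
  calc (1 : ℝ) = (H - x.im) ^ ε * ((H - x.im) ^ ε)⁻¹ := h3.symm
    _ ≤ (C * den H g u x) * ((H - x.im) ^ ε)⁻¹ := by gcongr
    _ = _ := by ring

theorem inv_sqrt_den {x : ℂ} (hx : x ∈ Cone H b a d₀) :
    1 / √(den H g u x) ≤ C * (H - x.im) ^ (-ε) := by
  have hp := D.den_pos hx
  have h1 := D.inv_den hx
  have hC := D.C1
  have h2 := one_le_rpow_neg hx.2.1 (hx.2.2.trans D.d1) D.e0
  have h3 : 1 ≤ C * (H - x.im) ^ (-ε) := by nlinarith
  have hs : 0 < √(den H g u x) := Real.sqrt_pos.2 hp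
  have hss : √(den H g u x) * √(den H g u x) = den H g u x := Real.mul_self_sqrt hp.le
  have h4 : (1 / √(den H g u x)) ^ 2 = 1 / den H g u x := by
    rw [div_pow, one_pow, pow_two, hss]
  have h5 : (1 / √(den H g u x)) ^ 2 ≤ (C * (H - x.im) ^ (-ε)) ^ 2 := by
    rw [h4]
    nlinarith
  exact le_of_sq_le_sq h5 (by positivity)

/-- The gradient of `P` is at most `4 C³ δ^(-3 ε)`. -/
theorem grad {x₀ e : ℂ} {t : ℝ} (hx : x₀ + t * e ∈ Cone H b a d₀) :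
    ∃ p' : ℂ, HasDerivAt (fun s : ℝ => pr H g u Y U (x₀ + s * e)) p' t ∧
      ‖p'‖ ≤ ‖e‖ * (4 * C ^ 3 * (H - (x₀ + t * e).im) ^ (-(3 * ε))) := by
  obtain ⟨p', h1, h2⟩ := hasDerivAt_pr (H := H) (Q := Q) (F := F) (D.hg _ hx) (D.hu _ hx)
    (D.hY _ hx) (D.hU _ hx) hx.2.1.le (D.den_pos hx)
  refine ⟨p', h1, h2.trans ?_⟩
  set x := x₀ + (t : ℂ) * e with hxd
  have hC := D.C1
  have hd := hx.2.1
  have hd1 := hx.2.2.trans D.d1
  set d := H - x.im with hdd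
  set r := d ^ (-ε) with hr
  have hr1 : 1 ≤ r := one_le_rpow_neg hd hd1 D.e0
  have hr3 : d ^ (-(3 * ε)) = r ^ 3 := by
    rw [hr, ← Real.rpow_natCast, ← Real.rpow_mul hd.le]
    congr 1
    push_cast
    ring
  have hN1 := D.inv_den hx
  have hN2 := D.inv_sqrt_den hx
  have hW := D.hW x hx
  have hQ := D.hQ x hx
  have hF := D.hF x hx
  rw [← hdd] at hN1 hN2 hW hQ hF
  rw [← hr] at hN1 hN2 hW hQ hF
  have hp := D.den_pos hx
  have hs : 0 < √(den H g u x) := Real.sqrt_pos.2 hp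
  apply mul_le_mul_of_nonneg_left _ (norm_nonneg e)
  have e1 : ‖g x * U x - u x * Y x‖ * (2 + d ^ 2 * ‖Q x‖) / den H g u x ≤
      (C * r) * (2 + C * r) * (C * r) := by
    rw [div_eq_mul_one_div]
    have : 0 ≤ 1 / den H g u x := by positivity
    gcongr
  have e2 : d * ‖F x‖ / √(den H g u x) ≤ 1 * (C * r) * (C * r) := by
    rw [div_eq_mul_one_div]
    have : 0 ≤ 1 / √(den H g u x) := by positivity
    gcongr
  have hq : 1 ≤ C * r := by nlinarith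
  rw [hr3]
  have e3 : 4 * C ^ 3 * r ^ 3 = 4 * (C * r) ^ 3 := by ring
  rw [e3]
  nlinarith [mul_nonneg (sub_nonneg.2 hq) (sq_nonneg (C * r))]

theorem hor {x : ℂ} (hx : x ∈ Cone H b a d₀) :
    ‖pr H g u Y U x - pr H g u Y U ((b : ℂ) + ((H - (H - x.im) : ℝ) : ℂ) * I)‖ ≤
      a * (4 * C ^ 3) * (H - x.im) ^ (1 - 3 * ε) := by
  set c : ℂ := (b : ℂ) + ((H - (H - x.im) : ℝ) : ℂ) * I with hc
  set e : ℂ := ((x.re - b : ℝ) : ℂ) with he
  have hmem : ∀ t ∈ Icc (0 : ℝ) 1, c + t * e ∈ Cone H b a d₀ ∧ (c + t * e).im = x.im := by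
    intro t ht
    have him : (c + t * e).im = x.im := by
      simp [hc, he]
    have hre : (c + t * e).re = b + t * (x.re - b) := by
      simp [hc, he]
    refine ⟨⟨?_, ?_, ?_⟩, him⟩
    · rw [him, hre]
      have : b + t * (x.re - b) - b = t * (x.re - b) := by ring
      rw [this, abs_mul, abs_of_nonneg ht.1]
      calc t * |x.re - b| ≤ 1 * |x.re - b| := by
            apply mul_le_mul_of_nonneg_right ht.2 (abs_nonneg _)
        _ ≤ _ := by rw [one_mul]; exact hx.1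
    · rw [him]; exact hx.2.1
    · rw [him]; exact hx.2.2
  have hd : ∀ t ∈ Icc (0 : ℝ) 1, ∃ p' : ℂ,
      HasDerivAt (fun s : ℝ => pr H g u Y U (c + s * e)) p' t ∧
      ‖p'‖ ≤ ‖e‖ * (4 * C ^ 3 * (H - x.im) ^ (-(3 * ε))) := by
    intro t ht
    obtain ⟨p', h1, h2⟩ := D.grad (hmem t ht).1
    rw [(hmem t ht).2] at h2
    exact ⟨p', h1, h2⟩
  choose! p' hp' using hd
  have key := (convex_Icc (0 : ℝ) 1).norm_image_sub_le_of_norm_hasDerivWithin_le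
    (f := fun s : ℝ => pr H g u Y U (c + s * e)) (f' := p') 
    (C := ‖e‖ * (4 * C ^ 3 * (H - x.im) ^ (-(3 * ε))))
    (fun t ht => (hp' t ht).1.hasDerivWithinAt) (fun t ht => (hp' t ht).2)
    (left_mem_Icc.2 zero_le_one) (right_mem_Icc.2 zero_le_one)
  have hx1 : c + ((1 : ℝ) : ℂ) * e = x := by
    apply Complex.ext
    · simp [hc, he]
    · simp [hc, he]
  have hx0 : c + ((0 : ℝ) : ℂ) * e = c := by simp
  simp only [hx1, hx0] at key
  refine key.trans ?_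
  have hen : ‖e‖ ≤ a * (H - x.im) := by
    rw [he, norm_real]
    exact hx.1
  have hC := D.C1
  have hdp := hx.2.1
  have hr : (H - x.im) ^ (1 - 3 * ε) = (H - x.im) * (H - x.im) ^ (-(3 * ε)) := by
    have h9 : (1 - 3 * ε : ℝ) = 1 + -(3 * ε) := by ring
    rw [h9, Real.rpow_add hdp, Real.rpow_one]
  rw [hr]
  have h0 : 0 ≤ (H - x.im) ^ (-(3 * ε)) := Real.rpow_nonneg hdp.le _
  have : ‖(1 : ℝ) - 0‖ = 1 := by norm_num
  rw [this, mul_one]
  calc ‖e‖ * (4 * C ^ 3 * (H - x.im) ^ (-(3 * ε)))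
      ≤ (a * (H - x.im)) * (4 * C ^ 3 * (H - x.im) ^ (-(3 * ε))) := by gcongr
    _ = _ := by ring

theorem mem_axis {t : ℝ} (h0 : 0 < t) (h1 : t ≤ d₀) :
    (b : ℂ) + ((H - t : ℝ) : ℂ) * I ∈ Cone H b a d₀ := by
  have him : ((b : ℂ) + ((H - t : ℝ) : ℂ) * I).im = H - t := by simp
  have hre : ((b : ℂ) + ((H - t : ℝ) : ℂ) * I).re = b := by simp
  refine ⟨?_, ?_, ?_⟩
  · rw [him, hre]
    simp only [sub_self, abs_zero]
    have := D.a0
    have : 0 ≤ H - (H - t) := by linarith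
    positivity
  · rw [him]; linarith
  · rw [him]; linarith

theorem ver {s t : ℝ} (hs : 0 < s) (hst : s ≤ t) (ht : t ≤ d₀) :
    ‖pr H g u Y U ((b : ℂ) + ((H - t : ℝ) : ℂ) * I) -
      pr H g u Y U ((b : ℂ) + ((H - s : ℝ) : ℂ) * I)‖ ≤
      4 * C ^ 3 / (1 - 3 * ε) * t ^ (1 - 3 * ε) := by
  set x₀ : ℂ := (b : ℂ) + (H : ℂ) * I with hx₀
  have hpt : ∀ τ : ℝ, x₀ + τ * (-I) = (b : ℂ) + ((H - τ : ℝ) : ℂ) * I := by
    intro τ
    rw [hx₀]
    push_cast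
    ring
  have him : ∀ τ : ℝ, H - (x₀ + τ * (-I)).im = τ := by
    intro τ
    rw [hpt]; simp
  have hd : ∀ τ ∈ Icc s t, ∃ p' : ℂ,
      HasDerivAt (fun s : ℝ => pr H g u Y U (x₀ + s * (-I))) p' τ ∧
      ‖p'‖ ≤ 4 * C ^ 3 * τ ^ (-(3 * ε)) := by
    intro τ hτ
    have hm : x₀ + (τ : ℂ) * (-I) ∈ Cone H b a d₀ := by
      rw [hpt]
      exact D.mem_axis (lt_of_lt_of_le hs hτ.1) (hτ.2.trans ht)
    obtain ⟨p', h1, h2⟩ := D.grad hm
    rw [him] at h2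
    refine ⟨p', h1, ?_⟩
    simpa using h2
  choose! p' hp' using hd
  have hε := D.e1
  have hpos : 0 < 1 - 3 * ε := by linarith
  set f : ℝ → ℂ := fun τ => pr H g u Y U (x₀ + τ * (-I)) - pr H g u Y U (x₀ + s * (-I)) with hf
  set B : ℝ → ℝ := fun τ => 4 * C ^ 3 / (1 - 3 * ε) * (τ ^ (1 - 3 * ε) - s ^ (1 - 3 * ε)) with hB
  have hfc : ∀ τ ∈ Icc s t, HasDerivAt f (p' τ) τ := by
    intro τ hτ
    exact (hp' τ hτ).1.sub_const _
  have hBd : ∀ τ ∈ Icc s t, HasDerivAt B (4 * C ^ 3 * τ ^ (-(3 * ε))) τ := by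
    intro τ hτ
    have hτ0 : τ ≠ 0 := (lt_of_lt_of_le hs hτ.1).ne'
    have h1 := ((Real.hasDerivAt_rpow_const (x := τ) (p := 1 - 3 * ε) (Or.inl hτ0)).sub_const
      (s ^ (1 - 3 * ε))).const_mul (4 * C ^ 3 / (1 - 3 * ε))
    refine h1.congr_deriv ?_
    have : 1 - 3 * ε - 1 = -(3 * ε) := by ring
    rw [this]
    field_simp
  have key := image_norm_le_of_norm_deriv_right_le_deriv_boundary' (f := f) (f' := p') (a := s)
    (b := t) (B := B) (B' := fun τ => 4 * C ^ 3 * τ ^ (-(3 * ε)))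
    (fun τ hτ => (hfc τ hτ).continuousAt.continuousWithinAt)
    (fun τ hτ => (hfc τ (Ico_subset_Icc_self hτ)).hasDerivWithinAt)
    (by simp [hf, hB])
    (fun τ hτ => (hBd τ hτ).continuousAt.continuousWithinAt)
    (fun τ hτ => (hBd τ (Ico_subset_Icc_self hτ)).hasDerivWithinAt)
    (fun τ hτ => (hp' τ (Ico_subset_Icc_self hτ)).2)
    (right_mem_Icc.2 hst)
  have h1 : f t = pr H g u Y U ((b : ℂ) + ((H - t : ℝ) : ℂ) * I) -
      pr H g u Y U ((b : ℂ) + ((H - s : ℝ) : ℂ) * I) := by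
    simp only [hf, hpt]
  rw [h1] at key
  refine key.trans ?_
  have hC := D.C1
  have h2 : 0 ≤ s ^ (1 - 3 * ε) := Real.rpow_nonneg hs.le _
  have h3 : 0 ≤ 4 * C ^ 3 / (1 - 3 * ε) := by positivity
  simp only [hB]
  nlinarith

/-- **The quasi-limit exists** (for the projection). -/
theorem exists_lim : ∃ P : ℂ,
    Tendsto (fun t : ℝ => pr H g u Y U ((b : ℂ) + ((H - t : ℝ) : ℂ) * I)) (𝓝[>] 0) (𝓝 P) ∧
    ∀ x ∈ Cone H b a d₀, ‖pr H g u Y U x - P‖ ≤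
      4 * C ^ 3 * (a + 1 / (1 - 3 * ε)) * (H - x.im) ^ (1 - 3 * ε) := by
  have hε := D.e1
  have hpos : 0 < 1 - 3 * ε := by linarith
  have hC := D.C1
  set f : ℝ → ℂ := fun t => pr H g u Y U ((b : ℂ) + ((H - t : ℝ) : ℂ) * I) with hf
  set s : ℕ → ℝ := fun n => d₀ / ((n : ℝ) + 1) with hs
  have hs0 : ∀ n, 0 < s n := fun n => div_pos D.d0 (by positivity)
  have hanti : ∀ {n m : ℕ}, n ≤ m → s m ≤ s n := by
    intro n m hnm
    apply div_le_div_of_nonneg_left D.d0.le (by positivity)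
    have : (n : ℝ) ≤ m := by exact_mod_cast hnm
    linarith
  have hsd : ∀ n, s n ≤ d₀ := by
    intro n
    have := hanti (Nat.zero_le n)
    simpa [hs] using this
  have hst : Tendsto s atTop (𝓝 0) := by
    have := tendsto_one_div_add_atTop_nhds_zero_nat (𝕜 := ℝ)
    have h2 := this.const_mul d₀
    simp only [mul_zero] at h2
    refine h2.congr (fun n => ?_)
    simp only [hs]
    ring
  have hver : ∀ {t t' : ℝ}, 0 < t' → t' ≤ t → t ≤ d₀ →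
      ‖f t - f t'‖ ≤ 4 * C ^ 3 / (1 - 3 * ε) * t ^ (1 - 3 * ε) := fun h1 h2 h3 => D.ver h1 h2 h3
  have hB0 : Tendsto (fun n => 2 * (4 * C ^ 3 / (1 - 3 * ε) * (s n) ^ (1 - 3 * ε))) atTop (𝓝 0) := by
    have h1 : Tendsto (fun n => (s n) ^ (1 - 3 * ε)) atTop (𝓝 0) := by
      have := hst.rpow_const (p := 1 - 3 * ε) (Or.inr hpos.le)
      rwa [Real.zero_rpow hpos.ne'] at this
    have := (h1.const_mul (4 * C ^ 3 / (1 - 3 * ε))).const_mul 2
    simpa using this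
  have hcau : CauchySeq (fun n => f (s n)) := by
    refine cauchySeq_of_le_tendsto_0 _ ?_ hB0
    intro n m N hn hm
    rw [dist_eq_norm]
    have h1 := hver (hs0 n) (hanti hn) (hsd N)
    have h2 := hver (hs0 m) (hanti hm) (hsd N)
    calc ‖f (s n) - f (s m)‖ = ‖(f (s N) - f (s m)) - (f (s N) - f (s n))‖ := by
          congr 1; ring
      _ ≤ ‖f (s N) - f (s m)‖ + ‖f (s N) - f (s n)‖ := norm_sub_le _ _
      _ ≤ _ := by linarith
  obtain ⟨P, hP⟩ := cauchySeq_tendsto_of_complete hcau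
  have hfin : ∀ t : ℝ, 0 < t → t ≤ d₀ → ‖f t - P‖ ≤ 4 * C ^ 3 / (1 - 3 * ε) * t ^ (1 - 3 * ε) := by
    intro t ht0 ht
    have h1 : Tendsto (fun n => ‖f t - f (s n)‖) atTop (𝓝 ‖f t - P‖) :=
      (tendsto_const_nhds.sub hP).norm
    refine le_of_tendsto h1 ?_
    have h2 : ∀ᶠ n in atTop, s n < t := hst.eventually (gt_mem_nhds ht0)
    filter_upwards [h2] with n hn
    exact hver (hs0 n) hn.le ht
  refine ⟨P, ?_, ?_⟩
  · rw [tendsto_iff_norm_sub_tendsto_zero]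
    have h1 : Tendsto (fun t : ℝ => 4 * C ^ 3 / (1 - 3 * ε) * t ^ (1 - 3 * ε)) (𝓝[>] 0) (𝓝 0) := by
      have h2 : Tendsto (fun t : ℝ => t ^ (1 - 3 * ε)) (𝓝[>] 0) (𝓝 0) := by
        have h3 : Tendsto (fun t : ℝ => t) (𝓝[>] 0) (𝓝 0) := tendsto_nhdsWithin_of_tendsto_nhds tendsto_id
        have := h3.rpow_const (p := 1 - 3 * ε) (Or.inr hpos.le)
        rwa [Real.zero_rpow hpos.ne'] at this
      simpa using h2.const_mul (4 * C ^ 3 / (1 - 3 * ε))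
    refine squeeze_zero' (Eventually.of_forall fun _ => norm_nonneg _) ?_ h1
    have : Ioc (0 : ℝ) d₀ ∈ 𝓝[>] (0 : ℝ) := Ioc_mem_nhdsGT D.d0
    filter_upwards [this] with t ht
    exact hfin t ht.1 ht.2
  · intro x hx
    have h1 := D.hor hx
    have h2 := hfin (H - x.im) hx.2.1 hx.2.2
    calc ‖pr H g u Y U x - P‖ = ‖(pr H g u Y U x - f (H - x.im)) + (f (H - x.im) - P)‖ := by
          congr 1; ring
      _ ≤ ‖pr H g u Y U x - f (H - x.im)‖ + ‖f (H - x.im) - P‖ := norm_add_le _ _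
      _ ≤ a * (4 * C ^ 3) * (H - x.im) ^ (1 - 3 * ε) +
          4 * C ^ 3 / (1 - 3 * ε) * (H - x.im) ^ (1 - 3 * ε) := add_le_add h1 h2
      _ = _ := by ring

/-- `|Y - P_x g| ≤ C² δ^(1 - 2 ε)` and `δ |Y' - P_x g'| ≤ C² δ^(1 - 2 ε)`. -/
theorem comp {x : ℂ} (hx : x ∈ Cone H b a d₀) :
    ‖Y x - pr H g u Y U x * g x‖ ≤ C ^ 2 * (H - x.im) ^ (1 - 2 * ε) ∧
      (H - x.im) * ‖U x - pr H g u Y U x * u x‖ ≤ C ^ 2 * (H - x.im) ^ (1 - 2 * ε) := by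
  obtain ⟨h1, h2⟩ := perp_bound (Y := Y) (U := U) (D.den_pos hx) hx.2.1.le
  have hW := D.hW x hx
  have hs := D.inv_sqrt_den hx
  have hd := hx.2.1
  have hC := D.C1
  set d := H - x.im with hdd
  have hp : 0 < √(den H g u x) := Real.sqrt_pos.2 (D.den_pos hx)
  have hr : d ^ (1 - 2 * ε) = d * (d ^ (-ε) * d ^ (-ε)) := by
    rw [← Real.rpow_add hd]
    nth_rewrite 2 [← Real.rpow_one d]
    rw [← Real.rpow_add hd]
    congr 1
    ring
  have key : d * (‖g x * U x - u x * Y x‖ / √(den H g u x)) ≤ C ^ 2 * d ^ (1 - 2 * ε) := by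
    rw [hr, div_eq_mul_one_div]
    have : 0 ≤ 1 / √(den H g u x) := by positivity
    have h0 : 0 ≤ d ^ (-ε) := Real.rpow_nonneg hd.le _
    calc d * (‖g x * U x - u x * Y x‖ * (1 / √(den H g u x)))
        ≤ d * ((C * d ^ (-ε)) * (C * d ^ (-ε))) := by gcongr
      _ = _ := by ring
  constructor
  · refine h1.trans (le_trans (le_of_eq ?_) key)
    ring
  · refine (mul_le_mul_of_nonneg_left h2 hd.le).trans key

/-- **The quasi-limit.**  There is a finite `P` such that in the whole cone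
`|Y - P g| ≤ K δ^(1 - 3ε) (1 + |g|)`, `δ |Y' - P g'| ≤ K δ^(1-3ε) (1 + δ |g'|)`, and
`|Y / g - P| ≤ K δ^(1 - 3ε) (1 + 1 / |g|)` where `g ≠ 0`. -/
theorem quasi_limit : ∃ P : ℂ,
    Tendsto (fun t : ℝ => pr H g u Y U ((b : ℂ) + ((H - t : ℝ) : ℂ) * I)) (𝓝[>] 0) (𝓝 P) ∧
    ∀ x ∈ Cone H b a d₀,
      ‖Y x - P * g x‖ ≤ 4 * C ^ 3 * (a + 1 + 1 / (1 - 3 * ε)) * (H - x.im) ^ (1 - 3 * ε) *
        (1 + ‖g x‖) ∧
      (H - x.im) * ‖U x - P * u x‖ ≤ 4 * C ^ 3 * (a + 1 + 1 / (1 - 3 * ε)) *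
        (H - x.im) ^ (1 - 3 * ε) * (1 + (H - x.im) * ‖u x‖) ∧
      (g x ≠ 0 → ‖Y x / g x - P‖ ≤ 4 * C ^ 3 * (a + 1 + 1 / (1 - 3 * ε)) *
        (H - x.im) ^ (1 - 3 * ε) * (1 + 1 / ‖g x‖)) := by
  obtain ⟨P, h1, h2⟩ := D.exists_lim
  refine ⟨P, h1, fun x hx => ?_⟩
  have hd := hx.2.1
  have hd1 : H - x.im ≤ 1 := hx.2.2.trans D.d1
  have hC := D.C1
  have ha := D.a0
  have he1 := D.e1
  have he0 := D.e0
  have hpos : 0 < 1 - 3 * ε := by linarith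
  have h3 := h2 x hx
  obtain ⟨h4, h5⟩ := D.comp hx
  set d := H - x.im with hdd
  set K := 4 * C ^ 3 * (a + 1 + 1 / (1 - 3 * ε)) with hK
  set p := pr H g u Y U x with hp
  have hmono : d ^ (1 - 2 * ε) ≤ d ^ (1 - 3 * ε) :=
    Real.rpow_le_rpow_of_exponent_ge hd hd1 (by linarith)
  set r := d ^ (1 - 3 * ε) with hr
  have hr0 : 0 ≤ r := Real.rpow_nonneg hd.le _
  have hinv : 0 < 1 / (1 - 3 * ε) := by positivity
  have hC2 : C ^ 2 ≤ 4 * C ^ 3 * 1 := by nlinarith [sq_nonneg C]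
  have hA : C ^ 2 * d ^ (1 - 2 * ε) ≤ K * r := by
    have h6 : C ^ 2 ≤ K := by
      rw [hK]
      have : 4 * C ^ 3 * 1 ≤ 4 * C ^ 3 * (a + 1 + 1 / (1 - 3 * ε)) := by
        apply mul_le_mul_of_nonneg_left _ (by positivity)
        linarith
      linarith
    have : 0 ≤ d ^ (1 - 2 * ε) := Real.rpow_nonneg hd.le _
    have hK0 : 0 ≤ K := le_trans (sq_nonneg C) h6
    calc C ^ 2 * d ^ (1 - 2 * ε) ≤ K * d ^ (1 - 2 * ε) := by gcongr
      _ ≤ K * r := by gcongr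
  have hB : 4 * C ^ 3 * (a + 1 / (1 - 3 * ε)) * r ≤ K * r := by
    apply mul_le_mul_of_nonneg_right _ hr0
    rw [hK]
    apply mul_le_mul_of_nonneg_left _ (by positivity)
    linarith
  have hpP : ‖p - P‖ ≤ K * r := h3.trans hB
  have i1 : ‖Y x - P * g x‖ ≤ K * r * (1 + ‖g x‖) := by
    calc ‖Y x - P * g x‖ = ‖(Y x - p * g x) + (p - P) * g x‖ := by congr 1; ring
      _ ≤ ‖Y x - p * g x‖ + ‖p - P‖ * ‖g x‖ := by
          refine (norm_add_le _ _).trans ?_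
          rw [norm_mul]
      _ ≤ K * r + K * r * ‖g x‖ := by
          have := norm_nonneg (g x)
          have h7 := h4.trans hA
          gcongr
      _ = _ := by ring
  refine ⟨i1, ?_, ?_⟩
  · calc d * ‖U x - P * u x‖ = d * ‖(U x - p * u x) + (p - P) * u x‖ := by congr 2; ring
      _ ≤ d * (‖U x - p * u x‖ + ‖p - P‖ * ‖u x‖) := by
          apply mul_le_mul_of_nonneg_left _ hd.le
          refine (norm_add_le _ _).trans ?_
          rw [norm_mul]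
      _ = d * ‖U x - p * u x‖ + ‖p - P‖ * (d * ‖u x‖) := by ring
      _ ≤ K * r + K * r * (d * ‖u x‖) := by
          have := norm_nonneg (u x)
          have h7 := h5.trans hA
          gcongr
      _ = _ := by ring
  · intro hg0
    have hgp : 0 < ‖g x‖ := norm_pos_iff.2 hg0
    have : Y x / g x - P = (Y x - P * g x) / g x := by
      field_simp
    rw [this, norm_div, div_le_iff₀ hgp]
    calc ‖Y x - P * g x‖ ≤ K * r * (1 + ‖g x‖) := i1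
      _ = K * r * (1 + 1 / ‖g x‖) * ‖g x‖ := by field_simp; ring

end Data

end Vale.Agent.P097.H36.Bub
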