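import Vale.Agent.P097.H36.BubB

set_option linter.all false

/-!
# Zeros of solutions of `g'' = Q g`: zero-free discs, separation, good circles

`u = g'`; on the closed disc of radius `r` round `x`, `r^2 |Q| ≤ 1/4` (or `1/20`).
* `ode_taylor`: `|g z - g x - g' x (z - x)|`, `r |g' z - g' x| ≤ (1/3) (|g x| + r |g' x|)`;
* `lower_of_zero_free`: `g ≠ 0` on the disc ⇒ `|g x| ≥ r |g' x| / 4`;
* `zero_sep`: `g a = 0` ⇒ `|g z| ≥ (2/3) |g' a| |z - a|` for `|z - a| ≤ r`;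
* `good_circle`: one of the circles of radius `r`, `r/2` has `|g| ≥ (|g x| + r |g' x|)/18`.
-/

namespace Vale.Agent.P097.H36.Bub

open Complex Metric Set Filter Topology

theorem ode_taylor {g u Q : ℂ → ℂ} {x : ℂ} {r q κ : ℝ} (hr : 0 ≤ r) (hκ1 : κ < 1)
    (hg : ∀ z ∈ closedBall x r, HasDerivAt g (u z) z)
    (hu : ∀ z ∈ closedBall x r, HasDerivAt u (Q z * g z) z)
    (hQ : ∀ z ∈ closedBall x r, ‖Q z‖ ≤ q) (hqr : q * r ^ 2 ≤ κ) {z : ℂ}
    (hz : z ∈ closedBall x r) :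
    (1 - κ) * ‖g z - g x - u x * (z - x)‖ ≤ κ * (‖g x‖ + r * ‖u x‖) ∧
      (1 - κ) * (r * ‖u z - u x‖) ≤ κ * (‖g x‖ + r * ‖u x‖) ∧
      (1 - κ) * ‖g z‖ ≤ ‖g x‖ + r * ‖u x‖ := by
  have hxm : x ∈ closedBall x r := mem_closedBall_self hr
  have hcont : ContinuousOn (fun z => ‖g z‖) (closedBall x r) :=
    fun z hz => (hg z hz).continuousAt.continuousWithinAt.norm
  obtain ⟨z₀, hz₀, hmax⟩ := (isCompact_closedBall x r).exists_isMaxOn ⟨x, hxm⟩ hcont
  set S := ‖g z₀‖ with hS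
  have hS0 : 0 ≤ S := norm_nonneg _
  have hSle : ∀ z ∈ closedBall x r, ‖g z‖ ≤ S := fun z hz => hmax hz
  have hq0 : 0 ≤ q := (norm_nonneg _).trans (hQ x hxm)
  have hu1 : ∀ z ∈ closedBall x r, ‖u z - u x‖ ≤ q * S * r := by
    intro z hz
    have h1 := (convex_closedBall x r).norm_image_sub_le_of_norm_hasDerivWithin_le
      (f := u) (f' := fun z => Q z * g z) (C := q * S)
      (fun w hw => (hu w hw).hasDerivWithinAt)
      (fun w hw => by
        rw [norm_mul]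
        exact mul_le_mul (hQ w hw) (hSle w hw) (norm_nonneg _) hq0) hxm hz
    refine h1.trans ?_
    have : ‖z - x‖ ≤ r := by rw [← dist_eq_norm]; exact hz
    gcongr
  have hg1 : ∀ z ∈ closedBall x r, ‖g z - g x - u x * (z - x)‖ ≤ q * S * r * r := by
    intro z hz
    have h1 := (convex_closedBall x r).norm_image_sub_le_of_norm_hasDerivWithin_le
      (f := fun z => g z - u x * z) (f' := fun z => u z - u x) (C := q * S * r)
      (fun w hw => by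
        have h := (hg w hw).sub ((hasDerivAt_id' w).const_mul (u x))
        rw [mul_one] at h
        have h2 : HasDerivAt (fun z => g z - u x * z) (u w - u x) w := h
        exact h2.hasDerivWithinAt)
      (fun w hw => hu1 w hw) hxm hz
    have h2 : g z - g x - u x * (z - x) = (g z - u x * z) - (g x - u x * x) := by ring
    rw [h2]
    refine h1.trans ?_
    have : ‖z - x‖ ≤ r := by rw [← dist_eq_norm]; exact hz
    gcongr
  have hM0 : 0 ≤ ‖g x‖ + r * ‖u x‖ := by positivity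
  have hqS : q * S * r * r ≤ κ * S := by
    calc q * S * r * r = q * r ^ 2 * S := by ring
      _ ≤ κ * S := by gcongr
  have hSM : (1 - κ) * S ≤ ‖g x‖ + r * ‖u x‖ := by
    have h1 := hg1 z₀ hz₀
    have h2 : ‖z₀ - x‖ ≤ r := by rw [← dist_eq_norm]; exact hz₀
    have h3 : S ≤ ‖g z₀ - g x - u x * (z₀ - x)‖ + (‖g x‖ + ‖u x‖ * r) := by
      calc S = ‖(g z₀ - g x - u x * (z₀ - x)) + (g x + u x * (z₀ - x))‖ := by
            rw [hS]; congr 1; ring
        _ ≤ ‖g z₀ - g x - u x * (z₀ - x)‖ + ‖g x + u x * (z₀ - x)‖ := norm_add_le _ _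
        _ ≤ _ := by
          have h4 : ‖g x + u x * (z₀ - x)‖ ≤ ‖g x‖ + ‖u x‖ * r := by
            refine (norm_add_le _ _).trans ?_
            rw [norm_mul]
            gcongr
          linarith
    nlinarith
  have hκ0 : 0 ≤ κ := le_trans (by positivity) hqr
  have h1κ : 0 ≤ 1 - κ := by linarith
  refine ⟨?_, ?_, ?_⟩
  · calc (1 - κ) * ‖g z - g x - u x * (z - x)‖ ≤ (1 - κ) * (κ * S) := by
          apply mul_le_mul_of_nonneg_left ((hg1 z hz).trans hqS) h1κ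
      _ = κ * ((1 - κ) * S) := by ring
      _ ≤ _ := by apply mul_le_mul_of_nonneg_left hSM hκ0
  · calc (1 - κ) * (r * ‖u z - u x‖) ≤ (1 - κ) * (κ * S) := by
          apply mul_le_mul_of_nonneg_left _ h1κ
          calc r * ‖u z - u x‖ ≤ r * (q * S * r) := by gcongr; exact hu1 z hz
            _ = q * S * r * r := by ring
            _ ≤ κ * S := hqS
      _ = κ * ((1 - κ) * S) := by ring
      _ ≤ _ := by apply mul_le_mul_of_nonneg_left hSM hκ0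
  · calc (1 - κ) * ‖g z‖ ≤ (1 - κ) * S := by
          apply mul_le_mul_of_nonneg_left (hSle z hz) h1κ
      _ ≤ _ := hSM

/-- A zero-free disc gives a lower bound. -/
theorem lower_of_zero_free {g u Q : ℂ → ℂ} {x : ℂ} {r q : ℝ} (hr : 0 < r)
    (hg : ∀ z ∈ closedBall x r, HasDerivAt g (u z) z)
    (hu : ∀ z ∈ closedBall x r, HasDerivAt u (Q z * g z) z)
    (hQ : ∀ z ∈ closedBall x r, ‖Q z‖ ≤ q) (hqr : q * r ^ 2 ≤ 1 / 4)
    (h0 : ∀ z ∈ closedBall x r, g z ≠ 0) :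
    r * ‖u x‖ / 4 ≤ ‖g x‖ := by
  by_contra hcon
  push Not at hcon
  have hux : 0 < r * ‖u x‖ := by
    have := norm_nonneg (g x)
    linarith
  have hsph : ∀ z ∈ sphere x r, r * ‖u x‖ / 3 ≤ ‖g z‖ := by
    intro z hz
    have hzc : z ∈ closedBall x r := sphere_subset_closedBall hz
    obtain ⟨h1, -, -⟩ := ode_taylor hr.le (by norm_num : (1 / 4 : ℝ) < 1) hg hu hQ hqr hzc
    have hzn : ‖z - x‖ = r := by rw [← dist_eq_norm]; exact hz
    have h2 : r * ‖u x‖ ≤ ‖g z‖ + ‖g x‖ + ‖g z - g x - u x * (z - x)‖ := by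
      calc r * ‖u x‖ = ‖u x * (z - x)‖ := by rw [norm_mul, hzn]; ring
        _ = ‖g z - g x - (g z - g x - u x * (z - x))‖ := by congr 1; ring
        _ ≤ ‖g z - g x‖ + ‖g z - g x - u x * (z - x)‖ := norm_sub_le _ _
        _ ≤ _ := by
          have := norm_sub_le (g z) (g x)
          linarith
    nlinarith
  have hdiff : DiffContOnCl ℂ (fun z => (g z)⁻¹) (ball x r) := by
    apply DifferentiableOn.diffContOnCl
    rw [closure_ball x hr.ne']
    intro z hz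
    exact ((hg z hz).differentiableAt.inv (h0 z hz)).differentiableWithinAt
  have hmax := Complex.norm_le_of_forall_mem_frontier_norm_le (isBounded_ball (x := x) (r := r))
    hdiff (C := (r * ‖u x‖ / 3)⁻¹) (by
      intro z hz
      rw [frontier_ball x hr.ne'] at hz
      rw [norm_inv]
      exact inv_anti₀ (by positivity) (hsph z hz))
    (z := x) (subset_closure (mem_ball_self hr))
  rw [norm_inv] at hmax
  have hgx : 0 < ‖g x‖ := norm_pos_iff.2 (h0 x (mem_closedBall_self hr.le))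
  have h3 : r * ‖u x‖ / 3 ≤ ‖g x‖ := by
    rwa [inv_le_inv₀ hgx (by positivity)] at hmax
  linarith

/-- Separation of the zeros. -/
theorem zero_sep {g u Q : ℂ → ℂ} {a : ℂ} {r q : ℝ}
    (hg : ∀ z ∈ closedBall a r, HasDerivAt g (u z) z)
    (hu : ∀ z ∈ closedBall a r, HasDerivAt u (Q z * g z) z)
    (hQ : ∀ z ∈ closedBall a r, ‖Q z‖ ≤ q) (hqr : q * r ^ 2 ≤ 1 / 4)
    (h0 : g a = 0) {z : ℂ} (hz : z ∈ closedBall a r) :
    2 / 3 * (‖u a‖ * ‖z - a‖) ≤ ‖g z‖ := by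
  set s := ‖z - a‖ with hs
  have hsr : s ≤ r := by rw [hs, ← dist_eq_norm]; exact hz
  have hs0 : 0 ≤ s := norm_nonneg _
  have hsub : closedBall a s ⊆ closedBall a r := closedBall_subset_closedBall hsr
  have hzs : z ∈ closedBall a s := by rw [mem_closedBall, dist_eq_norm]
  have hq0 : 0 ≤ q := (norm_nonneg _).trans (hQ z hz)
  have hqs : q * s ^ 2 ≤ 1 / 4 := by
    refine le_trans ?_ hqr
    gcongr
  obtain ⟨h1, -, -⟩ := ode_taylor hs0 (by norm_num : (1 / 4 : ℝ) < 1)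
    (fun w hw => hg w (hsub hw)) (fun w hw => hu w (hsub hw)) (fun w hw => hQ w (hsub hw)) hqs hzs
  rw [h0] at h1
  have h2 : ‖u a‖ * s ≤ ‖g z‖ + ‖g z - 0 - u a * (z - a)‖ := by
    calc ‖u a‖ * s = ‖u a * (z - a)‖ := by rw [norm_mul]
      _ = ‖g z - (g z - 0 - u a * (z - a))‖ := by congr 1; ring
      _ ≤ _ := norm_sub_le _ _
  rw [norm_zero] at h1
  nlinarith

/-- One of two circles is good. -/
theorem good_circle {g u Q : ℂ → ℂ} {x : ℂ} {r q : ℝ} (hr : 0 < r)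
    (hg : ∀ z ∈ closedBall x r, HasDerivAt g (u z) z)
    (hu : ∀ z ∈ closedBall x r, HasDerivAt u (Q z * g z) z)
    (hQ : ∀ z ∈ closedBall x r, ‖Q z‖ ≤ q) (hqr : q * r ^ 2 ≤ 1 / 20) :
    ∃ s, (s = r ∨ s = r / 2) ∧
      ∀ z ∈ sphere x s, (‖g x‖ + r * ‖u x‖) / 18 ≤ ‖g z‖ := by
  set M := ‖g x‖ + r * ‖u x‖ with hM
  have hM0 : 0 ≤ M := by positivity
  have hrem : ∀ z ∈ closedBall x r, 19 * ‖g z - g x - u x * (z - x)‖ ≤ M := by
    intro z hz
    obtain ⟨h1, -, -⟩ := ode_taylor hr.le (by norm_num : (1 / 20 : ℝ) < 1) hg hu hQ hqr hz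
    linarith
  have hlow : ∀ z ∈ closedBall x r, M / 9 ≤ ‖g x + u x * (z - x)‖ → M / 18 ≤ ‖g z‖ := by
    intro z hz h
    have h1 := hrem z hz
    have h2 : ‖g x + u x * (z - x)‖ ≤ ‖g z‖ + ‖g z - g x - u x * (z - x)‖ := by
      calc ‖g x + u x * (z - x)‖ = ‖g z - (g z - g x - u x * (z - x))‖ := by congr 1; ring
        _ ≤ _ := norm_sub_le _ _
    nlinarith
  by_cases hc : |r * ‖u x‖ - ‖g x‖| ≥ M / 9
  · refine ⟨r, Or.inl rfl, fun z hz => hlow z (sphere_subset_closedBall hz) ?_⟩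
    have hzn : ‖z - x‖ = r := by rw [← dist_eq_norm]; exact hz
    refine le_trans hc ?_
    have h1 : ‖u x * (z - x)‖ = r * ‖u x‖ := by rw [norm_mul, hzn]; ring
    rw [← h1]
    have := abs_norm_sub_norm_le (u x * (z - x)) (-(g x))
    rw [norm_neg] at this
    refine this.trans (le_of_eq ?_)
    congr 1; ring
  · refine ⟨r / 2, Or.inr rfl, fun z hz => ?_⟩
    have hzn : ‖z - x‖ = r / 2 := by rw [← dist_eq_norm]; exact hz
    have hzc : z ∈ closedBall x r := by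
      rw [mem_closedBall, dist_eq_norm, hzn]; linarith
    apply hlow z hzc
    have h1 : ‖u x * (z - x)‖ = r / 2 * ‖u x‖ := by rw [norm_mul, hzn]; ring
    have h2 : ‖g x‖ ≤ ‖g x + u x * (z - x)‖ + r / 2 * ‖u x‖ := by
      rw [← h1]
      calc ‖g x‖ = ‖(g x + u x * (z - x)) - u x * (z - x)‖ := by congr 1; ring
        _ ≤ _ := norm_sub_le _ _
    push Not at hc
    have h3 := (abs_lt.1 hc).2
    have h4 := (abs_lt.1 hc).1
    have h5 : 0 ≤ r * ‖u x‖ := by positivity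
    linarith

variable {H b a d₀ ε C : ℝ} {g u Y U Q F : ℂ → ℂ}

/-- Balls of small hyperbolic radius stay in the bigger cone, with depth comparable. -/
theorem ball_cone {a' r : ℝ} {x : ℂ} (hx : x ∈ Cone H b a' (d₀ / 2)) (ha : 0 ≤ a)
    (hr : r * (1 + a) ≤ (a - a') * (H - x.im)) (hr2 : r ≤ (H - x.im) / 2) :
    ∀ z ∈ closedBall x r, z ∈ Cone H b a d₀ ∧ (H - x.im) / 2 ≤ H - z.im ∧
      H - z.im ≤ 2 * (H - x.im) := by
  intro z hz
  have hzn : ‖z - x‖ ≤ r := by rw [← dist_eq_norm]; exact hz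
  have hre : |z.re - x.re| ≤ r := by
    have := abs_re_le_norm (z - x)
    rw [sub_re] at this
    exact this.trans hzn
  have him : |z.im - x.im| ≤ r := by
    have := abs_im_le_norm (z - x)
    rw [sub_im] at this
    exact this.trans hzn
  obtain ⟨i1, i2⟩ := abs_le.1 him
  have hd := hx.2.1
  refine ⟨⟨?_, by linarith, by linarith [hx.2.2]⟩, by linarith, by linarith⟩
  have h1 : |z.re - b| ≤ |z.re - x.re| + |x.re - b| := by
    have := abs_add_le (z.re - x.re) (x.re - b)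
    simpa using this
  have h2 := hx.1
  have h3 : a * (H - z.im) ≥ a * (H - x.im - r) := by
    apply mul_le_mul_of_nonneg_left _ ha
    linarith
  nlinarith

namespace Data

variable (D : Data H b a d₀ ε C g u Y U Q F)
include D

/-- Bound of `Q` on a small ball. -/
theorem Q_ball {x : ℂ} {z : ℂ} (hx : 0 < H - x.im) (hz : z ∈ Cone H b a d₀)
    (hd : (H - x.im) / 2 ≤ H - z.im) (hx1 : H - x.im ≤ 1) :
    ‖Q z‖ ≤ 8 * C * (H - x.im) ^ (-(2 + ε)) := by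
  have h1 := D.hQ z hz
  have hzp := hz.2.1
  have he0 := D.e0
  have he1 := D.e1
  have hC := D.C1
  set δ := H - x.im with hδ
  set t := H - z.im with ht
  have h2 : ‖Q z‖ ≤ C * t ^ (-(2 + ε)) := by
    have h3 : t ^ (-(2 + ε)) = t ^ (-ε) * (t ^ 2)⁻¹ := by
      rw [← Real.rpow_natCast, ← Real.rpow_neg hzp.le, ← Real.rpow_add hzp]
      congr 1
      push_cast; ring
    rw [h3, ← mul_assoc, ← div_eq_mul_inv, le_div_iff₀ (by positivity)]
    linarith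
  have h4 : t ^ (-(2 + ε)) ≤ (δ / 2) ^ (-(2 + ε)) :=
    Real.rpow_le_rpow_of_nonpos (by positivity) hd (by linarith)
  have h5 : (δ / 2) ^ (-(2 + ε)) = 2 ^ (2 + ε) * δ ^ (-(2 + ε)) := by
    rw [div_eq_mul_inv, Real.mul_rpow hx.le (by norm_num), Real.inv_rpow (by norm_num),
      Real.rpow_neg (by norm_num : (0 : ℝ) ≤ 2), inv_inv]
    ring
  have h6 : (2 : ℝ) ^ (2 + ε) ≤ 8 := by
    calc (2 : ℝ) ^ (2 + ε) ≤ 2 ^ (3 : ℝ) := by
          apply Real.rpow_le_rpow_of_exponent_le (by norm_num) (by linarith)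
      _ = 8 := by norm_num
  have h7 : 0 ≤ δ ^ (-(2 + ε)) := Real.rpow_nonneg hx.le _
  calc ‖Q z‖ ≤ C * t ^ (-(2 + ε)) := h2
    _ ≤ C * (8 * δ ^ (-(2 + ε))) := by
        rw [h5] at h4
        have : t ^ (-(2 + ε)) ≤ 8 * δ ^ (-(2 + ε)) := h4.trans (by gcongr)
        gcongr
    _ = _ := by ring

/-- **The quasi-limit in terms of the distance to the zeros of `g`.**  If `g` has no zero in the
disc of radius `ρ δ` round `x` (`ρ ≤ 1`), then `|Y/g - P| ≤ K δ^(1 - 6 ε) / ρ`. -/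
theorem quasi_limit_zeros {a' κ : ℝ} (ha' : a' ≤ a) (hκ : 0 < κ) (hκ1 : κ ≤ 1 / (12 * C))
    (hκ2 : κ * (1 + a) ≤ a - a') {P : ℂ} {K : ℝ} (hK : 0 ≤ K)
    (hP : ∀ x ∈ Cone H b a d₀, g x ≠ 0 →
      ‖Y x / g x - P‖ ≤ K * (H - x.im) ^ (1 - 3 * ε) * (1 + 1 / ‖g x‖))
    {x : ℂ} (hx : x ∈ Cone H b a' (d₀ / 2)) {ρ : ℝ} (hρ : 0 < ρ) (hρ1 : ρ ≤ 1)
    (h0 : ∀ z ∈ closedBall x (ρ * (H - x.im)), g z ≠ 0) :
    (κ / 8 * ρ * (H - x.im) ^ ε * √(den H g u x) ≤ ‖g x‖) ∧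
    ‖Y x / g x - P‖ ≤ (K * (1 + 8 * C / κ)) * (H - x.im) ^ (1 - 6 * ε) / ρ := by
  have he0 := D.e0
  have he1 := D.e1
  have hC := D.C1
  have ha := D.a0
  have hd := hx.2.1
  have hd0 := D.d0
  have hd1 : H - x.im ≤ 1 := by linarith [hx.2.2, D.d1]
  set δ := H - x.im with hδ
  have hδε : 0 < δ ^ ε := Real.rpow_pos_of_pos hd _
  have hδε1 : δ ^ ε ≤ 1 := Real.rpow_le_one hd.le hd1 he0
  have hκh : κ ≤ 1 / 12 := by
    refine hκ1.trans ?_
    apply one_div_le_one_div_of_le (by norm_num)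
    linarith
  -- the radius
  set r := κ * ρ * δ ^ ε * δ with hr
  have hr0 : 0 < r := by positivity
  have hρδ : ρ * δ ^ ε ≤ 1 := by
    calc ρ * δ ^ ε ≤ 1 * 1 := by gcongr
      _ = 1 := by norm_num
  have hrκ : r ≤ κ * δ := by
    calc r = κ * (ρ * δ ^ ε) * δ := by rw [hr]; ring
      _ ≤ κ * 1 * δ := by gcongr
      _ = κ * δ := by ring
  have hrρ : r ≤ ρ * δ := by
    calc r = (κ * δ ^ ε) * (ρ * δ) := by rw [hr]; ring
      _ ≤ 1 * (ρ * δ) := by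
        gcongr
        calc κ * δ ^ ε ≤ (1 / 12) * 1 := by gcongr
          _ ≤ 1 := by norm_num
      _ = _ := one_mul _
  have hb := ball_cone (a := a) (d₀ := d₀) (r := r) hx ha
    (by
      calc r * (1 + a) ≤ κ * δ * (1 + a) := by gcongr
        _ = κ * (1 + a) * δ := by ring
        _ ≤ (a - a') * δ := by gcongr)
    (by nlinarith)
  have hQb : ∀ z ∈ closedBall x r, ‖Q z‖ ≤ 8 * C * δ ^ (-(2 + ε)) := by
    intro z hz
    obtain ⟨h1, h2, -⟩ := hb z hz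
    exact D.Q_ball hd h1 h2 hd1
  have hqr : 8 * C * δ ^ (-(2 + ε)) * r ^ 2 ≤ 1 / 4 := by
    have e1 : δ ^ (-(2 + ε)) * (δ ^ ε * δ) ^ 2 = δ ^ ε := by
      rw [← Real.rpow_natCast, Real.mul_rpow hδε.le hd.le, ← Real.rpow_mul hd.le,
        ← Real.rpow_add hd, ← Real.rpow_add hd]
      congr 1
      push_cast; ring
    have e2 : 8 * C * δ ^ (-(2 + ε)) * r ^ 2 = 8 * C * κ ^ 2 * ρ ^ 2 * δ ^ ε := by
      calc 8 * C * δ ^ (-(2 + ε)) * r ^ 2
          = 8 * C * κ ^ 2 * ρ ^ 2 * (δ ^ (-(2 + ε)) * (δ ^ ε * δ) ^ 2) := by rw [hr]; ring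
        _ = _ := by rw [e1]
    rw [e2]
    have e3 : C * κ ≤ 1 / 12 := by
      calc C * κ ≤ C * (1 / (12 * C)) := by gcongr
        _ = 1 / 12 := by field_simp
    have e4 : ρ ^ 2 ≤ 1 := by nlinarith
    calc 8 * C * κ ^ 2 * ρ ^ 2 * δ ^ ε = 8 * (C * κ) * κ * ρ ^ 2 * δ ^ ε := by ring
      _ ≤ 8 * (1 / 12) * (1 / 12) * 1 * 1 := by gcongr
      _ ≤ 1 / 4 := by norm_num
  have hlow := lower_of_zero_free hr0 (fun z hz => D.hg z (hb z hz).1)
    (fun z hz => D.hu z (hb z hz).1) hQb hqr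
    (fun z hz => h0 z (closedBall_subset_closedBall hrρ hz))
  have hxm : x ∈ Cone H b a d₀ := (hb x (mem_closedBall_self hr0.le)).1
  have hNp := D.den_pos hxm
  have hsN : 0 < √(den H g u x) := Real.sqrt_pos.2 hNp
  -- lower bound of |g| by |v|
  set τ := κ * ρ * δ ^ ε with hτ
  have hτ0 : 0 < τ := by positivity
  have hτ1 : τ ≤ 1 := by
    calc τ = κ * (ρ * δ ^ ε) := by rw [hτ]; ring
      _ ≤ (1 / 12) * 1 := by gcongr
      _ ≤ 1 := by norm_num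
  have hlow2 : τ / 4 * (δ * ‖u x‖) ≤ ‖g x‖ := by
    calc τ / 4 * (δ * ‖u x‖) = r * ‖u x‖ / 4 := by rw [hr, hτ]; ring
      _ ≤ _ := hlow
  have hmain : τ / 8 * √(den H g u x) ≤ ‖g x‖ := by
    have h1 : √(den H g u x) ≤ ‖g x‖ + δ * ‖u x‖ := by
      apply Real.sqrt_le_iff.2
      refine ⟨by positivity, ?_⟩
      unfold den
      have : 0 ≤ ‖g x‖ * (δ * ‖u x‖) := by positivity
      nlinarith
    have h2 : τ / 8 * ‖g x‖ ≤ 1 / 2 * ‖g x‖ := by
      apply mul_le_mul_of_nonneg_right _ (norm_nonneg _)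
      linarith
    calc τ / 8 * √(den H g u x) ≤ τ / 8 * (‖g x‖ + δ * ‖u x‖) := by gcongr
      _ = τ / 8 * ‖g x‖ + (τ / 4 * (δ * ‖u x‖)) / 2 := by ring
      _ ≤ 1 / 2 * ‖g x‖ + ‖g x‖ / 2 := by gcongr
      _ = ‖g x‖ := by ring
  refine ⟨by calc κ / 8 * ρ * δ ^ ε * √(den H g u x) = τ / 8 * √(den H g u x) := by rw [hτ]; ring
            _ ≤ _ := hmain, ?_⟩
  have hgne : g x ≠ 0 := h0 x (mem_closedBall_self (by positivity))
  have hgp : 0 < ‖g x‖ := norm_pos_iff.2 hgne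
  have hinv : 1 / ‖g x‖ ≤ 8 * C / κ * δ ^ (-(2 * ε)) / ρ := by
    have h1 : 1 / ‖g x‖ ≤ 1 / (τ / 8 * √(den H g u x)) :=
      one_div_le_one_div_of_le (by positivity) hmain
    have h2 : 1 / (τ / 8 * √(den H g u x)) = (8 / τ) * (1 / √(den H g u x)) := by
      field_simp
    have h3 := D.inv_sqrt_den hxm
    rw [← hδ] at h3
    have h4 : 8 / τ = 8 / κ * δ ^ (-ε) / ρ := by
      rw [hτ, Real.rpow_neg hd.le]
      field_simp
    have h5 : δ ^ (-(2 * ε)) = δ ^ (-ε) * δ ^ (-ε) := by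
      rw [← Real.rpow_add hd]; congr 1; ring
    have h0' : 0 ≤ δ ^ (-ε) := Real.rpow_nonneg hd.le _
    calc 1 / ‖g x‖ ≤ (8 / τ) * (1 / √(den H g u x)) := by rw [← h2]; exact h1
      _ ≤ (8 / κ * δ ^ (-ε) / ρ) * (C * δ ^ (-ε)) := by rw [h4]; gcongr
      _ = _ := by rw [h5]; ring
  have hfin := hP x hxm hgne
  rw [← hδ] at hfin
  refine hfin.trans ?_
  have hr1 : 1 ≤ δ ^ (-(2 * ε)) := Real.one_le_rpow_of_pos_of_le_one_of_nonpos hd hd1 (by linarith)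
  have hρi : 1 ≤ 1 / ρ := by rw [le_div_iff₀ hρ]; linarith
  have h1ρ : (1 : ℝ) ≤ δ ^ (-(2 * ε)) / ρ := by
    rw [le_div_iff₀ hρ]; linarith
  have h6 : 1 + 1 / ‖g x‖ ≤ (1 + 8 * C / κ) * (δ ^ (-(2 * ε)) / ρ) := by
    calc 1 + 1 / ‖g x‖ ≤ δ ^ (-(2 * ε)) / ρ + 8 * C / κ * δ ^ (-(2 * ε)) / ρ := by gcongr
      _ = _ := by ring
  have h7 : δ ^ (1 - 3 * ε) * δ ^ (-(2 * ε)) ≤ δ ^ (1 - 6 * ε) := by
    rw [← Real.rpow_add hd]
    apply Real.rpow_le_rpow_of_exponent_ge hd hd1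
    linarith
  have h8 : 0 ≤ δ ^ (1 - 3 * ε) := Real.rpow_nonneg hd.le _
  calc K * δ ^ (1 - 3 * ε) * (1 + 1 / ‖g x‖)
      ≤ K * δ ^ (1 - 3 * ε) * ((1 + 8 * C / κ) * (δ ^ (-(2 * ε)) / ρ)) := by gcongr
    _ = (K * (1 + 8 * C / κ)) * (δ ^ (1 - 3 * ε) * δ ^ (-(2 * ε))) / ρ := by ring
    _ ≤ (K * (1 + 8 * C / κ)) * δ ^ (1 - 6 * ε) / ρ := by
        gcongr

end Data

end Vale.Agent.P097.H36.Bub
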