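import Vale.Agent.P097.H36.BubC

set_option linter.all false

/-!
# The quasi-limit, form with every aperture and every exponent

If for all `A, η > 0` on the cone of aperture `A` near `b + iH`: `δ² |Q| ≤ (η log (1/δ))²`,
`|E|, |f| ≤ δ^(-η)`, `|g|² + δ² |g'|² ≥ δ^η`, then there is one `P` such that for all
`A, η > 0` on the cone of aperture `A` near `b + iH`
`|Y - P g| + δ |Y' - P g'| ≤ δ^(1-η) (|g| + δ |g'|)`.
-/

namespace Vale.Agent.P097.H36.Bub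

open Complex Metric Set Filter Topology

variable {H b : ℝ} {g g1 Y Y1 Q E f : ℂ → ℂ}

theorem sq_le_exp {x : ℝ} (hx : 0 ≤ x) : x ^ 2 ≤ 2 * Real.exp x := by
  have := Real.quadratic_le_exp_of_nonneg hx
  nlinarith

theorem log_sq_le {d ε : ℝ} (hd : 0 < d) (hd1 : d ≤ 1) (he : 0 ≤ ε) :
    (ε * Real.log (1 / d)) ^ 2 ≤ 2 * d ^ (-ε) := by
  have h0 : 0 ≤ Real.log (1 / d) := Real.log_nonneg (by rw [le_div_iff₀ hd]; linarith)
  have h1 := sq_le_exp (mul_nonneg he h0)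
  have h2 : Real.exp (ε * Real.log (1 / d)) = d ^ (-ε) := by
    rw [Real.rpow_def_of_pos hd]
    congr 1
    rw [one_div, Real.log_inv]; ring
  rwa [h2] at h1

/-- The data hold on a small cone. -/
theorem mk_data
    (hg : ∀ A > 0, ∃ δ > 0, ∀ z ∈ Cone H b A δ, HasDerivAt g (g1 z) z)
    (hg1 : ∀ A > 0, ∃ δ > 0, ∀ z ∈ Cone H b A δ, HasDerivAt g1 (Q z * g z) z)
    (hY : ∀ A > 0, ∃ δ > 0, ∀ z ∈ Cone H b A δ, HasDerivAt Y (Y1 z) z)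
    (hY1 : ∀ A > 0, ∃ δ > 0, ∀ z ∈ Cone H b A δ, HasDerivAt Y1 (Q z * Y z + f z) z)
    (hW : ∀ A > 0, ∃ δ > 0, ∀ z ∈ Cone H b A δ, Y1 z * g z - Y z * g1 z = E z)
    (hb : ∀ A > 0, ∀ η > 0, ∃ δ > 0, ∀ z ∈ Cone H b A δ,
      ‖Q z‖ * (H - z.im) ^ 2 ≤ (η * Real.log (1 / (H - z.im))) ^ 2 ∧
      ‖E z‖ ≤ (H - z.im) ^ (-η) ∧ ‖f z‖ ≤ (H - z.im) ^ (-η) ∧
      (H - z.im) ^ η ≤ ‖g z‖ ^ 2 + (H - z.im) ^ 2 * ‖g1 z‖ ^ 2)
    {A ε : ℝ} (hA : 0 < A) (hε : 0 < ε) (hε1 : 3 * ε < 1) :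
    ∃ d₀ > 0, d₀ ≤ 1 ∧ Data H b A d₀ ε 2 g g1 Y Y1 Q f := by
  obtain ⟨δ1, p1, h1⟩ := hg A hA
  obtain ⟨δ2, p2, h2⟩ := hg1 A hA
  obtain ⟨δ3, p3, h3⟩ := hY A hA
  obtain ⟨δ4, p4, h4⟩ := hY1 A hA
  obtain ⟨δ5, p5, h5⟩ := hW A hA
  obtain ⟨δ6, p6, h6⟩ := hb A hA ε hε
  set d₀ := min 1 (min δ1 (min δ2 (min δ3 (min δ4 (min δ5 δ6))))) with hd0
  have l0 : d₀ ≤ 1 := min_le_left _ _
  have q0 : d₀ ≤ min δ1 (min δ2 (min δ3 (min δ4 (min δ5 δ6)))) := min_le_right _ _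
  have l1 : d₀ ≤ δ1 := q0.trans (min_le_left _ _)
  have q1 := q0.trans (min_le_right _ _)
  have l2 : d₀ ≤ δ2 := q1.trans (min_le_left _ _)
  have q2 := q1.trans (min_le_right _ _)
  have l3 : d₀ ≤ δ3 := q2.trans (min_le_left _ _)
  have q3 := q2.trans (min_le_right _ _)
  have l4 : d₀ ≤ δ4 := q3.trans (min_le_left _ _)
  have q4 := q3.trans (min_le_right _ _)
  have l5 : d₀ ≤ δ5 := q4.trans (min_le_left _ _)
  have l6 : d₀ ≤ δ6 := q4.trans (min_le_right _ _)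
  have hmono : ∀ {δ : ℝ}, d₀ ≤ δ → Cone H b A d₀ ⊆ Cone H b A δ :=
    fun h z hz => ⟨hz.1, hz.2.1, hz.2.2.trans h⟩
  have hpos : 0 < d₀ := by positivity
  refine ⟨d₀, hpos, l0, ?_⟩
  refine
    { a0 := hA.le
      d0 := hpos
      d1 := l0
      e0 := hε.le
      e1 := hε1
      C1 := by norm_num
      hg := fun z hz => h1 z (hmono l1 hz)
      hu := fun z hz => h2 z (hmono l2 hz)
      hY := fun z hz => h3 z (hmono l3 hz)
      hU := fun z hz => h4 z (hmono l4 hz)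
      hQ := ?_
      hW := ?_
      hF := ?_
      hN := ?_ }
  · intro z hz
    have h := (h6 z (hmono l6 hz)).1
    have hl := log_sq_le hz.2.1 (hz.2.2.trans l0) hε.le
    calc (H - z.im) ^ 2 * ‖Q z‖ = ‖Q z‖ * (H - z.im) ^ 2 := by ring
      _ ≤ _ := h.trans hl
  · intro z hz
    have h := (h6 z (hmono l6 hz)).2.1
    have hw := h5 z (hmono l5 hz)
    have e : g z * Y1 z - g1 z * Y z = E z := by rw [← hw]; ring
    rw [e]
    have := Real.rpow_nonneg hz.2.1.le (-ε)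
    linarith
  · intro z hz
    have h := (h6 z (hmono l6 hz)).2.2.1
    have := Real.rpow_nonneg hz.2.1.le (-ε)
    linarith
  · intro z hz
    have h := (h6 z (hmono l6 hz)).2.2.2
    have := den_nonneg H g g1 z
    unfold den at *
    linarith

/-- **The quasi-limit**, in the form of row QL. -/
theorem quasi_limit
    (hg : ∀ A > 0, ∃ δ > 0, ∀ z ∈ Cone H b A δ, HasDerivAt g (g1 z) z)
    (hg1 : ∀ A > 0, ∃ δ > 0, ∀ z ∈ Cone H b A δ, HasDerivAt g1 (Q z * g z) z)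
    (hY : ∀ A > 0, ∃ δ > 0, ∀ z ∈ Cone H b A δ, HasDerivAt Y (Y1 z) z)
    (hY1 : ∀ A > 0, ∃ δ > 0, ∀ z ∈ Cone H b A δ, HasDerivAt Y1 (Q z * Y z + f z) z)
    (hW : ∀ A > 0, ∃ δ > 0, ∀ z ∈ Cone H b A δ, Y1 z * g z - Y z * g1 z = E z)
    (hb : ∀ A > 0, ∀ η > 0, ∃ δ > 0, ∀ z ∈ Cone H b A δ,
      ‖Q z‖ * (H - z.im) ^ 2 ≤ (η * Real.log (1 / (H - z.im))) ^ 2 ∧
      ‖E z‖ ≤ (H - z.im) ^ (-η) ∧ ‖f z‖ ≤ (H - z.im) ^ (-η) ∧
      (H - z.im) ^ η ≤ ‖g z‖ ^ 2 + (H - z.im) ^ 2 * ‖g1 z‖ ^ 2) :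
    ∃ P : ℂ, ∀ A : ℝ, A > 0 → ∀ η : ℝ, η > 0 → ∃ δ > 0, ∀ z ∈ Cone H b A δ,
      ‖Y z - P * g z‖ + (H - z.im) * ‖Y1 z - P * g1 z‖ ≤
        (H - z.im) ^ (1 - η) * (‖g z‖ + (H - z.im) * ‖g1 z‖) := by
  obtain ⟨c₀, hc0, hc1, D0⟩ := mk_data hg hg1 hY hY1 hW hb (A := 1) (ε := 1 / 8) one_pos
    (by norm_num) (by norm_num)
  obtain ⟨P, hP, -⟩ := D0.quasi_limit
  refine ⟨P, fun A hA η hη => ?_⟩
  set ε := min (η / 8) (1 / 8) with hε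
  have hε0 : 0 < ε := by positivity
  have hε8 : ε ≤ 1 / 8 := min_le_right _ _
  have hεη : 4 * ε ≤ η := by
    have := min_le_left (η / 8) (1 / 8)
    rw [← hε] at this
    linarith
  obtain ⟨d₀, hd0, hd1, D⟩ := mk_data hg hg1 hY hY1 hW hb hA hε0 (by linarith)
  obtain ⟨P', hP', hq⟩ := D.quasi_limit
  have hPP : P' = P := tendsto_nhds_unique hP' hP
  subst hPP
  set K : ℝ := 4 * 2 ^ 3 * (A + 1 + 1 / (1 - 3 * ε)) with hK
  have hK0 : 0 < K := by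
    have : 0 < 1 - 3 * ε := by linarith
    positivity
  -- small depth
  have hsmall : ∃ δ > 0, δ ≤ d₀ ∧ ∀ d : ℝ, 0 < d → d ≤ δ → 5 * K ≤ d ^ (-(ε / 2)) := by
    have h1 : Tendsto (fun d : ℝ => d ^ (-(ε / 2))) (𝓝[>] 0) atTop :=
      tendsto_rpow_neg_nhdsGT_zero (by linarith)
    have h2 := h1.eventually (eventually_ge_atTop (5 * K))
    rw [eventually_nhdsWithin_iff, Metric.eventually_nhds_iff] at h2
    obtain ⟨ρ, hρ, h3⟩ := h2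
    refine ⟨min d₀ (ρ / 2), by positivity, min_le_left _ _, fun d hd hd' => ?_⟩
    apply h3 _ hd
    rw [Real.dist_eq, sub_zero, abs_of_pos hd]
    have := hd'.trans (min_le_right _ _)
    linarith
  obtain ⟨δ, hδ, hδd, hsm⟩ := hsmall
  refine ⟨δ, hδ, fun z hz => ?_⟩
  have hzm : z ∈ Cone H b A d₀ := ⟨hz.1, hz.2.1, hz.2.2.trans hδd⟩
  obtain ⟨i1, i2, -⟩ := hq z hzm
  have hd := hz.2.1
  have hdle1 : H - z.im ≤ 1 := hz.2.2.trans (hδd.trans hd1)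
  have hK5 := hsm _ hd hz.2.2
  have hN := D.hN z hzm
  have hden : den H g g1 z ≤ (‖g z‖ + (H - z.im) * ‖g1 z‖) ^ 2 := by
    unfold den
    have : 0 ≤ ‖g z‖ * ((H - z.im) * ‖g1 z‖) := by positivity
    nlinarith
  set d := H - z.im with hdd
  set S := ‖g z‖ + d * ‖g1 z‖ with hS
  have hS0 : 0 ≤ S := by positivity
  have hr0 : 0 < d ^ (ε / 2) := Real.rpow_pos_of_pos hd _
  have hSr : d ^ (ε / 2) ≤ 2 * S := by
    have h1 : (d ^ (ε / 2)) ^ 2 ≤ (2 * S) ^ 2 := by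
      have h2 : (d ^ (ε / 2)) ^ 2 = d ^ ε := by
        rw [← Real.rpow_natCast, ← Real.rpow_mul hd.le]
        congr 1
        push_cast; ring
      rw [h2]
      nlinarith
    exact le_of_sq_le_sq h1 (by positivity)
  have hrn : d ^ (-(ε / 2)) * d ^ (ε / 2) = 1 := by
    rw [← Real.rpow_add hd]; simp
  have hrn0 : 0 < d ^ (-(ε / 2)) := Real.rpow_pos_of_pos hd _
  have h1S : 1 ≤ 2 * (d ^ (-(ε / 2)) * S) := by
    calc (1 : ℝ) = d ^ (-(ε / 2)) * d ^ (ε / 2) := hrn.symm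
      _ ≤ d ^ (-(ε / 2)) * (2 * S) := by gcongr
      _ = _ := by ring
  have hrn1 : 1 ≤ d ^ (-(ε / 2)) :=
    Real.one_le_rpow_of_pos_of_le_one_of_nonpos hd hdle1 (by linarith)
  have hp0 : 0 < d ^ (1 - 3 * ε) := Real.rpow_pos_of_pos hd _
  have hgoal : d ^ (1 - 3 * ε) * (d ^ (-(ε / 2)) * d ^ (-(ε / 2))) = d ^ (1 - 4 * ε) := by
    rw [← Real.rpow_add hd, ← Real.rpow_add hd]
    congr 1; ring
  have hlast : d ^ (1 - 4 * ε) ≤ d ^ (1 - η) :=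
    Real.rpow_le_rpow_of_exponent_ge hd hdle1 (by linarith)
  calc ‖Y z - P' * g z‖ + d * ‖Y1 z - P' * g1 z‖
      ≤ K * d ^ (1 - 3 * ε) * (1 + ‖g z‖) + K * d ^ (1 - 3 * ε) * (1 + d * ‖g1 z‖) :=
        add_le_add i1 i2
    _ = K * d ^ (1 - 3 * ε) * (2 + S) := by rw [hS]; ring
    _ ≤ K * d ^ (1 - 3 * ε) * (5 * (d ^ (-(ε / 2)) * S)) := by
        apply mul_le_mul_of_nonneg_left _ (by positivity)
        have : S ≤ d ^ (-(ε / 2)) * S := by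
          have := mul_le_mul_of_nonneg_right hrn1 hS0
          linarith
        linarith
    _ = (5 * K) * (d ^ (1 - 3 * ε) * d ^ (-(ε / 2))) * S := by ring
    _ ≤ d ^ (-(ε / 2)) * (d ^ (1 - 3 * ε) * d ^ (-(ε / 2))) * S := by gcongr
    _ = d ^ (1 - 4 * ε) * S := by rw [← hgoal]; ring
    _ ≤ d ^ (1 - η) * S := by gcongr

end Vale.Agent.P097.H36.Bub
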