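import Vale.Agent.P097.H36.BubD

set_option linter.all false

/-!
# Record scales: `Y - P g` is of size `δ^(1-)` (absolutely) at arbitrarily small depths

`P` is the quasi-limit of `Y / g` at `b + i H`.  For `φ (t) = N (t) t^(-2ε)`, `N = |g|² + t² |g'|²`
on the axis, let `τ` be a minimizer of `φ` on `(0, s]`.  There `|Y - P g|, τ |Y' - P g'| ≤ K τ^(1-3ε)`.
Hence if `Y - c g` does not decay like a positive power of the depth, `P ≠ c`.
-/

namespace Vale.Agent.P097.H36.Bub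

open Complex Metric Set Filter Topology

/-- The axis. -/
noncomputable def ax (H b t : ℝ) : ℂ := (b : ℂ) + ((H - t : ℝ) : ℂ) * I

theorem ax_im (H b t : ℝ) : H - (ax H b t).im = t := by simp [ax]

variable {H b a d₀ ε C : ℝ} {g u Y U Q F : ℂ → ℂ}

namespace Data

variable (D : Data H b a d₀ ε C g u Y U Q F)
include D

theorem ax_mem {t : ℝ} (h0 : 0 < t) (h1 : t ≤ d₀) : ax H b t ∈ Cone H b a d₀ :=
  D.mem_axis h0 h1

/-- The raw derivative bound on the axis. -/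
theorem raw {t : ℝ} (h0 : 0 < t) (h1 : t ≤ d₀) :
    ∃ p' : ℂ, HasDerivAt (fun s : ℝ => pr H g u Y U (ax H b s)) p' t ∧
      ‖p'‖ ≤ 3 * C ^ 2 * t ^ (-(2 * ε)) / den H g u (ax H b t) +
        C * t ^ (1 - ε) / √(den H g u (ax H b t)) := by
  set x₀ : ℂ := (b : ℂ) + (H : ℂ) * I with hx₀
  have hpt : ∀ τ : ℝ, x₀ + τ * (-I) = ax H b τ := by
    intro τ
    rw [hx₀, ax]
    push_cast
    ring
  have hm := D.ax_mem h0 h1
  have hm' : x₀ + (t : ℂ) * (-I) ∈ Cone H b a d₀ := by rw [hpt]; exact hm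
  obtain ⟨p', i1, i2⟩ := hasDerivAt_pr (H := H) (Q := Q) (F := F) (D.hg _ hm') (D.hu _ hm')
    (D.hY _ hm') (D.hU _ hm') hm'.2.1.le (D.den_pos hm')
  simp only [hpt] at i1 i2
  refine ⟨p', i1, i2.trans ?_⟩
  have hn : ‖(-I : ℂ)‖ = 1 := by simp
  rw [hn, one_mul, ax_im]
  have hQ := D.hQ _ hm
  have hW := D.hW _ hm
  have hF := D.hF _ hm
  rw [ax_im] at hQ hW hF
  have hNp := D.den_pos hm
  have hC := D.C1
  set r := t ^ (-ε) with hr
  have hr1 : 1 ≤ r := one_le_rpow_neg h0 (h1.trans D.d1) D.e0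
  have hr2 : t ^ (-(2 * ε)) = r ^ 2 := by
    rw [hr, ← Real.rpow_natCast, ← Real.rpow_mul h0.le]
    congr 1; push_cast; ring
  have hr3 : t ^ (1 - ε) = t * r := by
    rw [hr]
    have : (1 - ε : ℝ) = 1 + -ε := by ring
    rw [this, Real.rpow_add h0, Real.rpow_one]
  have hs : 0 < √(den H g u (ax H b t)) := Real.sqrt_pos.2 hNp
  apply add_le_add
  · apply div_le_div_of_nonneg_right _ hNp.le
    rw [hr2]
    have hq : 1 ≤ C * r := by nlinarith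
    calc _ ≤ (C * r) * (2 + C * r) := by gcongr
      _ ≤ 3 * C ^ 2 * r ^ 2 := by nlinarith [mul_nonneg (sub_nonneg.2 hq) (le_trans zero_le_one hq)]
  · apply div_le_div_of_nonneg_right _ hs.le
    rw [hr3]
    calc t * ‖F (ax H b t)‖ ≤ t * (C * r) := by gcongr
      _ = C * (t * r) := by ring

/-- `N` is continuous on the axis. -/
theorem den_cont {t : ℝ} (h0 : 0 < t) (h1 : t ≤ d₀) :
    ContinuousAt (fun s : ℝ => den H g u (ax H b s)) t := by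
  have hm := D.ax_mem h0 h1
  have hax : ContinuousAt (fun s : ℝ => ax H b s) t := by
    unfold ax
    fun_prop
  have hg : ContinuousAt (fun s : ℝ => g (ax H b s)) t :=
    ContinuousAt.comp (g := g) (D.hg _ hm).continuousAt hax
  have hu : ContinuousAt (fun s : ℝ => u (ax H b s)) t :=
    ContinuousAt.comp (g := u) (D.hu _ hm).continuousAt hax
  have him : ContinuousAt (fun s : ℝ => H - (ax H b s).im) t :=
    continuousAt_const.sub (Complex.continuous_im.continuousAt.comp hax)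
  unfold den
  exact (hg.norm.pow 2).add ((him.pow 2).mul (hu.norm.pow 2))

/-- A record scale. -/
theorem record (hε : 0 < ε) {s : ℝ} (hs : 0 < s) (hs1 : s ≤ d₀) :
    ∃ τ, 0 < τ ∧ τ ≤ s ∧ ∀ t, 0 < t → t ≤ τ →
      den H g u (ax H b τ) * (t / τ) ^ (2 * ε) ≤ den H g u (ax H b t) := by
  set φ : ℝ → ℝ := fun t => den H g u (ax H b t) * t ^ (-(2 * ε)) with hφ
  have hC := D.C1
  have hlow : ∀ t, 0 < t → t ≤ d₀ → t ^ (-ε) ≤ C * φ t := by
    intro t h0 h1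
    have h := D.hN _ (D.ax_mem h0 h1)
    rw [ax_im] at h
    have h2 : t ^ (-ε) = t ^ ε * t ^ (-(2 * ε)) := by
      rw [← Real.rpow_add h0]; congr 1; ring
    rw [h2]
    calc t ^ ε * t ^ (-(2 * ε)) ≤ (C * den H g u (ax H b t)) * t ^ (-(2 * ε)) := by
          apply mul_le_mul_of_nonneg_right h (Real.rpow_nonneg h0.le _)
      _ = C * φ t := by rw [hφ]; ring
  have htend : Tendsto (fun t : ℝ => t ^ (-ε)) (𝓝[>] 0) atTop :=
    tendsto_rpow_neg_nhdsGT_zero (by linarith)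
  have hev := htend.eventually (eventually_ge_atTop (C * φ s))
  rw [eventually_nhdsWithin_iff, Metric.eventually_nhds_iff] at hev
  obtain ⟨ρ, hρ, h3⟩ := hev
  set t₁ := min s (ρ / 2) with ht₁
  have ht₁0 : 0 < t₁ := by positivity
  have ht₁s : t₁ ≤ s := min_le_left _ _
  have hbig : ∀ t, 0 < t → t ≤ t₁ → φ s ≤ φ t := by
    intro t h0 h1
    have h4 : C * φ s ≤ t ^ (-ε) := by
      apply h3 _ h0
      rw [Real.dist_eq, sub_zero, abs_of_pos h0]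
      have := h1.trans (min_le_right _ _)
      linarith
    have h5 := hlow t h0 (h1.trans (ht₁s.trans hs1))
    have h6 : C * φ s ≤ C * φ t := h4.trans h5
    exact le_of_mul_le_mul_left h6 (by linarith)
  have hcont : ContinuousOn φ (Icc t₁ s) := by
    intro t ht
    have h0 : 0 < t := lt_of_lt_of_le ht₁0 ht.1
    apply ContinuousAt.continuousWithinAt
    apply ContinuousAt.mul (D.den_cont h0 (ht.2.trans hs1))
    exact Real.continuousAt_rpow_const _ _ (Or.inl h0.ne')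
  obtain ⟨τ, hτ, hmin⟩ := isCompact_Icc.exists_isMinOn ⟨s, right_mem_Icc.2 ht₁s⟩ hcont
  have hτ0 : 0 < τ := lt_of_lt_of_le ht₁0 hτ.1
  refine ⟨τ, hτ0, hτ.2, fun t h0 h1 => ?_⟩
  have hφt : φ τ ≤ φ t := by
    by_cases h : t ≤ t₁
    · exact (hmin (right_mem_Icc.2 ht₁s)).trans (hbig t h0 h)
    · exact hmin ⟨(not_le.1 h).le, h1.trans hτ.2⟩
  have e1 : (t / τ) ^ (2 * ε) = t ^ (2 * ε) * τ ^ (-(2 * ε)) := by
    rw [Real.div_rpow h0.le hτ0.le, Real.rpow_neg hτ0.le, div_eq_mul_inv]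
  have e2 : t ^ (2 * ε) * t ^ (-(2 * ε)) = 1 := by
    rw [← Real.rpow_add h0]; simp
  have h7 : 0 ≤ t ^ (2 * ε) := Real.rpow_nonneg h0.le _
  calc den H g u (ax H b τ) * (t / τ) ^ (2 * ε) = t ^ (2 * ε) * φ τ := by rw [e1, hφ]; ring
    _ ≤ t ^ (2 * ε) * φ t := by gcongr
    _ = (t ^ (2 * ε) * t ^ (-(2 * ε))) * den H g u (ax H b t) := by rw [hφ]; ring
    _ = _ := by rw [e2, one_mul]

/-- `|P_τ - P| |v (τ)|` at a record scale. -/
theorem record_bound (hε : 0 < ε) (hε1 : 4 * ε < 1) {P : ℂ}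
    (hP : Tendsto (fun t : ℝ => pr H g u Y U (ax H b t)) (𝓝[>] 0) (𝓝 P))
    {τ : ℝ} (h0 : 0 < τ) (h1 : τ ≤ d₀)
    (hrec : ∀ t, 0 < t → t ≤ τ →
      den H g u (ax H b τ) * (t / τ) ^ (2 * ε) ≤ den H g u (ax H b t)) :
    ‖pr H g u Y U (ax H b τ) - P‖ * √(den H g u (ax H b τ)) ≤
      4 * C ^ 3 / (1 - 4 * ε) * τ ^ (1 - 3 * ε) := by
  have hC := D.C1
  have hmτ := D.ax_mem h0 h1
  set N := den H g u (ax H b τ) with hN
  have hNp : 0 < N := D.den_pos hmτ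
  have hs : 0 < √N := Real.sqrt_pos.2 hNp
  have hpos : 0 < 1 - 4 * ε := by linarith
  have hpos2 : 0 < 2 - 2 * ε := by linarith
  -- pointwise bound
  set A₁ := 3 * C ^ 2 * τ ^ (2 * ε) / N with hA₁
  set A₂ := C * τ ^ ε / √N with hA₂
  have hA₁0 : 0 ≤ A₁ := by positivity
  have hA₂0 : 0 ≤ A₂ := by positivity
  have hb : ∀ t, 0 < t → t ≤ τ → 3 * C ^ 2 * t ^ (-(2 * ε)) / den H g u (ax H b t) +
        C * t ^ (1 - ε) / √(den H g u (ax H b t)) ≤ A₁ * t ^ (-(4 * ε)) + A₂ * t ^ (1 - 2 * ε) := by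
    intro t ht0 ht1
    have hNt := hrec t ht0 ht1
    have hq0 : 0 < (t / τ) ^ (2 * ε) := Real.rpow_pos_of_pos (by positivity) _
    have hq1 : 0 < (t / τ) ^ ε := Real.rpow_pos_of_pos (by positivity) _
    have hNtp : 0 < den H g u (ax H b t) := lt_of_lt_of_le (by positivity) hNt
    have hsq : √N * (t / τ) ^ ε ≤ √(den H g u (ax H b t)) := by
      apply Real.le_sqrt_of_sq_le
      rw [mul_pow, Real.sq_sqrt hNp.le, ← Real.rpow_natCast ((t / τ) ^ ε) 2,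
        ← Real.rpow_mul (by positivity)]
      have : ε * ((2 : ℕ) : ℝ) = 2 * ε := by push_cast; ring
      rw [this]
      exact hNt
    apply add_le_add
    · have e1 : A₁ * t ^ (-(4 * ε)) = 3 * C ^ 2 * t ^ (-(2 * ε)) / (N * (t / τ) ^ (2 * ε)) := by
        rw [hA₁, Real.div_rpow ht0.le h0.le]
        have e2 : t ^ (-(4 * ε)) = t ^ (-(2 * ε)) * (t ^ (2 * ε))⁻¹ := by
          rw [← Real.rpow_neg ht0.le, ← Real.rpow_add ht0]; congr 1; ring
        rw [e2]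
        have h3 : 0 < t ^ (2 * ε) := Real.rpow_pos_of_pos ht0 _
        have h4 : 0 < τ ^ (2 * ε) := Real.rpow_pos_of_pos h0 _
        field_simp
      rw [e1]
      apply div_le_div_of_nonneg_left _ (by positivity) hNt
      have := Real.rpow_nonneg ht0.le (-(2 * ε))
      positivity
    · have e1 : A₂ * t ^ (1 - 2 * ε) = C * t ^ (1 - ε) / (√N * (t / τ) ^ ε) := by
        rw [hA₂, Real.div_rpow ht0.le h0.le]
        have e2 : t ^ (1 - 2 * ε) = t ^ (1 - ε) * (t ^ ε)⁻¹ := by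
          rw [← Real.rpow_neg ht0.le, ← Real.rpow_add ht0]; congr 1; ring
        rw [e2]
        have h3 : 0 < t ^ ε := Real.rpow_pos_of_pos ht0 _
        have h4 : 0 < τ ^ ε := Real.rpow_pos_of_pos h0 _
        field_simp
      rw [e1]
      apply div_le_div_of_nonneg_left _ (by positivity) hsq
      have := Real.rpow_nonneg ht0.le (1 - ε)
      positivity
  -- integrate
  set B : ℝ → ℝ := fun t => A₁ / (1 - 4 * ε) * t ^ (1 - 4 * ε) +
    A₂ / (2 - 2 * ε) * t ^ (2 - 2 * ε) with hB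
  have hBd : ∀ t, 0 < t → HasDerivAt B (A₁ * t ^ (-(4 * ε)) + A₂ * t ^ (1 - 2 * ε)) t := by
    intro t ht
    have i1 := (Real.hasDerivAt_rpow_const (x := t) (p := 1 - 4 * ε) (Or.inl ht.ne')).const_mul
      (A₁ / (1 - 4 * ε))
    have i2 := (Real.hasDerivAt_rpow_const (x := t) (p := 2 - 2 * ε) (Or.inl ht.ne')).const_mul
      (A₂ / (2 - 2 * ε))
    refine (i1.add i2).congr_deriv ?_
    have e1 : 1 - 4 * ε - 1 = -(4 * ε) := by ring
    have e2 : 2 - 2 * ε - 1 = 1 - 2 * ε := by ring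
    rw [e1, e2]
    have n1 : 1 - 4 * ε ≠ 0 := hpos.ne'
    have n2 : 2 - 2 * ε ≠ 0 := hpos2.ne'
    rw [← mul_assoc, ← mul_assoc, div_mul_cancel₀ _ n1, div_mul_cancel₀ _ n2]
  have hBnn : ∀ t, 0 < t → 0 ≤ B t := by
    intro t ht
    simp only [hB]
    have := Real.rpow_nonneg ht.le (1 - 4 * ε)
    have := Real.rpow_nonneg ht.le (2 - 2 * ε)
    positivity
  have hstep : ∀ s, 0 < s → s ≤ τ →
      ‖pr H g u Y U (ax H b τ) - pr H g u Y U (ax H b s)‖ ≤ B τ := by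
    intro s hs0 hsτ
    have hd : ∀ t ∈ Icc s τ, ∃ p' : ℂ, HasDerivAt (fun s : ℝ => pr H g u Y U (ax H b s)) p' t ∧
        ‖p'‖ ≤ A₁ * t ^ (-(4 * ε)) + A₂ * t ^ (1 - 2 * ε) := by
      intro t ht
      have ht0 : 0 < t := lt_of_lt_of_le hs0 ht.1
      obtain ⟨p', j1, j2⟩ := D.raw ht0 (ht.2.trans h1)
      exact ⟨p', j1, j2.trans (hb t ht0 ht.2)⟩
    choose! p' hp' using hd
    have key := image_norm_le_of_norm_deriv_right_le_deriv_boundary'
      (f := fun t => pr H g u Y U (ax H b t) - pr H g u Y U (ax H b s)) (f' := p') (a := s)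
      (b := τ) (B := fun t => B t - B s)
      (B' := fun t => A₁ * t ^ (-(4 * ε)) + A₂ * t ^ (1 - 2 * ε))
      (fun t ht => ((hp' t ht).1.sub_const _).continuousAt.continuousWithinAt)
      (fun t ht => ((hp' t (Ico_subset_Icc_self ht)).1.sub_const _).hasDerivWithinAt)
      (by simp)
      (fun t ht => ((hBd t (lt_of_lt_of_le hs0 ht.1)).sub_const _).continuousAt.continuousWithinAt)
      (fun t ht => ((hBd t (lt_of_lt_of_le hs0 ht.1)).sub_const _).hasDerivWithinAt)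
      (fun t ht => (hp' t (Ico_subset_Icc_self ht)).2)
      (right_mem_Icc.2 hsτ)
    have h9 := hBnn s hs0
    have key2 : ‖pr H g u Y U (ax H b τ) - pr H g u Y U (ax H b s)‖ ≤ B τ - B s := key
    linarith
  have hlim : ‖pr H g u Y U (ax H b τ) - P‖ ≤ B τ := by
    have h2 : Tendsto (fun s : ℝ => ‖pr H g u Y U (ax H b τ) - pr H g u Y U (ax H b s)‖)
        (𝓝[>] 0) (𝓝 ‖pr H g u Y U (ax H b τ) - P‖) := (tendsto_const_nhds.sub hP).norm
    refine le_of_tendsto h2 ?_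
    have : Ioc (0 : ℝ) τ ∈ 𝓝[>] (0 : ℝ) := Ioc_mem_nhdsGT h0
    filter_upwards [this] with s hs'
    exact hstep s hs'.1 hs'.2
  -- conclude
  have hinv := D.inv_sqrt_den hmτ
  rw [ax_im, ← hN] at hinv
  have hss : √N * √N = N := Real.mul_self_sqrt hNp.le
  have e1 : A₁ / (1 - 4 * ε) * τ ^ (1 - 4 * ε) * √N =
      3 * C ^ 2 / (1 - 4 * ε) * τ ^ (1 - 2 * ε) * (1 / √N) := by
    have e2 : τ ^ (2 * ε) * τ ^ (1 - 4 * ε) = τ ^ (1 - 2 * ε) := by
      rw [← Real.rpow_add h0]; congr 1; ring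
    calc A₁ / (1 - 4 * ε) * τ ^ (1 - 4 * ε) * √N
        = 3 * C ^ 2 / (1 - 4 * ε) * (τ ^ (2 * ε) * τ ^ (1 - 4 * ε)) * (√N / N) := by
          rw [hA₁]; ring
      _ = _ := by
          rw [e2]
          congr 1
          rw [div_eq_div_iff hNp.ne' hs.ne', one_mul, hss]
  have e3 : A₂ / (2 - 2 * ε) * τ ^ (2 - 2 * ε) * √N = C / (2 - 2 * ε) * τ ^ (2 - ε) := by
    have e4 : τ ^ ε * τ ^ (2 - 2 * ε) = τ ^ (2 - ε) := by
      rw [← Real.rpow_add h0]; congr 1; ring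
    calc A₂ / (2 - 2 * ε) * τ ^ (2 - 2 * ε) * √N
        = C / (2 - 2 * ε) * (τ ^ ε * τ ^ (2 - 2 * ε)) * (√N / √N) := by rw [hA₂]; ring
      _ = _ := by rw [e4, div_self hs.ne', mul_one]
  have hτ1 : τ ≤ 1 := h1.trans D.d1
  have e5 : τ ^ (1 - 2 * ε) * τ ^ (-ε) = τ ^ (1 - 3 * ε) := by
    rw [← Real.rpow_add h0]; congr 1; ring
  have e6 : τ ^ (2 - ε) ≤ τ ^ (1 - 3 * ε) :=
    Real.rpow_le_rpow_of_exponent_ge h0 hτ1 (by linarith)
  have e7 : 0 ≤ τ ^ (1 - 3 * ε) := Real.rpow_nonneg h0.le _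
  have e8 : 0 ≤ τ ^ (1 - 2 * ε) := Real.rpow_nonneg h0.le _
  calc ‖pr H g u Y U (ax H b τ) - P‖ * √N ≤ B τ * √N := by gcongr
    _ = 3 * C ^ 2 / (1 - 4 * ε) * τ ^ (1 - 2 * ε) * (1 / √N) +
        C / (2 - 2 * ε) * τ ^ (2 - ε) := by
        rw [← e1, ← e3, hB]; ring
    _ ≤ 3 * C ^ 2 / (1 - 4 * ε) * τ ^ (1 - 2 * ε) * (C * τ ^ (-ε)) +
        C ^ 3 / (1 - 4 * ε) * τ ^ (1 - 3 * ε) := by
        apply add_le_add
        · apply mul_le_mul_of_nonneg_left hinv (by positivity)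
        · have f1 : C / (2 - 2 * ε) ≤ C ^ 3 / (1 - 4 * ε) := by
            rw [div_le_div_iff₀ hpos2 hpos]
            have : C ≤ C ^ 3 := by nlinarith [sq_nonneg C, sq_nonneg (C - 1)]
            nlinarith
          have : 0 ≤ C / (2 - 2 * ε) := by positivity
          have : 0 ≤ τ ^ (2 - ε) := Real.rpow_nonneg h0.le _
          gcongr
    _ = 3 * C ^ 3 / (1 - 4 * ε) * (τ ^ (1 - 2 * ε) * τ ^ (-ε)) +
        C ^ 3 / (1 - 4 * ε) * τ ^ (1 - 3 * ε) := by ring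
    _ = 4 * C ^ 3 / (1 - 4 * ε) * τ ^ (1 - 3 * ε) := by rw [e5]; ring

/-- **Record scales.**  At arbitrarily small depths `τ` on the axis the 3-jet of `Y - P g` is
`O (τ^(1 - 4 ε))`. -/
theorem small_jet (hε : 0 < ε) (hε1 : 4 * ε < 1) {P : ℂ}
    (hP : Tendsto (fun t : ℝ => pr H g u Y U (ax H b t)) (𝓝[>] 0) (𝓝 P))
    {s : ℝ} (hs : 0 < s) (hs1 : s ≤ d₀) :
    ∃ τ, 0 < τ ∧ τ ≤ s ∧
      ‖Y (ax H b τ) - P * g (ax H b τ)‖ ≤ 5 * C ^ 3 / (1 - 4 * ε) * τ ^ (1 - 3 * ε) ∧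
      τ * ‖U (ax H b τ) - P * u (ax H b τ)‖ ≤ 5 * C ^ 3 / (1 - 4 * ε) * τ ^ (1 - 3 * ε) ∧
      τ ^ 2 * ‖Q (ax H b τ) * (Y (ax H b τ) - P * g (ax H b τ)) + F (ax H b τ)‖ ≤
        6 * C ^ 4 / (1 - 4 * ε) * τ ^ (1 - 4 * ε) := by
  obtain ⟨τ, h0, h1, hrec⟩ := D.record hε hs hs1
  have hτd : τ ≤ d₀ := h1.trans hs1
  have hτ1 : τ ≤ 1 := hτd.trans D.d1
  have hm := D.ax_mem h0 hτd
  have hR := D.record_bound hε hε1 hP h0 hτd hrec
  obtain ⟨c1, c2⟩ := D.comp hm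
  rw [ax_im] at c1 c2
  have hC := D.C1
  have hpos : 0 < 1 - 4 * ε := by linarith
  have hsg := norm_le_sqrt_den_g H g u (ax H b τ)
  have hsu := norm_le_sqrt_den_u g u hm.2.1.le
  rw [ax_im] at hsu
  set x := ax H b τ with hx
  set p := pr H g u Y U x with hp
  set S := √(den H g u x) with hS
  have e7 : 0 ≤ τ ^ (1 - 3 * ε) := Real.rpow_nonneg h0.le _
  have hbase : C ^ 2 * τ ^ (1 - 2 * ε) ≤ C ^ 3 / (1 - 4 * ε) * τ ^ (1 - 3 * ε) := by
    have f1 : τ ^ (1 - 2 * ε) ≤ τ ^ (1 - 3 * ε) :=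
      Real.rpow_le_rpow_of_exponent_ge h0 hτ1 (by linarith)
    have f2 : C ^ 2 ≤ C ^ 3 / (1 - 4 * ε) := by
      rw [le_div_iff₀ hpos]
      nlinarith [sq_nonneg C]
    have f3 : 0 ≤ τ ^ (1 - 2 * ε) := Real.rpow_nonneg h0.le _
    gcongr
  have i1 : ‖Y x - P * g x‖ ≤ 5 * C ^ 3 / (1 - 4 * ε) * τ ^ (1 - 3 * ε) := by
    calc ‖Y x - P * g x‖ = ‖(Y x - p * g x) + (p - P) * g x‖ := by congr 1; ring
      _ ≤ ‖Y x - p * g x‖ + ‖p - P‖ * ‖g x‖ := by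
          refine (norm_add_le _ _).trans ?_
          rw [norm_mul]
      _ ≤ C ^ 3 / (1 - 4 * ε) * τ ^ (1 - 3 * ε) + ‖p - P‖ * S := by
          have := c1.trans hbase
          gcongr
      _ ≤ C ^ 3 / (1 - 4 * ε) * τ ^ (1 - 3 * ε) + 4 * C ^ 3 / (1 - 4 * ε) * τ ^ (1 - 3 * ε) := by
          gcongr
      _ = _ := by ring
  refine ⟨τ, h0, h1, i1, ?_, ?_⟩
  · calc τ * ‖U x - P * u x‖ = τ * ‖(U x - p * u x) + (p - P) * u x‖ := by congr 2; ring
      _ ≤ τ * (‖U x - p * u x‖ + ‖p - P‖ * ‖u x‖) := by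
          apply mul_le_mul_of_nonneg_left _ h0.le
          refine (norm_add_le _ _).trans ?_
          rw [norm_mul]
      _ = τ * ‖U x - p * u x‖ + ‖p - P‖ * (τ * ‖u x‖) := by ring
      _ ≤ C ^ 3 / (1 - 4 * ε) * τ ^ (1 - 3 * ε) + ‖p - P‖ * S := by
          have := c2.trans hbase
          gcongr
      _ ≤ C ^ 3 / (1 - 4 * ε) * τ ^ (1 - 3 * ε) + 4 * C ^ 3 / (1 - 4 * ε) * τ ^ (1 - 3 * ε) := by
          gcongr
      _ = _ := by ring
  · have hQ := D.hQ _ hm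
    have hF := D.hF _ hm
    rw [ax_im] at hQ hF
    have hr0 : 0 ≤ τ ^ (-ε) := Real.rpow_nonneg h0.le _
    have g1 : τ ^ (-ε) * τ ^ (1 - 3 * ε) = τ ^ (1 - 4 * ε) := by
      rw [← Real.rpow_add h0]; congr 1; ring
    have g2 : τ ^ 2 * τ ^ (-ε) ≤ τ ^ (1 - 4 * ε) := by
      have : τ ^ 2 * τ ^ (-ε) = τ ^ (2 - ε) := by
        rw [← Real.rpow_natCast, ← Real.rpow_add h0]; congr 1
      rw [this]
      exact Real.rpow_le_rpow_of_exponent_ge h0 hτ1 (by linarith)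
    have g3 : 0 ≤ τ ^ (1 - 4 * ε) := Real.rpow_nonneg h0.le _
    calc τ ^ 2 * ‖Q x * (Y x - P * g x) + F x‖
        ≤ τ ^ 2 * (‖Q x‖ * ‖Y x - P * g x‖ + ‖F x‖) := by
          apply mul_le_mul_of_nonneg_left _ (by positivity)
          refine (norm_add_le _ _).trans ?_
          rw [norm_mul]
      _ = (τ ^ 2 * ‖Q x‖) * ‖Y x - P * g x‖ + τ ^ 2 * ‖F x‖ := by ring
      _ ≤ (C * τ ^ (-ε)) * (5 * C ^ 3 / (1 - 4 * ε) * τ ^ (1 - 3 * ε)) +
          τ ^ 2 * (C * τ ^ (-ε)) := by gcongr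
      _ = 5 * C ^ 4 / (1 - 4 * ε) * (τ ^ (-ε) * τ ^ (1 - 3 * ε)) + C * (τ ^ 2 * τ ^ (-ε)) := by
          ring
      _ ≤ 5 * C ^ 4 / (1 - 4 * ε) * τ ^ (1 - 4 * ε) + C ^ 4 / (1 - 4 * ε) * τ ^ (1 - 4 * ε) := by
          rw [g1]
          apply add_le_add le_rfl
          have f2 : C ≤ C ^ 4 / (1 - 4 * ε) := by
            rw [le_div_iff₀ hpos]
            have : C ≤ C ^ 4 := by nlinarith [sq_nonneg C, sq_nonneg (C ^ 2 - 1), sq_nonneg (C-1)]
            nlinarith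
          have : 0 ≤ τ ^ 2 * τ ^ (-ε) := by positivity
          gcongr
      _ = _ := by ring

end Data

end Vale.Agent.P097.H36.Bub
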