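import Vale.Agent.P097.H36.Knot

set_option linter.all false

/-!
# `P ≠ c` when `Y - c g` does not decay like a power (row KNOT, one boundary point)
-/

namespace Vale.Agent.P097.H36.Bub

open Complex Metric Set Filter Topology

/-- All the hypotheses at the boundary point `b + i H` (every aperture, every exponent). -/
structure Pt (H b : ℝ) (g g1 Y Y1 Q E f : ℂ → ℂ) : Prop where
  hg : ∀ A > 0, ∃ δ > 0, ∀ z ∈ Cone H b A δ, HasDerivAt g (g1 z) z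
  hg1 : ∀ A > 0, ∃ δ > 0, ∀ z ∈ Cone H b A δ, HasDerivAt g1 (Q z * g z) z
  hY : ∀ A > 0, ∃ δ > 0, ∀ z ∈ Cone H b A δ, HasDerivAt Y (Y1 z) z
  hY1 : ∀ A > 0, ∃ δ > 0, ∀ z ∈ Cone H b A δ, HasDerivAt Y1 (Q z * Y z + f z) z
  hW : ∀ A > 0, ∃ δ > 0, ∀ z ∈ Cone H b A δ, Y1 z * g z - Y z * g1 z = E z
  hb : ∀ A > 0, ∀ η : ℝ, η > 0 → ∃ δ > 0, ∀ z ∈ Cone H b A δ,
      ‖Q z‖ * (H - z.im) ^ 2 ≤ (η * Real.log (1 / (H - z.im))) ^ 2 ∧
      ‖E z‖ ≤ (H - z.im) ^ (-η) ∧ ‖f z‖ ≤ (H - z.im) ^ (-η) ∧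
      (H - z.im) ^ η ≤ ‖g z‖ ^ 2 + (H - z.im) ^ 2 * ‖g1 z‖ ^ 2

variable {H b : ℝ} {g g1 Y Y1 Q E f : ℂ → ℂ}

/-- The quasi-limit of `Y / g` at `b + i H` is `P`. -/
def QLim (H b : ℝ) (g g1 Y Y1 : ℂ → ℂ) (P : ℂ) : Prop :=
  Tendsto (fun t : ℝ => pr H g g1 Y Y1 (ax H b t)) (𝓝[>] 0) (𝓝 P)

theorem QLim.unique {P P' : ℂ} (h : QLim H b g g1 Y Y1 P) (h' : QLim H b g g1 Y Y1 P') : P = P' :=
  tendsto_nhds_unique h h'

/-- The linear form of the quasi-limit. -/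
def QLin (H b : ℝ) (g g1 Y Y1 : ℂ → ℂ) (P : ℂ) : Prop :=
  ∀ A : ℝ, A > 0 → ∀ η : ℝ, η > 0 → ∃ δ > 0, ∀ z ∈ Cone H b A δ,
      ‖Y z - P * g z‖ + (H - z.im) * ‖Y1 z - P * g1 z‖ ≤
        (H - z.im) ^ (1 - η) * (‖g z‖ + (H - z.im) * ‖g1 z‖)

namespace Pt

variable (S : Pt H b g g1 Y Y1 Q E f)
include S

theorem data {A ε : ℝ} (hA : 0 < A) (hε : 0 < ε) (hε1 : 3 * ε < 1) :
    ∃ d₀ > 0, d₀ ≤ 1 ∧ Data H b A d₀ ε 2 g g1 Y Y1 Q f :=
  mk_data S.hg S.hg1 S.hY S.hY1 S.hW S.hb hA hε hε1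

theorem exists_ql : ∃ P, QLim H b g g1 Y Y1 P := by
  obtain ⟨c₀, hc0, hc1, D0⟩ := S.data (A := 1) (ε := 1 / 8) one_pos (by norm_num) (by norm_num)
  obtain ⟨P, hP, -⟩ := D0.quasi_limit
  exact ⟨P, hP⟩

/-- The quasi-limit in linear form, for the limit `P` on the axis. -/
theorem lin_of_qlim {P : ℂ} (hP : QLim H b g g1 Y Y1 P) : QLin H b g g1 Y Y1 P := by
  intro A hA η hη
  set ε := min (η / 8) (1 / 8) with hε
  have hε0 : 0 < ε := by positivity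
  have hε8 : ε ≤ 1 / 8 := min_le_right _ _
  have hεη : 4 * ε ≤ η := by
    have := min_le_left (η / 8) (1 / 8)
    rw [← hε] at this
    linarith
  obtain ⟨d₀, hd0, hd1, D⟩ := S.data hA hε0 (by linarith)
  obtain ⟨P', hP', hq⟩ := D.quasi_limit
  have hPP : P' = P := tendsto_nhds_unique hP' hP
  subst hPP
  set K : ℝ := 4 * 2 ^ 3 * (A + 1 + 1 / (1 - 3 * ε)) with hK
  have hK0 : 0 < K := by
    have : 0 < 1 - 3 * ε := by linarith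
    positivity
  have hsmall : ∃ δ > 0, δ ≤ d₀ ∧ ∀ d : ℝ, 0 < d → d ≤ δ → 5 * K ≤ d ^ (-(ε / 2)) := by
    have h1 : Tendsto (fun d : ℝ => d ^ (-(ε / 2))) (𝓝[>] 0) atTop :=
      tendsto_rpow_neg_nhdsGT_zero (by linarith)
    have h2 := h1.eventually (eventually_ge_atTop (5 * K))
    rw [eventually_nhdsWithin_iff, Metric.eventually_nhds_iff] at h2
    obtain ⟨ρ, hρ, h3⟩ := h2
    refine ⟨min d₀ (ρ / 2), by positivity, min_le_left _ _, fun d hd hd' => ?_⟩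
    apply h3 _ hd
    rw [Real.dist_eq, sub_zero, abs_of_pos hd]
    have := hd'.trans (min_le_right _ _)
    linarith
  obtain ⟨δ, hδ, hδd, hsm⟩ := hsmall
  refine ⟨δ, hδ, fun z hz => ?_⟩
  have hzm : z ∈ Cone H b A d₀ := ⟨hz.1, hz.2.1, hz.2.2.trans hδd⟩
  obtain ⟨i1, i2, -⟩ := hq z hzm
  have hd := hz.2.1
  have hdle1 : H - z.im ≤ 1 := hz.2.2.trans (hδd.trans hd1)
  have hK5 := hsm _ hd hz.2.2
  have hN := D.hN z hzm
  have hden : den H g g1 z ≤ (‖g z‖ + (H - z.im) * ‖g1 z‖) ^ 2 := by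
    unfold den
    have : 0 ≤ ‖g z‖ * ((H - z.im) * ‖g1 z‖) := by positivity
    nlinarith
  set d := H - z.im with hdd
  set S := ‖g z‖ + d * ‖g1 z‖ with hS
  have hS0 : 0 ≤ S := by positivity
  have hr0 : 0 < d ^ (ε / 2) := Real.rpow_pos_of_pos hd _
  have hSr : d ^ (ε / 2) ≤ 2 * S := by
    have h1 : (d ^ (ε / 2)) ^ 2 ≤ (2 * S) ^ 2 := by
      have h2 : (d ^ (ε / 2)) ^ 2 = d ^ ε := by
        rw [← Real.rpow_natCast, ← Real.rpow_mul hd.le]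
        congr 1
        push_cast; ring
      rw [h2]
      nlinarith
    exact le_of_sq_le_sq h1 (by positivity)
  have hrn : d ^ (-(ε / 2)) * d ^ (ε / 2) = 1 := by
    rw [← Real.rpow_add hd]; simp
  have hrn0 : 0 < d ^ (-(ε / 2)) := Real.rpow_pos_of_pos hd _
  have h1S : 1 ≤ 2 * (d ^ (-(ε / 2)) * S) := by
    calc (1 : ℝ) = d ^ (-(ε / 2)) * d ^ (ε / 2) := hrn.symm
      _ ≤ d ^ (-(ε / 2)) * (2 * S) := by gcongr
      _ = _ := by ring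
  have hrn1 : 1 ≤ d ^ (-(ε / 2)) :=
    Real.one_le_rpow_of_pos_of_le_one_of_nonpos hd hdle1 (by linarith)
  have hp0 : 0 < d ^ (1 - 3 * ε) := Real.rpow_pos_of_pos hd _
  have hgoal : d ^ (1 - 3 * ε) * (d ^ (-(ε / 2)) * d ^ (-(ε / 2))) = d ^ (1 - 4 * ε) := by
    rw [← Real.rpow_add hd, ← Real.rpow_add hd]
    congr 1; ring
  have hlast : d ^ (1 - 4 * ε) ≤ d ^ (1 - η) :=
    Real.rpow_le_rpow_of_exponent_ge hd hdle1 (by linarith)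
  calc ‖Y z - P' * g z‖ + d * ‖Y1 z - P' * g1 z‖
      ≤ K * d ^ (1 - 3 * ε) * (1 + ‖g z‖) + K * d ^ (1 - 3 * ε) * (1 + d * ‖g1 z‖) :=
        add_le_add i1 i2
    _ = K * d ^ (1 - 3 * ε) * (2 + S) := by rw [hS]; ring
    _ ≤ K * d ^ (1 - 3 * ε) * (5 * (d ^ (-(ε / 2)) * S)) := by
        apply mul_le_mul_of_nonneg_left _ (by positivity)
        have : S ≤ d ^ (-(ε / 2)) * S := by
          have := mul_le_mul_of_nonneg_right hrn1 hS0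
          linarith
        linarith
    _ = (5 * K) * (d ^ (1 - 3 * ε) * d ^ (-(ε / 2))) * S := by ring
    _ ≤ d ^ (-(ε / 2)) * (d ^ (1 - 3 * ε) * d ^ (-(ε / 2))) * S := by gcongr
    _ = d ^ (1 - 4 * ε) * S := by rw [← hgoal]; ring
    _ ≤ d ^ (1 - η) * S := by gcongr

/-- A constant with the linear estimate is the quasi-limit. -/
theorem qlim_of_lin {P : ℂ} (hP : QLin H b g g1 Y Y1 P) : QLim H b g g1 Y Y1 P := by
  obtain ⟨P', hP'⟩ := S.exists_ql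
  have hl' := S.lin_of_qlim hP'
  suffices h : P' = P by rwa [← h]
  obtain ⟨δ₁, hδ₁, h1⟩ := hP 1 one_pos (1 / 2) (by norm_num)
  obtain ⟨δ₂, hδ₂, h2⟩ := hl' 1 one_pos (1 / 2) (by norm_num)
  obtain ⟨d₀, hd0, hd1, D⟩ := S.data (A := 1) (ε := 1 / 8) one_pos (by norm_num) (by norm_num)
  set δ := min d₀ (min δ₁ δ₂) with hδ
  have hδ0 : 0 < δ := by positivity
  have hle0 : δ ≤ d₀ := min_le_left _ _
  have hle1 : δ ≤ δ₁ := (min_le_right _ _).trans (min_le_left _ _)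
  have hle2 : δ ≤ δ₂ := (min_le_right _ _).trans (min_le_right _ _)
  have hbd : ∀ t, 0 < t → t ≤ δ → ‖P' - P‖ ≤ 2 * t ^ (1 / 2 : ℝ) := by
    intro t ht0 ht
    have hm0 : ax H b t ∈ Cone H b 1 d₀ := D.mem_axis ht0 (ht.trans hle0)
    have hm1 : ax H b t ∈ Cone H b 1 δ₁ := ⟨hm0.1, hm0.2.1, by rw [ax_im]; exact ht.trans hle1⟩
    have hm2 : ax H b t ∈ Cone H b 1 δ₂ := ⟨hm0.1, hm0.2.1, by rw [ax_im]; exact ht.trans hle2⟩
    have j1 := h1 _ hm1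
    have j2 := h2 _ hm2
    rw [ax_im] at j1 j2
    have hNp := D.den_pos hm0
    set x := ax H b t with hx
    set T := ‖g x‖ + t * ‖g1 x‖ with hT
    have hT0 : 0 < T := by
      by_contra hcon
      have hT' : T = 0 := le_antisymm (not_lt.1 hcon) (by positivity)
      have e1 : ‖g x‖ = 0 := by
        have := norm_nonneg (g x); have : 0 ≤ t * ‖g1 x‖ := by positivity
        linarith
      have e2 : t * ‖g1 x‖ = 0 := by
        have : 0 ≤ t * ‖g1 x‖ := by positivity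
        linarith
      have : den H g g1 x = 0 := by
        unfold den
        have him : H - x.im = t := ax_im H b t
        rw [him, e1]
        have : t ^ 2 * ‖g1 x‖ ^ 2 = (t * ‖g1 x‖) ^ 2 := by ring
        rw [this, e2]; ring
      linarith
    have e3 : ‖(P' - P) * g x‖ + t * ‖(P' - P) * g1 x‖ ≤ 2 * (t ^ (1 / 2 : ℝ) * T) := by
      have k1 : ‖(P' - P) * g x‖ ≤ ‖Y x - P * g x‖ + ‖Y x - P' * g x‖ := by
        calc ‖(P' - P) * g x‖ = ‖(Y x - P * g x) - (Y x - P' * g x)‖ := by congr 1; ring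
          _ ≤ _ := norm_sub_le _ _
      have k2 : ‖(P' - P) * g1 x‖ ≤ ‖Y1 x - P * g1 x‖ + ‖Y1 x - P' * g1 x‖ := by
        calc ‖(P' - P) * g1 x‖ = ‖(Y1 x - P * g1 x) - (Y1 x - P' * g1 x)‖ := by congr 1; ring
          _ ≤ _ := norm_sub_le _ _
      have k3 := mul_le_mul_of_nonneg_left k2 ht0.le
      have e9 : (1 - 1 / 2 : ℝ) = 1 / 2 := by norm_num
      rw [e9] at j1 j2
      linarith
    have e4 : ‖P' - P‖ * T ≤ 2 * t ^ (1 / 2 : ℝ) * T := by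
      calc ‖P' - P‖ * T = ‖(P' - P) * g x‖ + t * ‖(P' - P) * g1 x‖ := by
            rw [norm_mul, norm_mul, hT]; ring
        _ ≤ 2 * (t ^ (1 / 2 : ℝ) * T) := e3
        _ = _ := by ring
    exact le_of_mul_le_mul_right e4 hT0
  have htend : Tendsto (fun t : ℝ => 2 * t ^ (1 / 2 : ℝ)) (𝓝[>] 0) (𝓝 0) := by
    have h3 : Tendsto (fun t : ℝ => t) (𝓝[>] 0) (𝓝 0) := tendsto_nhdsWithin_of_tendsto_nhds tendsto_id
    have := h3.rpow_const (p := (1 / 2 : ℝ)) (Or.inr (by norm_num))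
    rw [Real.zero_rpow (by norm_num)] at this
    simpa using this.const_mul 2
  have hle : ‖P' - P‖ ≤ 0 := by
    refine ge_of_tendsto htend ?_
    have : Ioc (0 : ℝ) δ ∈ 𝓝[>] (0 : ℝ) := Ioc_mem_nhdsGT hδ0
    filter_upwards [this] with t ht
    exact hbd t ht.1 ht.2
  exact sub_eq_zero.1 (norm_eq_zero.1 (le_antisymm hle (norm_nonneg _)))

/-- **Record scales**: for every exponent, at arbitrarily small depths the 3-jet of `Y - P g` at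
the axis point is at most `τ^(1-η)`. -/
theorem small_jets {P : ℂ} (hP : QLim H b g g1 Y Y1 P) {η : ℝ} (hη : 0 < η) :
    ∃ᶠ τ in 𝓝[>] (0 : ℝ),
      ‖Y (ax H b τ) - P * g (ax H b τ)‖ ≤ τ ^ (1 - η) ∧
      τ * ‖Y1 (ax H b τ) - P * g1 (ax H b τ)‖ ≤ τ ^ (1 - η) ∧
      τ ^ 2 * ‖Q (ax H b τ) * (Y (ax H b τ) - P * g (ax H b τ)) + f (ax H b τ)‖ ≤ τ ^ (1 - η) := by
  set ε := min (η / 8) (1 / 8) with hε
  have hε0 : 0 < ε := by positivity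
  have hε8 : ε ≤ 1 / 8 := min_le_right _ _
  have hεη : 5 * ε ≤ η := by
    have := min_le_left (η / 8) (1 / 8)
    rw [← hε] at this
    linarith
  obtain ⟨d₀, hd0, hd1, D⟩ := S.data (A := 1) one_pos hε0 (by linarith)
  set K : ℝ := 6 * 2 ^ 4 / (1 - 4 * ε) with hK
  have hpos : 0 < 1 - 4 * ε := by linarith
  have hK5 : 5 * 2 ^ 3 / (1 - 4 * ε) ≤ K := by
    rw [hK]
    apply div_le_div_of_nonneg_right _ hpos.le
    norm_num
  have hK0 : 0 < K := by positivity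
  rw [frequently_nhdsWithin_iff, Filter.frequently_iff]
  intro V hV
  obtain ⟨ρ, hρ, hball⟩ := Metric.mem_nhds_iff.1 hV
  have h1 : Tendsto (fun d : ℝ => d ^ (-ε)) (𝓝[>] 0) atTop :=
    tendsto_rpow_neg_nhdsGT_zero (by linarith)
  have h2 := h1.eventually (eventually_ge_atTop K)
  rw [eventually_nhdsWithin_iff, Metric.eventually_nhds_iff] at h2
  obtain ⟨ρ', hρ', h3⟩ := h2
  set s := min d₀ (min (ρ / 2) (ρ' / 2)) with hs
  have hs0 : 0 < s := by positivity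
  have hs1 : s ≤ d₀ := min_le_left _ _
  have hs2 : s ≤ ρ / 2 := (min_le_right _ _).trans (min_le_left _ _)
  have hs3 : s ≤ ρ' / 2 := (min_le_right _ _).trans (min_le_right _ _)
  obtain ⟨τ, h0, hτs, i1, i2, i3⟩ := D.small_jet hε0 (by linarith) hP hs0 hs1
  have hτ1 : τ ≤ 1 := hτs.trans (hs1.trans hd1)
  refine ⟨τ, hball ?_, ?_, h0⟩
  · rw [Metric.mem_ball, Real.dist_eq, sub_zero, abs_of_pos h0]; linarith
  have hKτ : K ≤ τ ^ (-ε) := by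
    apply h3 _ h0
    rw [Real.dist_eq, sub_zero, abs_of_pos h0]; linarith
  have e1 : τ ^ (-ε) * τ ^ (1 - 4 * ε) = τ ^ (1 - 5 * ε) := by
    rw [← Real.rpow_add h0]; congr 1; ring
  have e2 : τ ^ (1 - 5 * ε) ≤ τ ^ (1 - η) :=
    Real.rpow_le_rpow_of_exponent_ge h0 hτ1 (by linarith)
  have e3 : τ ^ (1 - 3 * ε) ≤ τ ^ (1 - 4 * ε) :=
    Real.rpow_le_rpow_of_exponent_ge h0 hτ1 (by linarith)
  have e4 : 0 ≤ τ ^ (1 - 4 * ε) := Real.rpow_nonneg h0.le _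
  have e5 : K * τ ^ (1 - 4 * ε) ≤ τ ^ (1 - η) := by
    calc K * τ ^ (1 - 4 * ε) ≤ τ ^ (-ε) * τ ^ (1 - 4 * ε) := by gcongr
      _ = τ ^ (1 - 5 * ε) := e1
      _ ≤ _ := e2
  have e6 : 5 * 2 ^ 3 / (1 - 4 * ε) * τ ^ (1 - 3 * ε) ≤ K * τ ^ (1 - 4 * ε) := by
    have : 0 ≤ τ ^ (1 - 3 * ε) := Real.rpow_nonneg h0.le _
    gcongr
  exact ⟨i1.trans (e6.trans e5), i2.trans (e6.trans e5), i3.trans e5⟩

/-- **Row KNOT at one boundary point.**  If the 3-jet of `y = Y - c g` does not decay like a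
power of the depth on the axis, the quasi-limit of `Y / g` is not `c`. -/
theorem knot_ne {P c : ℂ} (hP : QLim H b g g1 Y Y1 P)
    (hgr : ∀ᶠ τ in 𝓝[>] (0 : ℝ), τ ^ (1 / 2 : ℝ) ≤
      ‖Y (ax H b τ) - c * g (ax H b τ)‖ ^ 2 +
        τ ^ 2 * ‖Y1 (ax H b τ) - c * g1 (ax H b τ)‖ ^ 2 +
        τ ^ 4 * ‖Q (ax H b τ) * (Y (ax H b τ) - c * g (ax H b τ)) + f (ax H b τ)‖ ^ 2) :
    P ≠ c := by
  rintro rfl
  have hf := S.small_jets hP (η := 1 / 4) (by norm_num)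
  have hlt : ∀ᶠ τ in 𝓝[>] (0 : ℝ), τ < 1 / 16 ∧ 0 < τ := by
    have : Ioo (0 : ℝ) (1 / 16) ∈ 𝓝[>] (0 : ℝ) := Ioo_mem_nhdsGT (by norm_num)
    filter_upwards [this] with τ hτ
    exact ⟨hτ.2, hτ.1⟩
  obtain ⟨τ, ⟨⟨i1, i2, i3⟩, h4⟩, h5, h0⟩ := ((hf.and_eventually hgr).and_eventually hlt).exists
  have e1 : τ ^ (1 - 1 / 4 : ℝ) = τ ^ (3 / 4 : ℝ) := by norm_num
  rw [e1] at i1 i2 i3
  set m := τ ^ (3 / 4 : ℝ) with hm
  have hm0 : 0 < m := Real.rpow_pos_of_pos h0 _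
  have hm2 : m ^ 2 = τ * τ ^ (1 / 2 : ℝ) := by
    rw [hm, ← Real.rpow_natCast, ← Real.rpow_mul h0.le]
    nth_rewrite 2 [← Real.rpow_one τ]
    rw [← Real.rpow_add h0]
    norm_num
  have j1 : ‖Y (ax H b τ) - P * g (ax H b τ)‖ ^ 2 ≤ m ^ 2 := by gcongr
  have j2 : τ ^ 2 * ‖Y1 (ax H b τ) - P * g1 (ax H b τ)‖ ^ 2 ≤ m ^ 2 := by
    rw [← mul_pow]; gcongr
  have j3 : τ ^ 4 * ‖Q (ax H b τ) * (Y (ax H b τ) - P * g (ax H b τ)) + f (ax H b τ)‖ ^ 2 ≤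
      m ^ 2 := by
    have : τ ^ 4 = (τ ^ 2) ^ 2 := by ring
    rw [this, ← mul_pow]; gcongr
  have hr : 0 < τ ^ (1 / 2 : ℝ) := Real.rpow_pos_of_pos h0 _
  have : τ ^ (1 / 2 : ℝ) ≤ 3 * (τ * τ ^ (1 / 2 : ℝ)) := by
    rw [hm2] at j1 j2 j3
    linarith
  nlinarith

end Pt

end Vale.Agent.P097.H36.Bub
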