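import Vale.Agent.P097.H36.SecMain

set_option linter.all false

namespace Vale.Agent.P097.H36

open Complex Metric Set MeasureTheory intervalIntegral Filter

/-- absolute constant of the second moment bound -/
noncomputable def CC : ℝ := 4 * 56 ^ 175

/-- **Second moment bound** (557 #11164 (1)-(4)) in the strip `h - D < Im z < h`, `d = h - Im z`:
`Q` holomorphic and `1`-periodic, `d² |Q| ≤ A²` for `d ≥ d0`, and `Q` takes no value in `[0,∞)`
at points with `d² |Q| > A²`. Then `∫_0^1 d² |Q(x + i(h-d))| dx ≤ CC A²` at every level. -/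
theorem secmom {Q : ℂ → ℂ} {h D d0 A : ℝ} (hA : 0 < A) (hd0 : 0 < d0) (hD : 3 / 2 * d0 ≤ D)
    (hQ : DifferentiableOn ℂ Q {z | h - D < z.im ∧ z.im < h})
    (hper : ∀ z : ℂ, h - D < z.im → z.im < h → Q (z + 1) = Q z)
    (htop : ∀ z : ℂ, h - D < z.im → z.im ≤ h - d0 → (h - z.im) ^ 2 * ‖Q z‖ ≤ A ^ 2)
    (hre : ∀ z : ℂ, h - D < z.im → z.im < h → A ^ 2 < (h - z.im) ^ 2 * ‖Q z‖ →
      0 ≤ (Q z).re → (Q z).im ≠ 0)
    {d : ℝ} (h0 : 0 < d) (h1 : d < D) :
    ∫ x in (0 : ℝ)..1, d ^ 2 * ‖Q ((x : ℂ) + (h - d : ℝ) * I)‖ ≤ CC * A ^ 2 := by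
  set Qt : ℂ → ℂ := fun ζ => Q (h * I - ζ) / (A ^ 2 : ℝ) with hQt
  have hA2 : (0 : ℝ) < A ^ 2 := by positivity
  have him : ∀ ζ : ℂ, (h * I - ζ).im = h - ζ.im := fun ζ => by simp
  have hnorm : ∀ ζ : ℂ, ‖Qt ζ‖ = ‖Q (h * I - ζ)‖ / A ^ 2 := by
    intro ζ
    rw [hQt]
    simp only
    rw [norm_div, Complex.norm_real, Real.norm_of_nonneg hA2.le]
  have H : Hyp Qt D d0 :=
    { hd0 := hd0
      hD := hD
      diff := by
        apply DifferentiableOn.div_const
        apply hQ.comp ((differentiableOn_const _).sub differentiableOn_id)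
        intro z hz
        simp only [Set.mem_setOf_eq, Pi.sub_apply, id, him]
        constructor <;> linarith [hz.1, hz.2]
      per := by
        intro z hz0 hz1
        rw [hQt]
        simp only
        rw [← hper (h * I - (z + 1)) (by simp; linarith) (by simp; linarith)]
        congr 2
        ring
      top := by
        intro z hz0 hz1
        rw [hnorm, ← mul_div_assoc, div_le_one hA2]
        have := htop (h * I - z) (by rw [him]; linarith) (by rw [him]; linarith)
        rwa [him, sub_sub_cancel] at this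
      real := by
        intro z hz0 hz1 hk
        rw [hnorm, ← mul_div_assoc, one_lt_div hA2] at hk
        have := hre (h * I - z) (by rw [him]; linarith) (by rw [him]; linarith)
          (by rw [him, sub_sub_cancel]; exact hk)
        have e1 : (Qt z).re = (Q (h * I - z)).re / A ^ 2 := by
          rw [hQt]; simp only; rw [Complex.div_ofReal_re]
        have e2 : (Qt z).im = (Q (h * I - z)).im / A ^ 2 := by
          rw [hQt]; simp only; rw [Complex.div_ofReal_im]
        rw [Complex.mem_slitPlane_iff]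
        simp only [neg_re, neg_im]
        rcases lt_or_ge (Q (h * I - z)).re 0 with h5 | h5
        · left
          rw [e1]
          have := div_neg_of_neg_of_pos h5 hA2
          linarith
        · right
          rw [e2]
          have := this h5
          intro h6
          apply this
          have h7 : (Q (h * I - z)).im / A ^ 2 = 0 := by linarith
          rcases div_eq_zero_iff.1 h7 with h8 | h8
          · exact h8
          · exact absurd h8 hA2.ne' }
  have hb := H.bound h0 h1
  set f : ℝ → ℝ := fun x => d ^ 2 * ‖Q ((x : ℂ) + (h - d : ℝ) * I)‖ with hf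
  have hfp : Function.Periodic f 1 := by
    intro x
    rw [hf]
    simp only
    rw [← hper ((x : ℂ) + (h - d : ℝ) * I) (by simp; linarith) (by simp; linarith)]
    congr 3
    push_cast
    ring
  have e1 : ∫ s in (0 : ℝ)..1, kap Qt ((s : ℂ) + d * I) = (∫ s in (0 : ℝ)..1, f (-s)) / A ^ 2 := by
    rw [← intervalIntegral.integral_div]
    apply intervalIntegral.integral_congr
    intro s hs
    simp only [kap, hnorm, hf]
    have : (h : ℂ) * I - ((s : ℂ) + d * I) = ((-s : ℝ) : ℂ) + (h - d : ℝ) * I := by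
      push_cast; ring
    rw [this]
    simp only [add_im, ofReal_im, mul_im, ofReal_re, I_im, mul_one, I_re, mul_zero, add_zero,
      zero_add]
    ring
  have e2 : ∫ s in (0 : ℝ)..1, f (-s) = ∫ s in (0 : ℝ)..1, f s := by
    rw [intervalIntegral.integral_comp_neg (f := f)]
    have := hfp.intervalIntegral_add_eq (-1) 0
    norm_num at this ⊢
    exact this
  rw [e1, e2, div_le_iff₀ hA2] at hb
  refine hb.trans (le_of_eq ?_)
  unfold la0 CC
  ring

/-- the same for `g` with `d |g| ≤ A` at the levels `d ≥ d0`, and `g` not real where `d |g| > A` -/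
theorem secmom_sq {g : ℂ → ℂ} {h D d0 A : ℝ} (hA : 0 < A) (hd0 : 0 < d0) (hD : 3 / 2 * d0 ≤ D)
    (hg : DifferentiableOn ℂ g {z | h - D < z.im ∧ z.im < h})
    (hper : ∀ z : ℂ, h - D < z.im → z.im < h → g (z + 1) = g z)
    (htop : ∀ z : ℂ, h - D < z.im → z.im ≤ h - d0 → (h - z.im) * ‖g z‖ ≤ A)
    (hre : ∀ z : ℂ, h - D < z.im → z.im < h → A < (h - z.im) * ‖g z‖ → (g z).im ≠ 0)
    {d : ℝ} (h0 : 0 < d) (h1 : d < D) :
    ∫ x in (0 : ℝ)..1, (d * ‖g ((x : ℂ) + (h - d : ℝ) * I)‖) ^ 2 ≤ CC * A ^ 2 := by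
  have := secmom (Q := fun z => g z ^ 2) hA hd0 hD (hg.pow 2)
    (fun z hz0 hz1 => by rw [hper z hz0 hz1])
    (fun z hz0 hz1 => by
      rw [norm_pow, ← mul_pow]
      have := htop z hz0 hz1
      have h3 : 0 ≤ (h - z.im) * ‖g z‖ := mul_nonneg (by linarith) (norm_nonneg _)
      gcongr)
    (fun z hz0 hz1 hz2 hz3 hz4 => by
      simp only [norm_pow, ← mul_pow] at hz2
      have h3 : 0 ≤ (h - z.im) * ‖g z‖ := mul_nonneg (by linarith) (norm_nonneg _)
      have h4 : A < (h - z.im) * ‖g z‖ := lt_of_pow_lt_pow_left₀ 2 h3 hz2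
      have h5 := hre z hz0 hz1 h4
      simp only [pow_two, Complex.mul_re, Complex.mul_im] at hz3 hz4
      have h6 : (g z).re = 0 := by
        have : (g z).re * (g z).im = 0 := by linarith
        rcases mul_eq_zero.1 this with h7 | h7
        · exact h7
        · exact absurd h7 h5
      rw [h6] at hz3
      have : 0 < (g z).im * (g z).im := mul_self_pos.2 h5
      linarith) h0 h1
  refine le_trans (le_of_eq ?_) this
  apply intervalIntegral.integral_congr
  intro x hx
  simp only [norm_pow, mul_pow]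

end Vale.Agent.P097.H36
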