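import Vale.Agent.P097.H36.BoxInt

set_option linter.all false

namespace Vale.Agent.P097.H36

open Complex Metric Set MeasureTheory intervalIntegral Filter

/-- local averages `≥ 0` imply global average `≥ 0` -/
theorem per_nonneg {P : ℝ → ℝ} (hc : Continuous P) (hp : Function.Periodic P 1) {l : ℝ}
    (hl : 0 < l) (h : ∀ u : ℝ, 0 ≤ ∫ x in u..(u + l), P x) : 0 ≤ ∫ x in (0 : ℝ)..1, P x := by
  by_contra hneg
  push Not at hneg
  have hint : ∀ a b : ℝ, IntervalIntegrable P volume a b := fun a b => hc.intervalIntegrable _ _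
  have hn : ∀ n : ℕ, 0 ≤ ∫ x in (0 : ℝ)..(n * l), P x := by
    intro n
    induction n with
    | zero => simp
    | succ n ih =>
      rw [← intervalIntegral.integral_add_adjacent_intervals (hint 0 (n * l))
        (hint (n * l) ((n + 1 : ℕ) * l))]
      have := h (n * l)
      rw [show ((n + 1 : ℕ) : ℝ) * l = n * l + l by push_cast; ring]
      linarith
  have hp' : Function.Periodic (fun x => -P x) 1 := fun x => by simp [hp x]
  have ht := hp'.tendsto_atTop_intervalIntegral_of_pos (by
    rw [intervalIntegral.integral_neg]; linarith) one_pos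
  have ht2 : Tendsto (fun n : ℕ => (n : ℝ) * l) atTop atTop :=
    tendsto_natCast_atTop_atTop.atTop_mul_const hl
  have ht3 := ht.comp ht2
  obtain ⟨n, hn1⟩ := (ht3.eventually (eventually_gt_atTop 0)).exists
  simp only [Function.comp_apply, intervalIntegral.integral_neg] at hn1
  have := hn n
  linarith

variable {Q : ℂ → ℂ} {D d0 : ℝ}

/-- threshold -/
noncomputable def la0 : ℝ := 56 ^ 175 * 2

theorem Hyp.cont (H : Hyp Q D d0) {y : ℝ} (h0 : 0 < y) (h1 : y < D) :
    Continuous (fun x : ℝ => Q ((x : ℂ) + y * I)) := by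
  rw [continuous_iff_continuousAt]
  intro x
  have hopen : IsOpen {z : ℂ | 0 < z.im ∧ z.im < D} :=
    (isOpen_lt continuous_const Complex.continuous_im).inter
      (isOpen_lt Complex.continuous_im continuous_const)
  have hc : ContinuousAt Q ((x : ℂ) + y * I) :=
    (H.diff.differentiableAt (hopen.mem_nhds (by simp [h0, h1]))).continuousAt
  exact ContinuousAt.comp (f := fun x : ℝ => (x : ℂ) + y * I) hc (by fun_prop)

theorem Hyp.contk (H : Hyp Q D d0) {y : ℝ} (h0 : 0 < y) (h1 : y < D) :
    Continuous (fun x : ℝ => kap Q ((x : ℂ) + y * I)) := by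
  unfold kap
  simp only [add_im, ofReal_im, mul_im, ofReal_re, I_im, mul_one, I_re, mul_zero, add_zero,
    zero_add]
  exact continuous_const.mul (H.cont h0 h1).norm

theorem Hyp.perk (H : Hyp Q D d0) {y : ℝ} (h0 : 0 < y) (h1 : y < D) :
    Function.Periodic (fun x : ℝ => kap Q ((x : ℂ) + y * I)) 1 := by
  intro x
  unfold kap
  have := H.per ((x : ℂ) + y * I) (by simpa) (by simpa)
  have e : (((x + 1 : ℝ) : ℂ) + y * I) = (x : ℂ) + y * I + 1 := by push_cast; ring
  simp only [e, this]
  simp

theorem kap_nonneg (z : ℂ) : 0 ≤ kap Q z := by unfold kap; positivity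

/-- the local estimate -/
theorem Hyp.loc (H : Hyp Q D d0) {x y : ℝ} (h0 : 0 < y) (h1 : y < D)
    (hk : la0 ≤ kap Q ((x : ℂ) + y * I)) {u : ℝ} (hu : u ≤ x) (hu' : x ≤ u + 2 ^ 24 * y / 4) :
    (∫ s in u..(u + 2 ^ 24 * y / 4), kap Q ((s : ℂ) + y * I)) ≤
      1 / 2 * ∫ s in u..(u + 2 ^ 24 * y / 4), kap Q ((s : ℂ) + (2 ^ 23 * y : ℝ) * I) := by
  set R : ℝ := 2 ^ 24 * y with hR
  have hR0 : 0 < R := by positivity
  have hkap : ∀ x' y' : ℝ, |x' - x| ≤ R → y / 2 ≤ y' → y' ≤ R →
      2 ≤ kap Q ((x' : ℂ) + y' * I) := fun x' y' hx' hy1 hy2 => H.box 24 h0 h1 hk hx' hy1 hy2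
  have hlt : ∀ x' y' : ℝ, |x' - x| ≤ R → y / 2 ≤ y' → y' ≤ R → y' < D := by
    intro x' y' hx' hy1 hy2
    -- `y' ≤ R` and all points of the box are in the strip
    by_contra hc
    push Not at hc
    -- pick a height in `[max d0 (y), D)` inside the box
    have hD := H.hD
    have hd0 := H.hd0
    have h3 := hkap x' (max y d0) hx' (le_trans (by linarith) (le_max_left _ _))
      (max_le (by rw [hR]; nlinarith) (by linarith))
    have h4 : max y d0 < D := max_lt h1 (by linarith)
    have h5 := H.lt_d0 (z := (x' : ℂ) + (max y d0 : ℝ) * I) (by simpa using h4) (by linarith)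
    simp at h5
  have hslit : ∀ z : ℂ, |z.re - x| ≤ R → y / 2 ≤ z.im → z.im ≤ R → -(Q z) ∈ slitPlane := by
    intro z h2 h3 h4
    apply H.real z (by linarith) (hlt z.re z.im h2 h3 h4)
    have := hkap z.re z.im h2 h3 h4
    rw [Complex.re_add_im] at this
    unfold kap at this
    linarith
  have hB : Box (fun z => sq (-(Q z))) x y R :=
    { hd := h0
      hR := by rw [hR]; nlinarith
      diff := by
        apply sq_diff
        · exact (H.diff.mono fun z hz => ⟨by linarith [hz.2.1], hlt z.re z.im hz.1 hz.2.1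
            hz.2.2⟩).neg
        · intro z hz
          exact hslit z hz.1 hz.2.1 hz.2.2
      pos := fun z h2 h3 h4 => sq_re_pos (hslit z h2 h3 h4) }
  have hn : ∀ x' y' : ℝ, |x' - x| ≤ R → y / 2 ≤ y' → y' ≤ R →
      ‖sq (-(Q ((x' : ℂ) + y' * I)))‖ ^ 2 = ‖Q ((x' : ℂ) + y' * I)‖ := by
    intro x' y' h2 h3 h4
    rw [norm_sq (slitPlane_ne_zero (hslit ((x' : ℂ) + y' * I) (by simpa using h2)
      (by simpa using h3) (by simpa using h4))), norm_neg]
  have hyD : y < D := h1
  have hRy : y ≤ R / 4 := by rw [hR]; nlinarith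
  -- the interval
  have hab : u ≤ u + R / 4 := by linarith
  set c := ‖sq (-(Q ((x : ℂ) + (R / 2 : ℝ) * I)))‖ ^ 2 with hc
  have hc0 : 0 ≤ c := by positivity
  have hI : (∫ s in u..(u + R / 4), kap Q ((s : ℂ) + y * I)) ≤
      y ^ 2 * (R ^ 2 / y * (161 + 256 * Real.log (R / y)) * c) := by
    calc (∫ s in u..(u + R / 4), kap Q ((s : ℂ) + y * I)) ≤
          ∫ s in (x - R / 4)..(x + R / 4), kap Q ((s : ℂ) + y * I) := by
          apply intervalIntegral.integral_mono_interval (by linarith) hab (by linarith)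
          · exact Filter.Eventually.of_forall fun s => kap_nonneg _
          · exact (H.contk h0 h1).intervalIntegrable _ _
      _ = ∫ s in (x - R / 4)..(x + R / 4), y ^ 2 * ‖sq (-(Q ((s : ℂ) + y * I)))‖ ^ 2 := by
          apply intervalIntegral.integral_congr
          intro s hs
          rw [Set.uIcc_of_le (by linarith)] at hs
          have h5 : |s - x| ≤ R := by
            rw [abs_le]; constructor <;> linarith [hs.1, hs.2]
          simp only [kap]
          rw [hn s y h5 (by linarith) (by linarith)]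
          simp
      _ = y ^ 2 * ∫ s in (x - R / 4)..(x + R / 4), ‖sq (-(Q ((s : ℂ) + y * I)))‖ ^ 2 :=
          intervalIntegral.integral_const_mul _ _
      _ ≤ y ^ 2 * (R ^ 2 / y * (161 + 256 * Real.log (R / y)) * c) := by
          gcongr
          exact hB.main
  have hR2 : (2 : ℝ) ^ 23 * y = R / 2 := by rw [hR]; ring
  rw [hR2]
  have hlow : R / 4 * (R ^ 2 / 64 * c) ≤
      ∫ s in u..(u + R / 4), kap Q ((s : ℂ) + (R / 2 : ℝ) * I) := by
    have e : R / 4 * (R ^ 2 / 64 * c) = ∫ s in u..(u + R / 4), (R ^ 2 / 64 * c) := by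
      rw [intervalIntegral.integral_const, smul_eq_mul]; ring
    rw [e]
    have hRD : R / 2 < D := hlt x (R / 2) (by simp; linarith) (by linarith) (by linarith)
    apply intervalIntegral.integral_mono_on hab intervalIntegrable_const
      ((H.contk (by linarith) hRD).intervalIntegrable _ _)
    intro s hs
    have h5 : |s - x| ≤ R / 4 := by
      rw [abs_le]; constructor <;> linarith [hs.1, hs.2]
    have h6 := (hB.top1 h5).2
    have h7 : c ≤ 16 * ‖Q ((s : ℂ) + (R / 2 : ℝ) * I)‖ := by
      rw [← hn s (R / 2) (h5.trans (by linarith)) (by linarith) (by linarith), hc]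
      have h8 : 0 ≤ ‖sq (-(Q ((x : ℂ) + (R / 2 : ℝ) * I)))‖ := norm_nonneg _
      have h9 : 0 ≤ ‖sq (-(Q ((s : ℂ) + (R / 2 : ℝ) * I)))‖ := norm_nonneg _
      have h10 : ‖sq (-(Q ((x : ℂ) + (R / 2 : ℝ) * I)))‖ ≤
        4 * ‖sq (-(Q ((s : ℂ) + (R / 2 : ℝ) * I)))‖ := h6
      nlinarith
    unfold kap
    have h11 : ((s : ℂ) + (R / 2 : ℝ) * I).im = R / 2 := by simp
    rw [h11]
    nlinarith [sq_nonneg R]
  refine hI.trans ?_
  have hlog : Real.log (R / y) ≤ 16.7 := by
    have : R / y = 2 ^ 24 := by rw [hR]; field_simp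
    rw [this, Real.log_pow]
    have := Real.log_two_lt_d9
    norm_num
    linarith
  have hfin : y ^ 2 * (R ^ 2 / y * (161 + 256 * Real.log (R / y)) * c) ≤
      1 / 2 * (R / 4 * (R ^ 2 / 64 * c)) := by
    have e1 : y ^ 2 * (R ^ 2 / y * (161 + 256 * Real.log (R / y)) * c) =
        (R ^ 2 * c) * (y * (161 + 256 * Real.log (R / y))) := by
      field_simp
    have e2 : 1 / 2 * (R / 4 * (R ^ 2 / 64 * c)) = (R ^ 2 * c) * (R / 512) := by ring
    rw [e1, e2]
    apply mul_le_mul_of_nonneg_left _ (by positivity)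
    have h12 : y * (161 + 256 * Real.log (R / y)) ≤ y * (161 + 256 * 16.7) := by gcongr
    have h13 : R / 512 = 32768 * y := by rw [hR]; ring
    rw [h13]
    nlinarith
  exact hfin.trans (mul_le_mul_of_nonneg_left hlow (by norm_num))

/-- the basic inequality between two levels -/
theorem Hyp.level (H : Hyp Q D d0) {y : ℝ} (h0 : 0 < y) (h1 : y < D)
    (hex : ∃ x : ℝ, la0 < kap Q ((x : ℂ) + y * I)) :
    2 ^ 23 * y < d0 ∧ (∫ s in (0 : ℝ)..1, kap Q ((s : ℂ) + y * I)) ≤
      la0 + 1 / 2 * ∫ s in (0 : ℝ)..1, kap Q ((s : ℂ) + (2 ^ 23 * y : ℝ) * I) := by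
  obtain ⟨x0, hx0⟩ := hex
  have hD := H.hD
  have hd0 := H.hd0
  have hlt : 2 ^ 23 * y < d0 := by
    by_contra hc
    push Not at hc
    have h3 := H.box 24 h0 h1 (x' := x0) (y := max y d0) (by unfold la0 at hx0; exact hx0.le)
      (by simp; positivity)
      (le_trans (by linarith) (le_max_left _ _)) (max_le (by nlinarith) (by nlinarith))
    have h4 : max y d0 < D := max_lt h1 (by linarith)
    have h5 := H.lt_d0 (z := (x0 : ℂ) + (max y d0 : ℝ) * I) (by simpa using h4) (by linarith)
    simp at h5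
  refine ⟨hlt, ?_⟩
  have hy2 : 0 < 2 ^ 23 * y := by positivity
  have hy3 : 2 ^ 23 * y < D := by linarith
  set g : ℝ → ℝ := fun x => max (kap Q ((x : ℂ) + y * I) - la0) 0 with hg
  set G : ℝ → ℝ := fun x => kap Q ((x : ℂ) + (2 ^ 23 * y : ℝ) * I) with hG
  have hla : 0 ≤ la0 := by unfold la0; positivity
  have hgc : Continuous g := ((H.contk h0 h1).sub continuous_const).max continuous_const
  have hGc : Continuous G := H.contk hy2 hy3
  have hGi : ∀ a b : ℝ, IntervalIntegrable G volume a b := fun a b => hGc.intervalIntegrable a b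
  have hgi : ∀ a b : ℝ, IntervalIntegrable g volume a b := fun a b => hgc.intervalIntegrable a b
  have hki : ∀ a b : ℝ, IntervalIntegrable (fun x : ℝ => kap Q ((x : ℂ) + y * I)) volume a b :=
    fun a b => (H.contk h0 h1).intervalIntegrable a b
  have hP := per_nonneg (P := fun x => 1 / 2 * G x - g x)
    ((continuous_const.mul hGc).sub hgc) (by
      intro x
      have e1 : G (x + 1) = G x := H.perk hy2 hy3 x
      have e2 : kap Q (((x + 1 : ℝ) : ℂ) + y * I) = kap Q ((x : ℂ) + y * I) := H.perk h0 h1 x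
      simp only [e1, hg, e2]) (l := 2 ^ 24 * y / 4) (by positivity) (by
      intro u
      have hl0 : 0 < 2 ^ 24 * y / 4 := by positivity
      rw [intervalIntegral.integral_sub ((hGi _ _).const_mul _) (hgi _ _),
        intervalIntegral.integral_const_mul]
      by_cases hE : ∃ x ∈ Set.Icc u (u + 2 ^ 24 * y / 4), la0 ≤ kap Q ((x : ℂ) + y * I)
      · obtain ⟨x, hx, hkx⟩ := hE
        have h6 : (∫ s in u..(u + 2 ^ 24 * y / 4), kap Q ((s : ℂ) + y * I)) ≤
          1 / 2 * ∫ s in u..(u + 2 ^ 24 * y / 4), G s := H.loc h0 h1 hkx hx.1 hx.2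
        have h7 : ∫ s in u..(u + 2 ^ 24 * y / 4), g s ≤
            ∫ s in u..(u + 2 ^ 24 * y / 4), kap Q ((s : ℂ) + y * I) := by
          apply intervalIntegral.integral_mono_on (by linarith) (hgi _ _) (hki _ _)
          intro s hs
          simp only [hg]
          apply max_le
          · linarith
          · exact kap_nonneg _
        exact sub_nonneg.2 (h7.trans h6)
      · push Not at hE
        have h7 : ∫ s in u..(u + 2 ^ 24 * y / 4), g s = 0 := by
          rw [← intervalIntegral.integral_zero (μ := volume) (a := u)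
            (b := u + 2 ^ 24 * y / 4) (E := ℝ)]
          apply intervalIntegral.integral_congr
          intro s hs
          rw [Set.uIcc_of_le (by linarith)] at hs
          have := hE s hs
          simp only [hg]
          apply max_eq_right
          linarith
        rw [h7, sub_zero]
        apply mul_nonneg (by norm_num)
        apply intervalIntegral.integral_nonneg (by linarith)
        intro s hs
        exact kap_nonneg _)
  rw [intervalIntegral.integral_sub ((hGi _ _).const_mul _) (hgi _ _),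
    intervalIntegral.integral_const_mul] at hP
  have h8 : (∫ s in (0 : ℝ)..1, kap Q ((s : ℂ) + y * I)) ≤ ∫ s in (0 : ℝ)..1, (la0 + g s) := by
    apply intervalIntegral.integral_mono_on zero_le_one (hki _ _)
      (intervalIntegrable_const.add (hgi _ _))
    intro s hs
    simp only [hg]
    have := le_max_left (kap Q ((s : ℂ) + y * I) - la0) 0
    linarith
  rw [intervalIntegral.integral_add intervalIntegrable_const (hgi _ _),
    intervalIntegral.integral_const, smul_eq_mul, sub_zero, one_mul] at h8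
  linarith

/-- normalised second moment bound -/
theorem Hyp.bound (H : Hyp Q D d0) {y : ℝ} (h0 : 0 < y) (h1 : y < D) :
    (∫ s in (0 : ℝ)..1, kap Q ((s : ℂ) + y * I)) ≤ 2 * la0 := by
  have hla : 1 ≤ la0 := by unfold la0; norm_num
  have hd0 := H.hd0
  have key : ∀ m : ℕ, ∀ y : ℝ, 0 < y → y < D → d0 * (1 / 2) ^ m ≤ y →
      (∫ s in (0 : ℝ)..1, kap Q ((s : ℂ) + y * I)) ≤ 2 * la0 := by
    intro m
    induction m with
    | zero =>
      intro y hy hyD hy2
      simp only [pow_zero, mul_one] at hy2
      have : (∫ s in (0 : ℝ)..1, kap Q ((s : ℂ) + y * I)) ≤ ∫ s in (0 : ℝ)..1, (1 : ℝ) := by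
        apply intervalIntegral.integral_mono_on zero_le_one
          ((H.contk hy hyD).intervalIntegrable _ _) intervalIntegrable_const
        intro s hs
        exact H.top _ (by simpa using hy2) (by simpa using hyD)
      simp at this
      linarith
    | succ m ih =>
      intro y hy hyD hy2
      by_cases hex : ∃ x : ℝ, la0 < kap Q ((x : ℂ) + y * I)
      · obtain ⟨h3, h4⟩ := H.level hy hyD hex
        have hD := H.hD
        have := ih (2 ^ 23 * y) (by positivity) (by linarith) (by
          rw [pow_succ] at hy2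
          have : d0 * (1 / 2) ^ m ≤ 2 * y := by linarith
          nlinarith)
        refine h4.trans ?_
        have h5 := mul_le_mul_of_nonneg_left this (show (0 : ℝ) ≤ 1 / 2 by norm_num)
        calc _ ≤ la0 + 1 / 2 * (2 * la0) := by gcongr
          _ = 2 * la0 := by ring
      · push Not at hex
        have : (∫ s in (0 : ℝ)..1, kap Q ((s : ℂ) + y * I)) ≤ ∫ s in (0 : ℝ)..1, la0 := by
          apply intervalIntegral.integral_mono_on zero_le_one
            ((H.contk hy hyD).intervalIntegrable _ _) intervalIntegrable_const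
          intro s hs
          exact hex s
        simp at this
        linarith
  obtain ⟨m, hm⟩ := exists_pow_lt_of_lt_one (show 0 < y / d0 by positivity)
    (show (1 / 2 : ℝ) < 1 by norm_num)
  exact key m y h0 h1 (by
    rw [lt_div_iff₀ hd0] at hm
    linarith)

end Vale.Agent.P097.H36
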