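import Mathlib

set_option linter.all false

/-!
# Second moment bound for functions avoiding the positive reals where they are large

(557 #11164 (1)-(4).)  `Q` holomorphic, `1`-periodic in the strip `0 < Im z < D`; where
`(Im z)^2 |Q z| > A^2`, `Q z` is not a real number `≥ 0`; then
`∫_0^1 y^2 |Q (x + i y)| dx ≤ C A^2` at every level.
-/

namespace Vale.Agent.P097.H36

open Complex Metric Set

/-- Harnack for functions with positive real part. -/
theorem harnack {h : ℂ → ℂ} {z w : ℂ} {r t : ℝ} (hr : 0 < r) (ht0 : 0 ≤ t) (ht : t < 1)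
    (hd : DifferentiableOn ℂ h (ball z r)) (hp : ∀ w ∈ ball z r, 0 < (h w).re)
    (hw : dist w z ≤ t * r) :
    (1 - t) * ‖h w‖ ≤ (1 + t) * ‖h z‖ ∧ (1 - t) * ‖h z‖ ≤ (1 + t) * ‖h w‖ := by
  have hz : z ∈ ball z r := mem_ball_self hr
  have hwb : w ∈ ball z r := by
    rw [mem_ball]
    exact lt_of_le_of_lt hw (by nlinarith)
  have hne : ∀ u ∈ ball z r, h u + (starRingEnd ℂ) (h z) ≠ 0 := by
    intro u hu h0
    have h1 := congrArg Complex.re h0
    simp only [add_re, conj_re, zero_re] at h1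
    have := hp u hu
    have := hp z hz
    linarith
  set φ : ℂ → ℂ := fun u => (h u - h z) / (h u + (starRingEnd ℂ) (h z)) with hφ
  have hφd : DifferentiableOn ℂ φ (ball z r) := by
    apply DifferentiableOn.div
    · exact hd.sub (differentiableOn_const _)
    · exact hd.add (differentiableOn_const _)
    · exact hne
  have hφz : φ z = 0 := by simp [hφ]
  have hlt : ∀ u ∈ ball z r, ‖φ u‖ < 1 := by
    intro u hu
    rw [hφ]
    simp only
    rw [norm_div, div_lt_one (norm_pos_iff.2 (hne u hu))]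
    have h1 := hp u hu
    have h2 := hp z hz
    apply lt_of_pow_lt_pow_left₀ 2 (norm_nonneg _)
    rw [← Complex.normSq_eq_norm_sq, ← Complex.normSq_eq_norm_sq, Complex.normSq_apply,
      Complex.normSq_apply]
    simp only [sub_re, sub_im, add_re, add_im, conj_re, conj_im]
    nlinarith [mul_pos h1 h2]
  have hmap : MapsTo φ (ball z r) (closedBall (φ z) 1) := by
    intro u hu
    rw [hφz, mem_closedBall, dist_zero_right]
    exact (hlt u hu).le
  have hS := Complex.dist_le_div_mul_dist_of_mapsTo_ball hφd hmap hwb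
  rw [hφz, dist_zero_right] at hS
  have hφt : ‖φ w‖ ≤ t := by
    refine hS.trans ?_
    calc 1 / r * dist w z ≤ 1 / r * (t * r) := by gcongr
      _ = t := by field_simp
  have hid : h w * (1 - φ w) = h z + φ w * (starRingEnd ℂ) (h z) := by
    have h1 : φ w * (h w + (starRingEnd ℂ) (h z)) = h w - h z := by
      rw [hφ]
      simp only
      exact div_mul_cancel₀ _ (hne w hwb)
    linear_combination -h1
  have hn1 : ‖(1 : ℂ) - φ w‖ ≤ 1 + t := by
    calc ‖(1 : ℂ) - φ w‖ ≤ ‖(1 : ℂ)‖ + ‖φ w‖ := norm_sub_le _ _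
      _ ≤ 1 + t := by rw [norm_one]; linarith
  have hn2 : 1 - t ≤ ‖(1 : ℂ) - φ w‖ := by
    have := norm_sub_norm_le (1 : ℂ) (φ w)
    rw [norm_one] at this
    linarith
  have hc : ‖(starRingEnd ℂ) (h z)‖ = ‖h z‖ := Complex.norm_conj _
  have hm1 : ‖h z + φ w * (starRingEnd ℂ) (h z)‖ ≤ (1 + t) * ‖h z‖ := by
    calc ‖h z + φ w * (starRingEnd ℂ) (h z)‖ ≤ ‖h z‖ + ‖φ w * (starRingEnd ℂ) (h z)‖ :=
          norm_add_le _ _
      _ = ‖h z‖ + ‖φ w‖ * ‖h z‖ := by rw [norm_mul, hc]
      _ ≤ (1 + t) * ‖h z‖ := by nlinarith [norm_nonneg (h z)]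
  have hm2 : (1 - t) * ‖h z‖ ≤ ‖h z + φ w * (starRingEnd ℂ) (h z)‖ := by
    have := norm_sub_norm_le (h z) (-(φ w * (starRingEnd ℂ) (h z)))
    rw [norm_neg, norm_mul, hc, sub_neg_eq_add] at this
    nlinarith [norm_nonneg (h z)]
  have hid' := congrArg norm hid
  rw [norm_mul] at hid'
  constructor
  · calc (1 - t) * ‖h w‖ ≤ ‖(1 : ℂ) - φ w‖ * ‖h w‖ := by gcongr
      _ = ‖h z + φ w * (starRingEnd ℂ) (h z)‖ := by rw [mul_comm, hid']
      _ ≤ _ := hm1
  · calc (1 - t) * ‖h z‖ ≤ ‖h z + φ w * (starRingEnd ℂ) (h z)‖ := hm2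
      _ = ‖h w‖ * ‖(1 : ℂ) - φ w‖ := hid'.symm
      _ ≤ ‖h w‖ * (1 + t) := by gcongr
      _ = _ := mul_comm _ _

/-! ### square roots -/

/-- principal square root -/
noncomputable def sq (F : ℂ) : ℂ := Complex.exp (Complex.log F / 2)

theorem sq_re_pos {F : ℂ} (hF : F ∈ slitPlane) : 0 < (sq F).re := by
  unfold sq
  rw [Complex.exp_re]
  apply mul_pos (Real.exp_pos _)
  apply Real.cos_pos_of_mem_Ioo
  have h1 : (Complex.log F / 2).im = F.arg / 2 := by
    rw [show (2 : ℂ) = ((2 : ℝ) : ℂ) by norm_num, Complex.div_ofReal_im, Complex.log_im]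
  rw [h1]
  have h2 := Complex.neg_pi_lt_arg F
  have h3 : F.arg < Real.pi := lt_of_le_of_ne (Complex.arg_le_pi F)
    (Complex.slitPlane_arg_ne_pi hF)
  constructor <;> linarith

theorem sq_sq {F : ℂ} (hF : F ≠ 0) : sq F ^ 2 = F := by
  unfold sq
  rw [← Complex.exp_nat_mul]
  rw [show ((2 : ℕ) : ℂ) * (Complex.log F / 2) = Complex.log F by push_cast; ring]
  exact Complex.exp_log hF

theorem norm_sq {F : ℂ} (hF : F ≠ 0) : ‖sq F‖ ^ 2 = ‖F‖ := by
  rw [← norm_pow, sq_sq hF]

theorem sq_diff {F : ℂ → ℂ} {s : Set ℂ} (hF : DifferentiableOn ℂ F s)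
    (hs : ∀ z ∈ s, F z ∈ slitPlane) : DifferentiableOn ℂ (fun z => sq (F z)) s := by
  unfold sq
  exact ((hF.clog hs).div_const 2).cexp

/-! ### the hypotheses -/

/-- normalised hypotheses (`A = 1`) -/
structure Hyp (Q : ℂ → ℂ) (D d0 : ℝ) : Prop where
  hd0 : 0 < d0
  hD : 3 / 2 * d0 ≤ D
  diff : DifferentiableOn ℂ Q {z | 0 < z.im ∧ z.im < D}
  per : ∀ z, 0 < z.im → z.im < D → Q (z + 1) = Q z
  top : ∀ z, d0 ≤ z.im → z.im < D → z.im ^ 2 * ‖Q z‖ ≤ 1
  real : ∀ z, 0 < z.im → z.im < D → 1 < z.im ^ 2 * ‖Q z‖ → -(Q z) ∈ slitPlane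

variable {Q : ℂ → ℂ} {D d0 : ℝ}

/-- `κ = y² |Q|` -/
noncomputable def kap (Q : ℂ → ℂ) (z : ℂ) : ℝ := z.im ^ 2 * ‖Q z‖

theorem Hyp.step0 (H : Hyp Q D d0) {z w : ℂ} (hz0 : 0 < z.im) (hz1 : z.im < d0)
    (hw : dist w z ≤ z.im / 4) : kap Q z ≤ 40 + 16 * kap Q w := by
  set y := z.im with hy
  have hD := H.hD
  have him : ∀ u : ℂ, |u.im - y| ≤ dist u z := fun u => by
    rw [dist_eq]
    have := Complex.abs_im_le_norm (u - z)
    simpa [hy] using this
  have hin : ∀ u ∈ ball z (y / 2), y / 2 < u.im ∧ u.im < 3 / 2 * y := by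
    intro u hu
    rw [mem_ball] at hu
    have := abs_lt.1 (lt_of_le_of_lt (him u) hu)
    constructor <;> linarith [this.1, this.2]
  have hS : ∀ u ∈ ball z (y / 2), 0 < u.im ∧ u.im < D := by
    intro u hu
    have := hin u hu
    constructor <;> nlinarith [this.1, this.2]
  set F : ℂ → ℂ := fun u => ((4 / y ^ 2 : ℝ) : ℂ) - Q u with hF
  have hFs : ∀ u ∈ ball z (y / 2), F u ∈ slitPlane := by
    intro u hu
    obtain ⟨h1, h2⟩ := hS u hu
    obtain ⟨h3, h4⟩ := hin u hu
    rcases lt_or_ge 1 (u.im ^ 2 * ‖Q u‖) with h | h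
    · have := H.real u h1 h2 h
      rw [Complex.mem_slitPlane_iff] at this ⊢
      simp only [hF, sub_re, sub_im, ofReal_re, ofReal_im, neg_re, neg_im] at this ⊢
      have hpos : 0 < 4 / y ^ 2 := by positivity
      rcases this with h5 | h5
      · left; linarith
      · right
        intro h6
        apply h5
        linarith
    · rw [Complex.mem_slitPlane_iff]
      left
      simp only [hF, sub_re, ofReal_re]
      have h5 : ‖Q u‖ ≤ 1 / u.im ^ 2 := by
        rw [le_div_iff₀ (by positivity)]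
        linarith
      have h6 : 1 / u.im ^ 2 < 4 / y ^ 2 := by
        rw [div_lt_div_iff₀ (by positivity) (by positivity)]
        nlinarith
      have h7 := Complex.re_le_norm (Q u)
      linarith
  have hFd : DifferentiableOn ℂ F (ball z (y / 2)) :=
    (differentiableOn_const _).sub (H.diff.mono fun u hu => hS u hu)
  have hh := harnack (h := fun u => sq (F u)) (z := z) (w := w) (r := y / 2) (t := 1 / 2)
    (by positivity) (by norm_num) (by norm_num) (sq_diff hFd hFs)
    (fun u hu => sq_re_pos (hFs u hu)) (by linarith)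
  have hzb : z ∈ ball z (y / 2) := mem_ball_self (by positivity)
  have hwb : w ∈ ball z (y / 2) := by
    rw [mem_ball]; linarith
  have h1 : ‖sq (F z)‖ ≤ 3 * ‖sq (F w)‖ := by
    have := hh.2
    linarith
  have h2 : ‖F z‖ ≤ 9 * ‖F w‖ := by
    rw [← norm_sq (slitPlane_ne_zero (hFs z hzb)), ← norm_sq (slitPlane_ne_zero (hFs w hwb))]
    nlinarith [norm_nonneg (sq (F z)), norm_nonneg (sq (F w))]
  have hc : ‖((4 / y ^ 2 : ℝ) : ℂ)‖ = 4 / y ^ 2 := by
    rw [Complex.norm_real, Real.norm_of_nonneg (by positivity)]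
  have h3 : ‖Q z‖ ≤ 4 / y ^ 2 + ‖F z‖ := by
    have : Q z = ((4 / y ^ 2 : ℝ) : ℂ) - F z := by simp [hF]
    calc ‖Q z‖ = ‖((4 / y ^ 2 : ℝ) : ℂ) - F z‖ := by rw [← this]
      _ ≤ _ := (norm_sub_le _ _).trans (by rw [hc])
  have h4 : ‖F w‖ ≤ 4 / y ^ 2 + ‖Q w‖ := by
    calc ‖F w‖ = ‖((4 / y ^ 2 : ℝ) : ℂ) - Q w‖ := rfl
      _ ≤ _ := (norm_sub_le _ _).trans (by rw [hc])
  have h5 : ‖Q z‖ ≤ 40 / y ^ 2 + 9 * ‖Q w‖ := by
    have : 40 / y ^ 2 = 10 * (4 / y ^ 2) := by ring
    linarith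
  have h6 : 3 / 4 * y ≤ w.im := by
    have := (abs_le.1 ((him w).trans hw)).1
    linarith
  unfold kap
  rw [← hy]
  calc y ^ 2 * ‖Q z‖ ≤ y ^ 2 * (40 / y ^ 2 + 9 * ‖Q w‖) := by gcongr
    _ = 40 + 9 * y ^ 2 * ‖Q w‖ := by field_simp
    _ ≤ 40 + 16 * (w.im ^ 2 * ‖Q w‖) := by
        have h7 : 9 * y ^ 2 ≤ 16 * w.im ^ 2 := by nlinarith
        have := mul_le_mul_of_nonneg_right h7 (norm_nonneg (Q w))
        linarith

theorem Hyp.lt_d0 (H : Hyp Q D d0) {z : ℂ} (hz1 : z.im < D) (hk : 1 < kap Q z) :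
    z.im < d0 := by
  by_contra hc
  push Not at hc
  have := H.top z hc hz1
  unfold kap at hk
  linarith

theorem Hyp.step (H : Hyp Q D d0) {z w : ℂ} {M : ℝ} (hM : 2 ≤ M) (hz0 : 0 < z.im)
    (hz1 : z.im < D) (hk : 56 * M ≤ kap Q z) (hw : dist w z ≤ z.im / 4) : M ≤ kap Q w := by
  have h1 := H.lt_d0 hz1 (by linarith)
  have h2 := H.step0 hz0 h1 hw
  linarith

theorem Hyp.up (H : Hyp Q D d0) (n : ℕ) : ∀ (z : ℂ) (M : ℝ), 2 ≤ M → 0 < z.im → z.im < D →
    56 ^ n * M ≤ kap Q z → ∀ y : ℝ, z.im ≤ y → y ≤ (5 / 4) ^ n * z.im →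
    M ≤ kap Q (z.re + y * I) := by
  induction n with
  | zero =>
    intro z M hM h0 h1 hk y hy1 hy2
    simp only [pow_zero, one_mul] at hk hy2
    have : y = z.im := le_antisymm hy2 hy1
    rw [this, Complex.re_add_im]
    exact hk
  | succ n ih =>
    intro z M hM h0 h1 hk y hy1 hy2
    have h56 : (1 : ℝ) ≤ 56 ^ n := one_le_pow₀ (by norm_num)
    have hM' : 2 ≤ 56 ^ n * M := by nlinarith
    have hk' : 56 * (56 ^ n * M) ≤ kap Q z := by
      rw [pow_succ] at hk
      linarith
    rcases le_total y (5 / 4 * z.im) with h | h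
    · have := H.step hM' h0 h1 hk' (w := z.re + y * I) (by
        rw [dist_eq]
        have : (z.re + y * I : ℂ) - z = ((y - z.im : ℝ) : ℂ) * I := by
          apply Complex.ext <;> simp
        rw [this, norm_mul, norm_I, mul_one, Complex.norm_real, Real.norm_eq_abs, abs_of_nonneg]
        · linarith
        · linarith)
      nlinarith
    · set z1 : ℂ := z.re + (5 / 4 * z.im : ℝ) * I with hz1d
      have him1 : z1.im = 5 / 4 * z.im := by simp [hz1d]
      have hre1 : z1.re = z.re := by simp [hz1d]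
      have hk1 : 56 ^ n * M ≤ kap Q z1 := H.step hM' h0 h1 hk' (by
        rw [dist_eq]
        have : z1 - z = ((1 / 4 * z.im : ℝ) : ℂ) * I := by
          apply Complex.ext <;> simp [hz1d]
          ring
        rw [this, norm_mul, norm_I, mul_one, Complex.norm_real, Real.norm_eq_abs, abs_of_nonneg]
        · linarith
        · linarith)
      have hd := H.lt_d0 h1 (by nlinarith)
      have hD := H.hD
      have := ih z1 M hM (by rw [him1]; linarith) (by rw [him1]; linarith [H.hd0]) hk1 y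
        (by rw [him1]; exact h) (by
          rw [him1]
          rw [pow_succ] at hy2
          linarith)
      rw [hre1] at this
      exact this

theorem Hyp.down (H : Hyp Q D d0) (n : ℕ) : ∀ (z : ℂ) (M : ℝ), 2 ≤ M → 0 < z.im → z.im < D →
    56 ^ n * M ≤ kap Q z → ∀ y : ℝ, y ≤ z.im → (3 / 4) ^ n * z.im ≤ y →
    M ≤ kap Q (z.re + y * I) := by
  induction n with
  | zero =>
    intro z M hM h0 h1 hk y hy1 hy2
    simp only [pow_zero, one_mul] at hk hy2
    have : y = z.im := le_antisymm hy1 hy2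
    rw [this, Complex.re_add_im]
    exact hk
  | succ n ih =>
    intro z M hM h0 h1 hk y hy1 hy2
    have h56 : (1 : ℝ) ≤ 56 ^ n := one_le_pow₀ (by norm_num)
    have hM' : 2 ≤ 56 ^ n * M := by nlinarith
    have hk' : 56 * (56 ^ n * M) ≤ kap Q z := by
      rw [pow_succ] at hk
      linarith
    rcases le_total (3 / 4 * z.im) y with h | h
    · have := H.step hM' h0 h1 hk' (w := z.re + y * I) (by
        rw [dist_eq]
        have : (z.re + y * I : ℂ) - z = ((y - z.im : ℝ) : ℂ) * I := by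
          apply Complex.ext <;> simp
        rw [this, norm_mul, norm_I, mul_one, Complex.norm_real, Real.norm_eq_abs, abs_of_nonpos]
        · linarith
        · linarith)
      nlinarith
    · set z1 : ℂ := z.re + (3 / 4 * z.im : ℝ) * I with hz1d
      have him1 : z1.im = 3 / 4 * z.im := by simp [hz1d]
      have hre1 : z1.re = z.re := by simp [hz1d]
      have hk1 : 56 ^ n * M ≤ kap Q z1 := H.step hM' h0 h1 hk' (by
        rw [dist_eq]
        have : z1 - z = ((-(1 / 4 * z.im) : ℝ) : ℂ) * I := by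
          apply Complex.ext <;> simp [hz1d]
          ring
        rw [this, norm_mul, norm_I, mul_one, Complex.norm_real, Real.norm_eq_abs, abs_of_nonpos]
        · linarith
        · linarith)
      have := ih z1 M hM (by rw [him1]; linarith) (by rw [him1]; linarith) hk1 y
        (by rw [him1]; exact h) (by
          rw [him1]
          rw [pow_succ] at hy2
          linarith)
      rw [hre1] at this
      exact this

theorem Hyp.hor (H : Hyp Q D d0) (n : ℕ) : ∀ (z : ℂ) (M : ℝ), 2 ≤ M → 0 < z.im → z.im < D →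
    56 ^ n * M ≤ kap Q z → ∀ x : ℝ, |x - z.re| ≤ n * (z.im / 4) →
    M ≤ kap Q (x + z.im * I) := by
  induction n with
  | zero =>
    intro z M hM h0 h1 hk x hx
    simp only [pow_zero, one_mul, Nat.cast_zero, zero_mul] at hk hx
    have : x = z.re := by
      have := abs_nonpos_iff.1 hx
      linarith
    rw [this, Complex.re_add_im]
    exact hk
  | succ n ih =>
    intro z M hM h0 h1 hk x hx
    have h56 : (1 : ℝ) ≤ 56 ^ n := one_le_pow₀ (by norm_num)
    have hM' : 2 ≤ 56 ^ n * M := by nlinarith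
    have hk' : 56 * (56 ^ n * M) ≤ kap Q z := by
      rw [pow_succ] at hk
      linarith
    set a : ℝ := (x - z.re) / (n + 1) with ha
    have hn1 : (0 : ℝ) < n + 1 := by positivity
    have hxa : x - z.re = (n + 1) * a := by
      rw [ha]; field_simp
    have haa : |a| ≤ z.im / 4 := by
      rw [hxa, abs_mul, abs_of_pos hn1] at hx
      push_cast at hx
      exact le_of_mul_le_mul_left hx hn1
    set z1 : ℂ := (z.re + a : ℝ) + z.im * I with hz1d
    have him1 : z1.im = z.im := by simp [hz1d]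
    have hre1 : z1.re = z.re + a := by simp [hz1d]
    have hk1 : 56 ^ n * M ≤ kap Q z1 := H.step hM' h0 h1 hk' (by
      rw [dist_eq]
      have : z1 - z = (a : ℂ) := by
        apply Complex.ext <;> simp [hz1d]
      rw [this, Complex.norm_real, Real.norm_eq_abs]
      exact haa)
    have := ih z1 M hM (by rw [him1]; exact h0) (by rw [him1]; exact h1) hk1 x (by
      rw [hre1, him1]
      have : x - (z.re + a) = n * a := by linarith
      rw [this, abs_mul, abs_of_nonneg (by positivity : (0 : ℝ) ≤ n)]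
      gcongr)
    rw [him1] at this
    exact this

/-- the box: if `κ(z)` is very large then `κ ≥ 2` on a large box over `z` -/
theorem Hyp.box (H : Hyp Q D d0) (N : ℕ) {x d : ℝ} (hd : 0 < d) (hdD : d < D)
    (hk : 56 ^ (7 * N + 7) * 2 ≤ kap Q (x + d * I)) {x' y : ℝ} (hx : |x' - x| ≤ 2 ^ N * d)
    (hy1 : d / 2 ≤ y) (hy2 : y ≤ 2 ^ N * d) : 2 ≤ kap Q (x' + y * I) := by
  set z : ℂ := x + d * I with hz
  have hzim : z.im = d := by simp [hz]
  have hzre : z.re = x := by simp [hz]
  set R : ℝ := 2 ^ N * d with hR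
  have h2N : (1 : ℝ) ≤ 2 ^ N := one_le_pow₀ (by norm_num)
  have hRd : d ≤ R := by rw [hR]; nlinarith
  -- up
  have e1 : (56 : ℝ) ^ (7 * N + 7) * 2 = 56 ^ (4 * N) * (56 ^ 4 * (56 ^ (3 * (N + 1)) * 2)) := by
    rw [show 7 * N + 7 = 4 * N + (4 + 3 * (N + 1)) by ring, pow_add, pow_add]
    ring
  have hM3 : (2 : ℝ) ≤ 56 ^ (3 * (N + 1)) * 2 := by
    have : (1 : ℝ) ≤ 56 ^ (3 * (N + 1)) := one_le_pow₀ (by norm_num)
    linarith
  have hM4 : (2 : ℝ) ≤ 56 ^ 4 * (56 ^ (3 * (N + 1)) * 2) := by nlinarith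
  rw [e1] at hk
  have hup := H.up (4 * N) z _ hM4 (by rw [hzim]; exact hd) (by rw [hzim]; exact hdD) hk R
    (by rw [hzim]; exact hRd) (by
      rw [hzim, hR]
      have : (2 : ℝ) ^ N ≤ (5 / 4) ^ (4 * N) := by
        rw [pow_mul]
        exact pow_le_pow_left₀ (by norm_num) (by norm_num) _
      gcongr)
  rw [hzre] at hup
  set z1 : ℂ := x + R * I with hz1
  have h1im : z1.im = R := by simp [hz1]
  have h1re : z1.re = x := by simp [hz1]
  have hRpos : 0 < R := by linarith
  have hRD : R < D := by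
    -- go up step by step: use `up` for the point at height `min`
    by_contra hc
    push Not at hc
    have := H.up (4 * N) z _ hM4 (by rw [hzim]; exact hd) (by rw [hzim]; exact hdD) hk
      ((d + D) / 2 ⊔ d0) (by
        rw [hzim]
        exact le_sup_of_le_left (by linarith)) (by
        rw [hzim]
        have h2 : R ≤ (5 / 4) ^ (4 * N) * d := by
          rw [hR]
          have : (2 : ℝ) ^ N ≤ (5 / 4) ^ (4 * N) := by
            rw [pow_mul]
            exact pow_le_pow_left₀ (by norm_num) (by norm_num) _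
          gcongr
        refine le_trans (sup_le ?_ ?_) h2
        · linarith
        · have := H.hD
          have := H.hd0
          linarith)
    have hlt : (d + D) / 2 ⊔ d0 < D := by
      apply sup_lt_iff.2
      constructor
      · linarith
      · have := H.hD
        have := H.hd0
        linarith
    have h3 := H.lt_d0 (z := z.re + (((d + D) / 2 ⊔ d0 : ℝ) : ℂ) * I) (by simpa using hlt)
      (by linarith)
    simp at h3
  have hhor := H.hor 4 z1 _ hM3 (by rw [h1im]; exact hRpos) (by rw [h1im]; exact hRD)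
    hup x' (by
      rw [h1re, h1im]
      push_cast
      linarith)
  rw [h1im] at hhor
  set z2 : ℂ := x' + R * I with hz2
  have h2im : z2.im = R := by simp [hz2]
  have h2re : z2.re = x' := by simp [hz2]
  have hdown := H.down (3 * (N + 1)) z2 2 le_rfl (by rw [h2im]; exact hRpos)
    (by rw [h2im]; exact hRD) hhor y (by rw [h2im]; exact hy2) (by
      rw [h2im, hR]
      have h4 : ((3 : ℝ) / 4) ^ (3 * (N + 1)) ≤ (1 / 2) ^ (N + 1) := by
        rw [pow_mul]
        exact pow_le_pow_left₀ (by norm_num) (by norm_num) _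
      have h5 : ((1 : ℝ) / 2) ^ (N + 1) * (2 ^ N * d) = d / 2 := by
        rw [pow_succ, one_div, inv_pow]
        field_simp
      calc ((3 : ℝ) / 4) ^ (3 * (N + 1)) * (2 ^ N * d) ≤ (1 / 2) ^ (N + 1) * (2 ^ N * d) := by
            gcongr
        _ = d / 2 := h5
        _ ≤ y := hy1)
  rw [h2re] at hdown
  exact hdown

end Vale.Agent.P097.H36
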